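import Vale.Agent.P004E.SDefs
import Vale.Agent.P004.B
import Vale.Agent.P004G.H1a
import Vale.Agent.P004G.H353.Js

/-!
# P004E, module S3 : far windows (`StFar`)
-/

open Real MeasureTheory Set Filter
open scoped ENNReal Topology

namespace P004E

namespace Far

open P004G

variable [Crv]

/-- the pointwise bound for `v ≥ 1` -/
theorem Uf_small : ∃ C : ℝ, 1 ≤ C ∧ ∀ (h : ℤ) (q : ℕ) (v : ℝ), 1 ≤ v →
    |Uf h q v| ≤ C * Real.exp (-π * v) := by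
  have hs : Summable fun n : ℕ => (n : ℝ) ^ 2 * Real.exp (-π * n) :=
    Real.summable_pow_mul_exp_neg_nat_mul 2 (r := π) Real.pi_pos
  have hs' : Summable fun n : ℕ => Real.exp π * ((n : ℝ) ^ 2 * Real.exp (-π * n)) := hs.mul_left _
  refine ⟨max 1 (∑' n : ℕ, Real.exp π * ((n : ℝ) ^ 2 * Real.exp (-π * n))), le_max_left _ _, ?_⟩
  intro h q v hv
  have hv0 : 0 < v := by linarith
  rw [H1.Uf_eq]
  have hb : ∀ n : ℕ, ‖H1.wt q v n * chi h n‖ ≤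
      (Real.exp π * ((n : ℝ) ^ 2 * Real.exp (-π * n))) * Real.exp (-π * v) := by
    intro n
    rw [norm_mul, Real.norm_eq_abs, Real.norm_eq_abs]
    have h1 := H1.abs_wt_le pfCoef q v n
    have h2 := H1.abs_chi_le h n
    have h3 : |H1.wt q v n| * |chi h n| ≤ (n : ℝ) ^ 2 * Real.exp (-(π * v) * n) := by
      calc |H1.wt q v n| * |chi h n| ≤ ((n : ℝ) ^ 2 * Real.exp (-(π * v) * n)) * 1 := by
            gcongr
        _ = _ := by ring
    refine h3.trans ?_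
    rcases Nat.eq_zero_or_pos n with rfl | hn
    · simp
    have hn1 : (1 : ℝ) ≤ n := by exact_mod_cast hn
    have h4 : Real.exp (-(π * v) * n) ≤ Real.exp π * Real.exp (-π * n) * Real.exp (-π * v) := by
      rw [← Real.exp_add, ← Real.exp_add]
      apply Real.exp_le_exp.2
      have : 0 ≤ π * ((v - 1) * (n - 1)) := by
        have := Real.pi_pos
        have h5 : 0 ≤ v - 1 := by linarith
        have h6 : (0 : ℝ) ≤ n - 1 := by linarith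
        positivity
      nlinarith
    calc (n : ℝ) ^ 2 * Real.exp (-(π * v) * n)
        ≤ (n : ℝ) ^ 2 * (Real.exp π * Real.exp (-π * n) * Real.exp (-π * v)) := by gcongr
      _ = _ := by ring
  have h7 := tsum_of_norm_bounded (hs'.hasSum.mul_right (Real.exp (-π * v))) hb
  rw [Real.norm_eq_abs] at h7
  refine h7.trans ?_
  apply mul_le_mul_of_nonneg_right (le_max_right _ _) (by positivity)

/-- windows with `u ≥ 1` -/
theorem Sw_small : ∃ C : ℝ, 1 ≤ C ∧ ∀ (h : ℤ) (q : ℕ) (u : ℝ) (k : ℝ → ℝ), 1 ≤ u → Kn 0 k →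
    |Sw h q u k| ≤ C * Real.exp (-2 * u) := by
  obtain ⟨C, hC, hU⟩ := Uf_small
  refine ⟨C, hC, ?_⟩
  intro h q u k hu hk
  unfold Sw
  have hb : ∀ x : ℝ, ‖u * Real.exp x * Uf h q (u * Real.exp x) * k x‖ ≤
      (Icc (0 : ℝ) 1).indicator (fun _ => C * Real.exp (-2 * u)) x := by
    intro x
    by_cases hx : k x = 0
    · rw [hx, mul_zero, norm_zero]
      exact Set.indicator_nonneg (fun _ _ => by positivity) x
    · have hx01 := hk.supp x hx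
      rw [Set.indicator_of_mem (Set.mem_Icc.2 hx01)]
      have hkx : |k x| ≤ 1 := by
        have := hk.bound 0 le_rfl x
        simpa using this
      set v : ℝ := u * Real.exp x with hv
      have hex : 1 ≤ Real.exp x := Real.one_le_exp hx01.1
      have huv : u ≤ v := by rw [hv]; nlinarith
      have hv1 : 1 ≤ v := hu.trans huv
      have hv0 : 0 ≤ v := by linarith
      have h1 := hU h q v hv1
      rw [norm_mul, norm_mul, Real.norm_eq_abs, Real.norm_eq_abs, Real.norm_eq_abs,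
        abs_of_nonneg hv0]
      have h2 : v * Real.exp (-π * v) ≤ Real.exp (-2 * u) := by
        have h3 : v ≤ Real.exp v := by linarith [Real.add_one_le_exp v]
        calc v * Real.exp (-π * v) ≤ Real.exp v * Real.exp (-π * v) := by gcongr
          _ = Real.exp (v + -π * v) := by rw [← Real.exp_add]
          _ ≤ Real.exp (-2 * u) := by
            apply Real.exp_le_exp.2
            have := Real.pi_gt_three
            nlinarith
      calc v * |Uf h q v| * |k x| ≤ v * (C * Real.exp (-π * v)) * 1 := by gcongr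
        _ = C * (v * Real.exp (-π * v)) := by ring
        _ ≤ C * Real.exp (-2 * u) := by gcongr
  have hint : Integrable ((Icc (0 : ℝ) 1).indicator (fun _ => C * Real.exp (-2 * u))) := by
    rw [integrable_indicator_iff measurableSet_Icc]
    exact integrableOn_const (by simp)
  have h4 := norm_integral_le_of_norm_le hint (Eventually.of_forall hb)
  rw [integral_indicator measurableSet_Icc] at h4
  simpa using h4

/-- the integrals of the dual sums -/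
noncomputable def II (H V : ℝ) (q : ℕ) (ε : ℤ) (j : ℕ) : ℝ≥0∞ :=
  ∫⁻ u₁ in Ioi V, ∫⁻ u₂ in Ioi V, ENNReal.ofReal |AG H q j (ε * j) u₁ u₂|

omit [Crv] in
theorem exp_neg_le_pow {t : ℝ} (ht : 0 < t) : Real.exp (-t) ≤ (Nat.factorial 21 : ℝ) / t ^ 21 := by
  have h1 : t ^ 21 / (Nat.factorial 21 : ℝ) ≤ Real.exp t :=
    Real.pow_div_factorial_le_exp t ht.le 21
  rw [Real.exp_neg, inv_le_comm₀ (by positivity) (by positivity)]
  calc ((Nat.factorial 21 : ℝ) / t ^ 21)⁻¹ = t ^ 21 / (Nat.factorial 21 : ℝ) := by rw [inv_div]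
    _ ≤ _ := h1

/-- the tail -/
theorem tail (C₃ : ℝ) (hC₃ : 1 ≤ C₃)
    (hT : ∀ (H V₁ V₂ : ℝ) (R j : ℕ) (k : ℤ), 0 < H → 0 < V₁ → 0 < V₂ → 0 < R → 0 < j →
    ∫⁻ u₁ in Ioi V₁, ∫⁻ u₂ in Ioi V₂, ENNReal.ofReal |AG H R j k u₁ u₂| ≤
      ENNReal.ofReal (C₃ * (1 + 1 / V₁) ^ 8 * (1 + 1 / V₂) ^ 8 * Real.exp (-(V₁ + V₂)) *
        Real.exp (-(j * H * V₁ * V₂) ^ (2 / 21 : ℝ) / C₃)))
    (L H V : ℝ) (q j : ℕ) (ε : ℤ) (hL : 1 ≤ L) (hH : 1 ≤ H) (hV0 : 0 < V)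
    (hV : Real.exp (-(2 * L)) ≤ V) (hq : 0 < q) (hj : 0 < j)
    (hM : (200 * C₃ * L) ^ 11 ≤ j * H * V * V) :
    II H V q ε j ≤ ENNReal.ofReal ((C₃ * 2 ^ 16 * ((Nat.factorial 21 : ℝ) * (2 * C₃) ^ 21)) /
      (j : ℝ) ^ 2) := by
  unfold II
  refine (hT H V V q j (ε * j) (by linarith) hV0 hV0 hq hj).trans (ENNReal.ofReal_le_ofReal ?_)
  set Λ : ℝ := 200 * C₃ * L with hΛ
  have hΛ1 : 1 ≤ Λ := by nlinarith
  have hj0 : (0 : ℝ) < j := by exact_mod_cast hj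
  have hH0 : 0 < H := by linarith
  set x : ℝ := j * H * V * V with hx
  have hx0 : 0 < x := by positivity
  set y : ℝ := x ^ (2 / 21 : ℝ) with hy
  have hy0 : 0 < y := by positivity
  have hyΛ : Λ ≤ y := by
    calc Λ = Λ ^ (1 : ℝ) := (Real.rpow_one _).symm
      _ ≤ Λ ^ (22 / 21 : ℝ) := Real.rpow_le_rpow_of_exponent_le hΛ1 (by norm_num)
      _ = (Λ ^ 11) ^ (2 / 21 : ℝ) := by
        rw [← Real.rpow_natCast Λ 11, ← Real.rpow_mul (by positivity)]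
        norm_num
      _ ≤ y := Real.rpow_le_rpow (by positivity) hM (by norm_num)
  have hy21 : y ^ 21 = x ^ 2 := by
    rw [hy, ← Real.rpow_natCast, ← Real.rpow_mul hx0.le]
    norm_num
  have e1 : -x ^ (2 / 21 : ℝ) / C₃ = -(y / (2 * C₃)) + -(y / (2 * C₃)) := by
    rw [← hy]; field_simp; ring
  have b1 : Real.exp (-(y / (2 * C₃))) ≤ Real.exp (-(100 * L)) := by
    apply Real.exp_le_exp.2
    have : 100 * L ≤ y / (2 * C₃) := by
      rw [le_div_iff₀ (by positivity)]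
      calc 100 * L * (2 * C₃) = Λ := by rw [hΛ]; ring
        _ ≤ y := hyΛ
    linarith
  have b2 : Real.exp (-(y / (2 * C₃))) ≤
      ((Nat.factorial 21 : ℝ) * (2 * C₃) ^ 21) * Real.exp (8 * L) / (j : ℝ) ^ 2 := by
    refine (exp_neg_le_pow (t := y / (2 * C₃)) (by positivity)).trans ?_
    rw [div_pow, hy21, div_div_eq_mul_div]
    rw [div_le_div_iff₀ (by positivity) (by positivity)]
    have b3 : (j : ℝ) ^ 2 ≤ Real.exp (8 * L) * x ^ 2 := by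
      have b4 : 1 ≤ Real.exp (2 * L) * V := by
        calc (1 : ℝ) = Real.exp (2 * L) * Real.exp (-(2 * L)) := by
              rw [← Real.exp_add]; simp
          _ ≤ _ := by gcongr
      have b5 : Real.exp (8 * L) = Real.exp (2 * L) ^ 4 := by
        rw [← Real.exp_nat_mul]; congr 1; push_cast; ring
      calc (j : ℝ) ^ 2 = (j : ℝ) ^ 2 * 1 ^ 2 * 1 ^ 4 := by ring
        _ ≤ (j : ℝ) ^ 2 * H ^ 2 * (Real.exp (2 * L) * V) ^ 4 := by gcongr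
        _ = _ := by rw [b5, hx]; ring
    calc (Nat.factorial 21 : ℝ) * (2 * C₃) ^ 21 * (j : ℝ) ^ 2
        ≤ (Nat.factorial 21 : ℝ) * (2 * C₃) ^ 21 * (Real.exp (8 * L) * x ^ 2) := by gcongr
      _ = _ := by ring
  have b6 : 1 + 1 / V ≤ 2 * Real.exp (2 * L) := by
    have h1 : 1 / V ≤ Real.exp (2 * L) := by
      rw [div_le_iff₀ hV0]
      calc (1 : ℝ) = Real.exp (2 * L) * Real.exp (-(2 * L)) := by
            rw [← Real.exp_add]; simp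
        _ ≤ _ := by gcongr
    have h2 : 1 ≤ Real.exp (2 * L) := Real.one_le_exp (by linarith)
    linarith
  have b7 : Real.exp (-(V + V)) ≤ 1 := by
    rw [Real.exp_le_one_iff]; linarith
  have b8 : 0 ≤ 1 + 1 / V := by positivity
  rw [e1, Real.exp_add]
  calc C₃ * (1 + 1 / V) ^ 8 * (1 + 1 / V) ^ 8 * Real.exp (-(V + V)) *
        (Real.exp (-(y / (2 * C₃))) * Real.exp (-(y / (2 * C₃))))
      ≤ C₃ * (2 * Real.exp (2 * L)) ^ 8 * (2 * Real.exp (2 * L)) ^ 8 * 1 *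
        (Real.exp (-(100 * L)) *
          (((Nat.factorial 21 : ℝ) * (2 * C₃) ^ 21) * Real.exp (8 * L) / (j : ℝ) ^ 2)) := by
        gcongr
    _ = (C₃ * 2 ^ 16 * ((Nat.factorial 21 : ℝ) * (2 * C₃) ^ 21)) / (j : ℝ) ^ 2 *
        (Real.exp (2 * L) ^ 16 * Real.exp (-(100 * L)) * Real.exp (8 * L)) := by ring
    _ ≤ (C₃ * 2 ^ 16 * ((Nat.factorial 21 : ℝ) * (2 * C₃) ^ 21)) / (j : ℝ) ^ 2 * 1 := by
        have : Real.exp (2 * L) ^ 16 * Real.exp (-(100 * L)) * Real.exp (8 * L) ≤ 1 := by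
          rw [← Real.exp_nat_mul, ← Real.exp_add, ← Real.exp_add, Real.exp_le_one_iff]
          push_cast
          linarith
        exact mul_le_mul_of_nonneg_left this (by positivity)
    _ = _ := mul_one _

omit [Crv] in
theorem VV_ge {L V : ℝ} (hVL : Real.exp (-(2 * L)) ≤ V) : Real.exp (-(4 * L)) ≤ V * V := by
  calc Real.exp (-(4 * L)) = Real.exp (-(2 * L)) * Real.exp (-(2 * L)) := by
        rw [← Real.exp_add]; congr 1; ring
    _ ≤ V * V := mul_le_mul hVL hVL (Real.exp_pos _).le ((Real.exp_pos _).le.trans hVL)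

omit [Crv] in
theorem VV_theta {L V Λ : ℝ} (hL : 1 ≤ L) (hLΛ : L ≤ Λ) (hVL : Real.exp (-(2 * L)) ≤ V) :
    (V * V) ^ (-(1 / (8 * Λ))) ≤ 2 := by
  have hΛ0 : 0 < Λ := by linarith
  have hθ0 : 0 < 1 / (8 * Λ) := by positivity
  calc (V * V) ^ (-(1 / (8 * Λ))) ≤ (Real.exp (-(4 * L))) ^ (-(1 / (8 * Λ))) :=
        Real.rpow_le_rpow_of_nonpos (Real.exp_pos _) (VV_ge hVL) (by linarith)
    _ = Real.exp (4 * L * (1 / (8 * Λ))) := by rw [← Real.exp_mul]; congr 1; ring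
    _ ≤ Real.exp (1 / 2) := by
      apply Real.exp_le_exp.2
      rw [mul_one_div, div_le_div_iff₀ (by positivity) (by norm_num)]
      linarith
    _ ≤ 2 := by
      have h2 : Real.exp (1 / 2) * Real.exp (1 / 2) = Real.exp 1 := by
        rw [← Real.exp_add]; norm_num
      have h3 := Real.exp_one_lt_d9
      have h4 := Real.exp_pos (1 / 2)
      nlinarith

omit [Crv] in
theorem log_M {L V Λ : ℝ} (hL : 1 ≤ L) (hLΛ : L ≤ Λ) (hVL : Real.exp (-(2 * L)) ≤ V) :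
    Real.log (Λ ^ 11 / (V * V)) ≤ 1000 * Λ := by
  have hΛ0 : 0 < Λ := by linarith
  have hV0 : 0 < V := lt_of_lt_of_le (Real.exp_pos _) hVL
  have h1 : Real.log (V * V) ≥ -(4 * L) := by
    calc -(4 * L) = Real.log (Real.exp (-(4 * L))) := (Real.log_exp _).symm
      _ ≤ Real.log (V * V) := Real.log_le_log (Real.exp_pos _) (VV_ge hVL)
  have h2 : Real.log Λ ≤ Λ := (Real.log_le_sub_one_of_pos hΛ0).trans (by linarith)
  rw [Real.log_div (by positivity) (by positivity), Real.log_pow]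
  push_cast
  linarith

/-- both signs -/
noncomputable def WW (H V : ℝ) (q : ℕ) (j : ℕ) : ℝ≥0∞ := II H V q 1 j + II H V q (-1) j

theorem one_j {C₂ : ℝ} (hC₂ : 0 < C₂) {A₂ : ℕ}
    (hG : ∀ θ : ℝ, 0 < θ → θ ≤ 1 / 8 →
    ∀ (H V₁ V₂ : ℝ) (R j k₁ k₂ : ℕ) (ε : ℤ), ε.natAbs = 1 → 0 < H → 0 < V₁ → 0 < V₂ → 0 < R →
    0 < j → Squarefree k₁ → 0 < k₂ →
    ∫⁻ u₁ in Ioi V₁, ∫⁻ u₂ in Ioi V₂,
      ENNReal.ofReal |AG H R j (ε * ((k₁ * k₂ ^ 2 : ℕ) : ℤ)) u₁ u₂| ≤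
      ENNReal.ofReal (C₂ * (1 / θ) ^ A₂ * dv R ^ A₂ * dv k₂ ^ A₂ * (j * H) ^ (-1 / 2 + θ) *
        (V₁ * V₂) ^ (-θ)) * (Jm k₁ + 1))
    {L H V Λ : ℝ} {q : ℕ} (hL : 1 ≤ L) (hLΛ : L ≤ Λ) (hH : 0 < H)
    (hVL : Real.exp (-(2 * L)) ≤ V) (hq : 0 < q) (ε : ℤ) (hε : ε.natAbs = 1) (j₁ j₂ : ℕ)
    (h1 : Squarefree j₁) (h2 : 0 < j₂) :
    II H V q ε (j₁ * j₂ ^ 2) ≤ ENNReal.ofReal (2 * C₂ * (8 * Λ) ^ A₂ * dv q ^ A₂) *
      ENNReal.ofReal (dv j₂ ^ A₂ * (((j₁ * j₂ ^ 2 : ℕ) : ℝ) * H) ^ (-1 / 2 + 1 / (8 * Λ))) *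
      (Jm j₁ + 1) := by
  have hΛ0 : 0 < Λ := by linarith
  have hV0 : 0 < V := lt_of_lt_of_le (Real.exp_pos _) hVL
  have hθ0 : 0 < 1 / (8 * Λ) := by positivity
  have hθ8 : 1 / (8 * Λ) ≤ 1 / 8 := by
    apply one_div_le_one_div_of_le (by norm_num)
    linarith
  have hj : 0 < j₁ * j₂ ^ 2 := Nat.mul_pos (Nat.pos_of_ne_zero h1.ne_zero) (pow_pos h2 2)
  have hdj := P004.B.dv_nonneg j₂
  have hdq := P004.B.dv_nonneg q
  refine (hG _ hθ0 hθ8 H V V q (j₁ * j₂ ^ 2) j₁ j₂ ε hε hH hV0 hV0 hq hj h1 h2).trans ?_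
  rw [← ENNReal.ofReal_mul (by positivity)]
  apply mul_le_mul' (ENNReal.ofReal_le_ofReal _) le_rfl
  rw [one_div_one_div]
  have hVθ := VV_theta hL hLΛ hVL
  calc C₂ * (8 * Λ) ^ A₂ * dv q ^ A₂ * dv j₂ ^ A₂ *
        (((j₁ * j₂ ^ 2 : ℕ) : ℝ) * H) ^ (-1 / 2 + 1 / (8 * Λ)) * (V * V) ^ (-(1 / (8 * Λ)))
      ≤ C₂ * (8 * Λ) ^ A₂ * dv q ^ A₂ * dv j₂ ^ A₂ *
        (((j₁ * j₂ ^ 2 : ℕ) : ℝ) * H) ^ (-1 / 2 + 1 / (8 * Λ)) * 2 := by gcongr
    _ = _ := by ring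

theorem main_sum {C₂ : ℝ} (hC₂ : 0 < C₂) {A₂ : ℕ}
    (hG : ∀ θ : ℝ, 0 < θ → θ ≤ 1 / 8 →
    ∀ (H V₁ V₂ : ℝ) (R j k₁ k₂ : ℕ) (ε : ℤ), ε.natAbs = 1 → 0 < H → 0 < V₁ → 0 < V₂ → 0 < R →
    0 < j → Squarefree k₁ → 0 < k₂ →
    ∫⁻ u₁ in Ioi V₁, ∫⁻ u₂ in Ioi V₂,
      ENNReal.ofReal |AG H R j (ε * ((k₁ * k₂ ^ 2 : ℕ) : ℤ)) u₁ u₂| ≤
      ENNReal.ofReal (C₂ * (1 / θ) ^ A₂ * dv R ^ A₂ * dv k₂ ^ A₂ * (j * H) ^ (-1 / 2 + θ) *
        (V₁ * V₂) ^ (-θ)) * (Jm k₁ + 1))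
    {C₄ : ℝ} {B : ℕ} (hJ : ∀ L H M : ℝ, 1 ≤ L → 1 ≤ H → 0 < M →
      Real.log M ≤ 1000 * L → ∀ (W : ℕ → ℝ≥0∞) (D : ℝ≥0∞),
    (∀ j₁ j₂ : ℕ, Squarefree j₁ → 0 < j₂ → W (j₁ * j₂ ^ 2) ≤ D * ENNReal.ofReal (dv j₂ ^ A₂ *
      (((j₁ * j₂ ^ 2 : ℕ) : ℝ) * H) ^ (-1 / 2 + 1 / (8 * L))) * (Jm j₁ + 1)) →
    ∑ j ∈ Finset.Icc 1 ⌊M / H⌋₊, W j ≤ D * ENNReal.ofReal (C₄ * L ^ B * √M / H))
    {L H V Λ : ℝ} {q : ℕ} (hL : 1 ≤ L) (hLΛ : L ≤ Λ) (hH : 1 ≤ H)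
    (hVL : Real.exp (-(2 * L)) ≤ V) (hq : 0 < q) :
    ∑ j ∈ Finset.Icc 1 ⌊(Λ ^ 11 / (V * V)) / H⌋₊, WW H V q j ≤
      ENNReal.ofReal (4 * C₂ * (8 * Λ) ^ A₂ * dv q ^ A₂) *
        ENNReal.ofReal (C₄ * Λ ^ B * √(Λ ^ 11 / (V * V)) / H) := by
  have hΛ0 : 0 < Λ := by linarith
  have hV0 : 0 < V := lt_of_lt_of_le (Real.exp_pos _) hVL
  refine hJ Λ H _ (hL.trans hLΛ) hH (by positivity) (log_M hL hLΛ hVL) _ _ ?_
  intro j₁ j₂ h1 h2
  have i1 := one_j hC₂ hG hL hLΛ (by linarith) hVL hq 1 (by norm_num) j₁ j₂ h1 h2 (H := H)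
  have i2 := one_j hC₂ hG hL hLΛ (by linarith) hVL hq (-1) (by norm_num) j₁ j₂ h1 h2 (H := H)
  refine (add_le_add i1 i2).trans (le_of_eq ?_)
  have e : ENNReal.ofReal (4 * C₂ * (8 * Λ) ^ A₂ * dv q ^ A₂) =
      2 * ENNReal.ofReal (2 * C₂ * (8 * Λ) ^ A₂ * dv q ^ A₂) := by
    rw [show 4 * C₂ * (8 * Λ) ^ A₂ * dv q ^ A₂ =
      2 * (2 * C₂ * (8 * Λ) ^ A₂ * dv q ^ A₂) by ring, ENNReal.ofReal_mul (by norm_num)]
    norm_num
  rw [e]
  ring

omit [Crv] in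
/-- splitting a series at `N` -/
theorem split_sum (W : ℕ → ℝ≥0∞) (N : ℕ) (K : ℝ) (hK : 0 ≤ K)
    (h : ∀ j : ℕ, N < j → W j ≤ ENNReal.ofReal (K * (1 / (j : ℝ) ^ 2))) :
    ∑' j : ℕ, W (j + 1) ≤ ∑ j ∈ Finset.Icc 1 N, W j +
      ENNReal.ofReal (K * ∑' j : ℕ, 1 / (((j + 1 : ℕ) : ℝ)) ^ 2) := by
  have hsq : Summable fun j : ℕ => 1 / (((j + 1 : ℕ) : ℝ)) ^ 2 :=
    (summable_nat_add_iff 1).2 (Real.summable_one_div_nat_pow.2 one_lt_two)
  set f₁ : ℕ → ℝ≥0∞ := fun j => if j + 1 ≤ N then W (j + 1) else 0 with hf₁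
  have s1 : ∀ j : ℕ, W (j + 1) ≤ f₁ j +
      ENNReal.ofReal (K * (1 / (((j + 1 : ℕ) : ℝ)) ^ 2)) := by
    intro j
    by_cases h' : j + 1 ≤ N
    · rw [hf₁]
      simp only
      rw [if_pos h']
      exact le_self_add
    · refine (h (j + 1) (by omega)).trans ?_
      exact le_add_self
  refine (ENNReal.tsum_le_tsum s1).trans ?_
  rw [ENNReal.tsum_add]
  apply add_le_add
  · have e1 : ∑' j : ℕ, f₁ j = ∑ j ∈ Finset.range N, f₁ j := by
      apply tsum_eq_sum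
      intro j hj
      rw [hf₁]
      simp only
      rw [if_neg]
      rw [Finset.mem_range] at hj
      omega
    have e3 : ∑ j ∈ Finset.range N, f₁ j = ∑ j ∈ Finset.range N, W (j + 1) := by
      apply Finset.sum_congr rfl
      intro j hj
      rw [hf₁]
      simp only
      rw [if_pos]
      rw [Finset.mem_range] at hj
      omega
    rw [e1, e3, Finset.range_eq_Ico, Finset.sum_Ico_add' (fun j => W j) 0 N 1]
    refine le_of_eq (Finset.sum_congr ?_ fun _ _ => rfl)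
    ext x
    simp only [Finset.mem_Ico, Finset.mem_Icc]
    omega
  · rw [← ENNReal.ofReal_tsum_of_nonneg (fun j => by positivity) (hsq.mul_left _), tsum_mul_left]

/-- the constant of the tail -/
noncomputable def K3 (C₃ : ℝ) : ℝ := C₃ * 2 ^ 16 * ((Nat.factorial 21 : ℝ) * (2 * C₃) ^ 21)

theorem tail_W (C₃ : ℝ) (hC₃ : 1 ≤ C₃)
    (hT : ∀ (H V₁ V₂ : ℝ) (R j : ℕ) (k : ℤ), 0 < H → 0 < V₁ → 0 < V₂ → 0 < R → 0 < j →
    ∫⁻ u₁ in Ioi V₁, ∫⁻ u₂ in Ioi V₂, ENNReal.ofReal |AG H R j k u₁ u₂| ≤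
      ENNReal.ofReal (C₃ * (1 + 1 / V₁) ^ 8 * (1 + 1 / V₂) ^ 8 * Real.exp (-(V₁ + V₂)) *
        Real.exp (-(j * H * V₁ * V₂) ^ (2 / 21 : ℝ) / C₃)))
    {L H V : ℝ} {q : ℕ} (hL : 1 ≤ L) (hH : 1 ≤ H) (hVL : Real.exp (-(2 * L)) ≤ V) (hq : 0 < q)
    (j : ℕ) (hj : ⌊((200 * C₃ * L) ^ 11 / (V * V)) / H⌋₊ < j) :
    WW H V q j ≤ ENNReal.ofReal (2 * K3 C₃ * (1 / (j : ℝ) ^ 2)) := by
  have hV0 : 0 < V := lt_of_lt_of_le (Real.exp_pos _) hVL
  have hH0 : 0 < H := by linarith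
  have hj0 : 0 < j := by omega
  have hK : 0 ≤ K3 C₃ := by unfold K3; positivity
  have hjM : (200 * C₃ * L) ^ 11 / (V * V) < j * H := by
    have := (Nat.floor_lt (by positivity)).1 hj
    rwa [div_lt_iff₀ hH0] at this
  have hcond : (200 * C₃ * L) ^ 11 ≤ j * H * V * V := by
    rw [div_lt_iff₀ (by positivity)] at hjM
    linarith [hjM.le, mul_assoc ((j : ℝ) * H) V V]
  have t1 := tail C₃ hC₃ hT L H V q j 1 hL hH hV0 hVL hq hj0 hcond
  have t2 := tail C₃ hC₃ hT L H V q j (-1) hL hH hV0 hVL hq hj0 hcond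
  refine (add_le_add t1 t2).trans (le_of_eq ?_)
  rw [← K3, ← ENNReal.ofReal_add (by positivity) (by positivity)]
  congr 1
  ring

/-- the dual side -/
theorem dual (hAG : StAG) (hTail : StTailAG) (hFull : StFull) : ∃ K : ℝ, 1 ≤ K ∧ ∃ A : ℕ,
    ∀ (L H V : ℝ) (q : ℕ), 1 ≤ L → 1 ≤ H → Real.exp (-(2 * L)) ≤ V → 0 < q →
    ∑' j : ℕ, WW H V q (j + 1) ≤ ENNReal.ofReal (K * (1 + L ^ A * dv q ^ A / (V * H))) := by
  obtain ⟨C₂, hC₂, A₂, hG⟩ := hAG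
  obtain ⟨C₃, hC₃, hT⟩ := hTail
  obtain ⟨C₄, hC₄, B, hJ⟩ := Tw.pfJs hFull P004.pfDiv A₂
  set c : ℝ := 200 * C₃ with hc
  have hc1 : 1 ≤ c := by rw [hc]; linarith
  set Z₂ : ℝ := ∑' j : ℕ, 1 / (((j + 1 : ℕ) : ℝ)) ^ 2 with hZ₂
  have hZ₂0 : 0 ≤ Z₂ := tsum_nonneg fun j => by positivity
  have hK3 : 0 ≤ K3 C₃ := by unfold K3; positivity
  set E : ℝ := 4 * C₂ * (8 * c) ^ A₂ * (C₄ * c ^ B * c ^ 6) with hE
  have hE0 : 0 ≤ E := by positivity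
  refine ⟨1 + 2 * K3 C₃ * Z₂ + E, by nlinarith [mul_nonneg hK3 hZ₂0], A₂ + B + 6, ?_⟩
  intro L H V q hL hH hVL hq
  have hV0 : 0 < V := lt_of_lt_of_le (Real.exp_pos _) hVL
  have hH0 : 0 < H := by linarith
  have hL0 : 0 < L := by linarith
  have hdv : 1 ≤ dv q := by
    unfold P004.dv
    exact_mod_cast Finset.card_pos.2 ⟨1, Nat.one_mem_divisors.2 hq.ne'⟩
  have hLΛ : L ≤ c * L := by nlinarith
  have hΛ1 : 1 ≤ c * L := hL.trans hLΛ
  refine (split_sum (WW H V q) _ (2 * K3 C₃) (by positivity)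
    (tail_W C₃ hC₃ hT hL hH hVL hq)).trans ?_
  rw [← hc]
  refine (add_le_add (main_sum hC₂ hG hJ hL hLΛ hH hVL hq) le_rfl).trans ?_
  rw [← hZ₂, ← ENNReal.ofReal_mul (by positivity), ← ENNReal.ofReal_add (by positivity)
    (by positivity)]
  apply ENNReal.ofReal_le_ofReal
  have hsM : √((c * L) ^ 11 / (V * V)) ≤ (c * L) ^ 6 / V := by
    have h1 : √((c * L) ^ 11 / (V * V)) ≤ √(((c * L) ^ 6 / V) ^ 2) := by
      apply Real.sqrt_le_sqrt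
      rw [div_pow, ← pow_mul, ← sq V]
      gcongr
      norm_num
    rwa [Real.sqrt_sq (by positivity)] at h1
  have e1 : 4 * C₂ * (8 * (c * L)) ^ A₂ * dv q ^ A₂ *
      (C₄ * (c * L) ^ B * √((c * L) ^ 11 / (V * V)) / H) ≤
      E * (L ^ (A₂ + B + 6) * dv q ^ (A₂ + B + 6) / (V * H)) := by
    calc 4 * C₂ * (8 * (c * L)) ^ A₂ * dv q ^ A₂ *
          (C₄ * (c * L) ^ B * √((c * L) ^ 11 / (V * V)) / H)
        ≤ 4 * C₂ * (8 * (c * L)) ^ A₂ * dv q ^ (A₂ + B + 6) *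
          (C₄ * (c * L) ^ B * ((c * L) ^ 6 / V) / H) := by
          gcongr
          omega
      _ = _ := by
          rw [hE, pow_add L, pow_add L, mul_pow c L, mul_pow c L,
            show (8 * (c * L)) ^ A₂ = (8 * c) ^ A₂ * L ^ A₂ by rw [← mul_pow]; ring_nf]
          field_simp
  have e2 : 0 ≤ L ^ (A₂ + B + 6) * dv q ^ (A₂ + B + 6) / (V * H) := by positivity
  have e3 : 0 ≤ 2 * K3 C₃ * Z₂ := by positivity
  nlinarith

/-- the case `u ≤ 1` -/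
theorem small (hPoi : StPoiW) (hA0 : StAd0) (hAdAG : StAdAG) (hAG : StAG)
    (hTail : StTailAG) (hFull : StFull) : ∃ C : ℝ, 1 ≤ C ∧ ∃ A : ℕ,
    ∀ (L u : ℝ) (H q : ℕ) (k : ℝ → ℝ), 1 ≤ L → 1 ≤ H →
    Real.exp (-L) ≤ u → u ≤ 1 → 0 < q → Kn 0 k →
    ∑ h ∈ hZ H, Sw h q u k ^ 2 ≤ C * (H + L ^ A * dv q ^ A / u) := by
  obtain ⟨C₀, hC₀, hP⟩ := hPoi
  obtain ⟨C₁, hC₁, hA⟩ := hA0
  obtain ⟨K, hK, A, hD⟩ := dual hAG hTail hFull
  refine ⟨C₀ * (C₁ + 2 * K), by nlinarith, A, ?_⟩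
  intro L u H q k hL hH hu hu1 hq hk
  have hH1 : (1 : ℝ) ≤ H := by exact_mod_cast hH
  have hH0 : (0 : ℝ) < H := by linarith
  have hu0 : 0 < u := lt_of_lt_of_le (Real.exp_pos _) hu
  have hdv : 0 ≤ dv q := P004.B.dv_nonneg q
  have hVL : Real.exp (-(2 * L)) ≤ u / 2 := by
    have h1 : Real.exp (-L) ≤ 1 / 2 := by
      have h2 : Real.exp (-L) ≤ Real.exp (-1) := Real.exp_le_exp.2 (by linarith)
      have h3 : Real.exp (-1) ≤ 1 / 2 := by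
        rw [Real.exp_neg, inv_le_comm₀ (by positivity) (by norm_num)]
        linarith [Real.add_one_le_exp (1 : ℝ)]
      linarith
    calc Real.exp (-(2 * L)) = Real.exp (-L) * Real.exp (-L) := by
          rw [← Real.exp_add]; congr 1; ring
      _ ≤ u * (1 / 2) := by gcongr
      _ = u / 2 := by ring
  have hAd : ∑' j : ℕ, (ENNReal.ofReal |Ad H q (j + 1) u k| +
      ENNReal.ofReal |Ad H q (-(j + 1)) u k|) ≤ ∑' j : ℕ, WW H (u / 2) q (j + 1) := by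
    apply ENNReal.tsum_le_tsum
    intro j
    unfold WW
    apply add_le_add
    · have := hAdAG H u q (j + 1) 1 k hH hu0 hq (by omega) (by norm_num) hk
      rw [one_mul] at this
      push_cast at this
      simpa [II] using this
    · have := hAdAG H u q (j + 1) (-1) k hH hu0 hq (by omega) (by norm_num) hk
      push_cast at this
      simpa [II] using this
  have h0 := hA H u q k hH hu0 hq hk
  have hall := hP H u q k hH hu0 hq hk
  have hD' := hD L H (u / 2) q hL hH1 hVL hq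
  have hX : 0 ≤ L ^ A * dv q ^ A := by positivity
  have hX2 : 0 ≤ L ^ A * dv q ^ A / (u / 2 * H) := by positivity
  have hfin : ENNReal.ofReal (∑ h ∈ hZ H, Sw h q u k ^ 2) ≤
      ENNReal.ofReal (C₀ * H * (C₁ + K * (1 + L ^ A * dv q ^ A / (u / 2 * H)))) := by
    refine hall.trans ?_
    rw [ENNReal.ofReal_mul (p := C₀ * H) (by positivity), ENNReal.ofReal_add (p := C₁)
      (by positivity) (by positivity)]
    gcongr
    exact hAd.trans hD'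
  have hreal := (ENNReal.ofReal_le_ofReal_iff (by positivity)).1 hfin
  refine hreal.trans ?_
  have e1 : C₀ * H * (C₁ + K * (1 + L ^ A * dv q ^ A / (u / 2 * H))) =
      C₀ * (C₁ + K) * H + C₀ * (2 * K) * (L ^ A * dv q ^ A / u) := by
    field_simp
    ring
  rw [e1]
  have hX3 : 0 ≤ L ^ A * dv q ^ A / u := by positivity
  have a1 : C₀ * (C₁ + K) * H ≤ C₀ * (C₁ + 2 * K) * H := by gcongr; linarith
  have a2 : C₀ * (2 * K) * (L ^ A * dv q ^ A / u) ≤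
      C₀ * (C₁ + 2 * K) * (L ^ A * dv q ^ A / u) := by gcongr; linarith
  linarith

end Far

open P004G

variable [Crv]

/-- **Module S3** : far windows. -/
theorem pfFar (hPoi : StPoiW) (hA0 : StAd0) (hAdAG : StAdAG) (hAG : StAG)
    (hTail : StTailAG) (hFull : StFull) : StFar := by
  obtain ⟨C, hC, A, hsm⟩ := Far.small hPoi hA0 hAdAG hAG hTail hFull
  obtain ⟨C₅, hC₅, hS⟩ := Far.Sw_small
  refine ⟨3 * C₅ ^ 2 + 3 * C, by nlinarith [sq_nonneg C₅], A, ?_⟩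
  intro L u H q k hL hH hHL hu hq hk
  have hu0 : 0 < u := lt_of_lt_of_le (Real.exp_pos _) hu
  have hdv : 0 ≤ dv q := P004.B.dv_nonneg q
  have hX : 0 ≤ L ^ A * dv q ^ A / u := by positivity
  rcases le_total 1 u with hu1 | hu1
  · have h1 : ∀ h ∈ hZ H, Sw h q u k ^ 2 ≤ C₅ ^ 2 * Real.exp (-u) := by
      intro h _
      have h2 := hS h q u k hu1 hk
      have h3 : Real.exp (-2 * u) ≤ 1 := by rw [Real.exp_le_one_iff]; linarith
      have h4 : Real.exp (-2 * u) ≤ Real.exp (-u) := Real.exp_le_exp.2 (by linarith)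
      calc Sw h q u k ^ 2 = |Sw h q u k| ^ 2 := (sq_abs _).symm
        _ ≤ (C₅ * Real.exp (-2 * u)) ^ 2 := by gcongr
        _ = C₅ ^ 2 * (Real.exp (-2 * u) * Real.exp (-2 * u)) := by ring
        _ ≤ C₅ ^ 2 * (1 * Real.exp (-u)) := by gcongr
        _ = _ := by ring
    have hcard : ((hZ H).card : ℝ) ≤ 3 * H := by
      have : (hZ H).card ≤ 3 * H := by
        unfold hZ
        refine (Finset.card_erase_le).trans ?_
        rw [Int.card_Icc]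
        omega
      exact_mod_cast this
    calc ∑ h ∈ hZ H, Sw h q u k ^ 2 ≤ ∑ h ∈ hZ H, C₅ ^ 2 * Real.exp (-u) := Finset.sum_le_sum h1
      _ = (hZ H).card * (C₅ ^ 2 * Real.exp (-u)) := by rw [Finset.sum_const, nsmul_eq_mul]
      _ ≤ (3 * H) * (C₅ ^ 2 * Real.exp (-u)) := by gcongr
      _ = (3 * C₅ ^ 2) * H * Real.exp (-u) := by ring
      _ ≤ (3 * C₅ ^ 2 + 3 * C) * (H + L ^ A * dv q ^ A / u) * Real.exp (-u) := by
        gcongr
        · linarith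
        · linarith
  have hreal := hsm L u H q k hL hH hu hu1 hq hk
  have hexp : 1 ≤ 3 * Real.exp (-u) := by
    have h1 : Real.exp u ≤ 3 := by
      calc Real.exp u ≤ Real.exp 1 := Real.exp_le_exp.2 hu1
        _ ≤ 3 := by linarith [Real.exp_one_lt_d9]
    rw [Real.exp_neg]
    rw [← div_eq_mul_inv, le_div_iff₀ (Real.exp_pos _)]
    linarith
  calc ∑ h ∈ hZ H, Sw h q u k ^ 2 ≤ C * (H + L ^ A * dv q ^ A / u) := hreal
    _ = C * (H + L ^ A * dv q ^ A / u) * 1 := by ring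
    _ ≤ C * (H + L ^ A * dv q ^ A / u) * (3 * Real.exp (-u)) := by gcongr
    _ = (3 * C) * (H + L ^ A * dv q ^ A / u) * Real.exp (-u) := by ring
    _ ≤ (3 * C₅ ^ 2 + 3 * C) * (H + L ^ A * dv q ^ A / u) * Real.exp (-u) := by
      gcongr
      nlinarith [sq_nonneg C₅]

end P004E
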