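import Vale.Agent.P004E.H187.Gsum
import Vale.Agent.P004E.H187.Far

/-!
# P004E, module S5 (`StDual`), part 1: arithmetic
-/

open Real MeasureTheory Set Filter
open scoped ENNReal Topology

namespace P004E

namespace Dual

open P004G

theorem dv_nn (n : ℕ) : 0 ≤ dv n := P004.B.dv_nonneg n

theorem one_le_dv {n : ℕ} (hn : 0 < n) : 1 ≤ dv n := by
  unfold P004.dv
  exact_mod_cast Finset.card_pos.2 ⟨1, Nat.one_mem_divisors.2 hn.ne'⟩

/-- `∑_{d ∣ g} d` -/
noncomputable def sig (g : ℕ) : ℝ := ∑ d ∈ g.divisors, (d : ℝ)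

theorem sig_nonneg (g : ℕ) : 0 ≤ sig g := by unfold sig; positivity

theorem sig_le (g : ℕ) : sig g ≤ g * dv g := by
  unfold sig P004.dv
  calc ∑ d ∈ g.divisors, (d : ℝ) ≤ ∑ d ∈ g.divisors, (g : ℝ) := by
        apply Finset.sum_le_sum
        intro d hd
        exact_mod_cast Nat.divisor_le hd
    _ = g * g.divisors.card := by rw [Finset.sum_const, nsmul_eq_mul]; ring

theorem nu_le {q : ℕ} (hq : 0 < q) : nu q ≤ dv q ^ 4 := by
  unfold nu P004.dv
  rw [Nat.card_divisors hq.ne', Nat.cast_prod, ← Finset.prod_pow]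
  apply Finset.prod_le_prod
  · intro p _; positivity
  · intro p hp
    have h1 : (1 : ℝ) ≤ p := by exact_mod_cast (Nat.prime_of_mem_primeFactors hp).one_le
    have h2 : 1 ≤ √(p : ℝ) := Real.one_le_sqrt.2 h1
    have h3 : 1 / √(p : ℝ) ≤ 1 := by rw [div_le_one (by linarith)]; exact h2
    have h4 : 1 ≤ q.factorization p :=
      (Nat.prime_of_mem_primeFactors hp).factorization_pos_of_dvd hq.ne'
        (Nat.dvd_of_mem_primeFactors hp)
    have h5 : (1 : ℝ) ≤ (q.factorization p : ℝ) := by exact_mod_cast h4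
    apply pow_le_pow_left₀ (by positivity)
    push_cast
    linarith

theorem nu_nonneg (q : ℕ) : 0 ≤ nu q := by unfold nu; positivity

/-- sum over `n ≤ e^l` -/
theorem sum_div (K : ℕ) : ∃ C : ℝ, 1 ≤ C ∧ ∃ A : ℕ, ∀ l : ℝ, 1 ≤ l →
    ∑' n : ℕ, ENNReal.ofReal (if (n : ℝ) ≤ Real.exp l then dv n ^ K / n else 0) ≤
      ENNReal.ofReal (C * l ^ A) := by
  obtain ⟨C, hC, A, h⟩ := P004.B.div1 K
  refine ⟨3 * C + 1, by linarith, A, ?_⟩
  intro l hl
  have hl0 : 0 < l := by linarith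
  have h1 := h (1 / l) (by positivity) (by rw [div_le_one hl0]; exact hl)
  rw [one_div_one_div] at h1
  have h2 : ∀ n : ℕ, ENNReal.ofReal (if (n : ℝ) ≤ Real.exp l then dv n ^ K / n else 0) ≤
      ENNReal.ofReal 3 * ENNReal.ofReal (dv n ^ K * (n : ℝ) ^ (-1 - 1 / l)) := by
    intro n
    rw [← ENNReal.ofReal_mul (by norm_num)]
    apply ENNReal.ofReal_le_ofReal
    have hd := dv_nn n
    split_ifs with hn
    · rcases Nat.eq_zero_or_pos n with rfl | hn0
      · simp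
        positivity
      have hn1 : (1 : ℝ) ≤ n := by exact_mod_cast hn0
      have hn2 : (0 : ℝ) < n := by linarith
      have h3 : (n : ℝ) ^ (1 / l) ≤ 3 := by
        calc (n : ℝ) ^ (1 / l) ≤ (Real.exp l) ^ (1 / l) :=
              Real.rpow_le_rpow hn2.le hn (by positivity)
          _ = Real.exp 1 := by rw [← Real.exp_mul]; congr 1; field_simp
          _ ≤ 3 := by linarith [Real.exp_one_lt_d9]
      have h4 : (n : ℝ) ^ (-1 - 1 / l) = 1 / (n * (n : ℝ) ^ (1 / l)) := by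
        rw [show (-1 - 1 / l : ℝ) = -(1 + 1 / l) by ring, Real.rpow_neg hn2.le,
          Real.rpow_add hn2, Real.rpow_one, one_div (_ * _)]
      rw [h4]
      have h5 : 0 < (n : ℝ) ^ (1 / l) := by positivity
      rw [div_le_iff₀ hn2]
      calc dv n ^ K = dv n ^ K * 1 := by ring
        _ ≤ dv n ^ K * (3 / (n : ℝ) ^ (1 / l)) := by
          gcongr
          rw [le_div_iff₀ h5]
          linarith
        _ = _ := by field_simp
    · positivity
  refine (ENNReal.tsum_le_tsum h2).trans ?_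
  rw [ENNReal.tsum_mul_left]
  calc ENNReal.ofReal 3 * ∑' n : ℕ, ENNReal.ofReal (dv n ^ K * (n : ℝ) ^ (-1 - 1 / l))
      ≤ ENNReal.ofReal 3 * ENNReal.ofReal (C * l ^ A) := by gcongr
    _ = ENNReal.ofReal (3 * (C * l ^ A)) := by rw [← ENNReal.ofReal_mul (by norm_num)]
    _ ≤ _ := by
        apply ENNReal.ofReal_le_ofReal
        have : 0 ≤ l ^ A := by positivity
        nlinarith

/-- convergent sums -/
theorem sum_conv (K : ℕ) : ∃ C : ℝ, 1 ≤ C ∧
    ∑' n : ℕ, ENNReal.ofReal (dv n ^ K * (n : ℝ) ^ (-(3 / 2) : ℝ)) ≤ ENNReal.ofReal C := by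
  obtain ⟨C, hC, A, h⟩ := P004.B.div1 K
  refine ⟨max 1 (C * (1 / (1 / 2)) ^ A), le_max_left _ _, ?_⟩
  have h1 := h (1 / 2) (by norm_num) (by norm_num)
  have e : (-1 - 1 / 2 : ℝ) = -(3 / 2) := by norm_num
  rw [e] at h1
  exact h1.trans (ENNReal.ofReal_le_ofReal (le_max_right _ _))

/-- sums with the weight `n^{-θ}`, `θ = 1/l` -/
theorem sum_th (K : ℕ) : ∃ C : ℝ, 1 ≤ C ∧ ∃ A : ℕ, ∀ l : ℝ, 1 ≤ l →
    ∑' n : ℕ, ENNReal.ofReal (dv n ^ K / n * (n : ℝ) ^ (-(1 / l))) ≤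
      ENNReal.ofReal (C * l ^ A) := by
  obtain ⟨C, hC, A, h⟩ := P004.B.div1 K
  refine ⟨C + 1, by linarith, A, ?_⟩
  intro l hl
  have hl0 : 0 < l := by linarith
  have h1 := h (1 / l) (by positivity) (by rw [div_le_one hl0]; exact hl)
  rw [one_div_one_div] at h1
  have h2 : ∀ n : ℕ, ENNReal.ofReal (dv n ^ K / n * (n : ℝ) ^ (-(1 / l))) ≤
      ENNReal.ofReal (dv n ^ K * (n : ℝ) ^ (-1 - 1 / l)) := by
    intro n
    apply ENNReal.ofReal_le_ofReal
    have hd := dv_nn n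
    rcases Nat.eq_zero_or_pos n with rfl | hn0
    · rw [Nat.cast_zero, div_zero, zero_mul]
      positivity
    have hn2 : (0 : ℝ) < n := by exact_mod_cast hn0
    rw [show (-1 - 1 / l : ℝ) = -(1 / l) - 1 by ring, Real.rpow_sub hn2, Real.rpow_one]
    apply le_of_eq
    ring
  refine ((ENNReal.tsum_le_tsum h2).trans h1).trans (ENNReal.ofReal_le_ofReal ?_)
  have : 0 ≤ l ^ A := by positivity
  nlinarith

/-- Abel summation against an antitone weight -/
theorem abel (c f : ℕ → ℝ) (hc : ∀ N, 0 ≤ ∑ i ∈ Finset.range N, c i)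
    (hf : ∀ i, f (i + 1) ≤ f i) (N : ℕ) :
    (∑ i ∈ Finset.range N, c i) * f N ≤ ∑ i ∈ Finset.range N, c i * f i := by
  induction N with
  | zero => simp
  | succ N ih =>
    have h1 := hc (N + 1)
    rw [Finset.sum_range_succ] at h1 ⊢
    rw [Finset.sum_range_succ]
    calc (∑ i ∈ Finset.range N, c i + c N) * f (N + 1)
        ≤ (∑ i ∈ Finset.range N, c i + c N) * f N := mul_le_mul_of_nonneg_left (hf N) h1
      _ = (∑ i ∈ Finset.range N, c i) * f N + c N * f N := by ring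
      _ ≤ _ := by linarith

variable [Crv]

theorem lam_sq_le (n : ℕ) : lam n ^ 2 ≤ dv n ^ 2 := by
  rcases Nat.eq_zero_or_pos n with rfl | hn
  · have : lam 0 = 0 := by unfold lam; simp
    rw [this, zero_pow two_ne_zero]
    positivity
  have hn0 : (0 : ℝ) < n := by exact_mod_cast hn
  have h1 := pfCoef.bound n
  have h2 : 0 < √(n : ℝ) := Real.sqrt_pos.2 hn0
  have h3 : |lam n| ≤ dv n := by
    unfold lam
    rw [abs_div, abs_of_pos h2, div_le_iff₀ h2]
    exact h1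
  calc lam n ^ 2 = |lam n| ^ 2 := (sq_abs _).symm
    _ ≤ dv n ^ 2 := by gcongr

theorem lam_sq_eq (n : ℕ) : lam n ^ 2 = (ca n : ℝ) ^ 2 / n := by
  unfold lam
  rw [div_pow, Real.sq_sqrt (by positivity)]

/-- `∑ lam(e)²/e · e^{-1/l} ≤ C l` -/
theorem sum_lam (h0 : StN0) : ∃ C : ℝ, 1 ≤ C ∧ ∀ l : ℝ, 1 ≤ l →
    ∑' n : ℕ, ENNReal.ofReal (lam n ^ 2 / n * (n : ℝ) ^ (-(1 / l))) ≤
      ENNReal.ofReal (C * l) := by
  obtain ⟨C, hC, h⟩ := h0
  refine ⟨4 * C, by linarith, ?_⟩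
  intro l hl
  have hl0 : 0 < l := by linarith
  set θ : ℝ := 1 / l with hθ
  have hθ0 : 0 < θ := by positivity
  have hθ1 : θ ≤ 1 := by rw [hθ, div_le_one hl0]; exact hl
  apply ENNReal.tsum_le_of_sum_range_le
  intro N
  rw [← ENNReal.ofReal_sum_of_nonneg (fun i _ => by positivity)]
  apply ENNReal.ofReal_le_ofReal
  set f : ℕ → ℝ := fun i => ((i + 1 : ℕ) : ℝ) ^ (-2 - θ) with hf
  have hfa : ∀ i, f (i + 1) ≤ f i := by
    intro i
    rw [hf]
    simp only
    apply Real.rpow_le_rpow_of_nonpos (by positivity) _ (by linarith)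
    push_cast
    linarith
  have key := abel (fun i => 2 * C * ((i + 1 : ℕ) : ℝ) - (ca (i + 1) : ℝ) ^ 2) f (by
    intro M
    rw [Finset.sum_sub_distrib, ← Finset.mul_sum]
    have e1 : ∑ i ∈ Finset.range M, ((i + 1 : ℕ) : ℝ) = M * (M + 1) / 2 := by
      induction M with
      | zero => simp
      | succ M ih => rw [Finset.sum_range_succ, ih]; push_cast; ring
    have e2 : ∑ i ∈ Finset.range M, (ca (i + 1) : ℝ) ^ 2 ≤ C * (M : ℝ) ^ 2 := by
      rcases Nat.eq_zero_or_pos M with rfl | hM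
      · simp
      have hM1 : (1 : ℝ) ≤ M := by exact_mod_cast hM
      have := h M hM1
      rw [Nat.floor_natCast] at this
      refine le_trans (le_of_eq ?_) this
      rw [Finset.range_eq_Ico, Finset.sum_Ico_add' (fun j => (ca j : ℝ) ^ 2) 0 M 1]
      refine Finset.sum_congr ?_ fun _ _ => rfl
      ext x
      simp only [Finset.mem_Ico, Finset.mem_Icc]
      omega
    rw [e1]
    have : (0 : ℝ) ≤ M := by positivity
    nlinarith) hfa N
  have hpos : 0 ≤ (∑ i ∈ Finset.range N, (2 * C * ((i + 1 : ℕ) : ℝ) - (ca (i + 1) : ℝ) ^ 2)) * f N := by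
    apply mul_nonneg
    · have := abel (fun i => 2 * C * ((i + 1 : ℕ) : ℝ) - (ca (i + 1) : ℝ) ^ 2) f
      rw [Finset.sum_sub_distrib, ← Finset.mul_sum]
      have e1 : ∑ i ∈ Finset.range N, ((i + 1 : ℕ) : ℝ) = N * (N + 1) / 2 := by
        clear key this
        induction N with
        | zero => simp
        | succ M ih => rw [Finset.sum_range_succ, ih]; push_cast; ring
      have e2 : ∑ i ∈ Finset.range N, (ca (i + 1) : ℝ) ^ 2 ≤ C * (N : ℝ) ^ 2 := by
        rcases Nat.eq_zero_or_pos N with rfl | hM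
        · simp
        have hM1 : (1 : ℝ) ≤ N := by exact_mod_cast hM
        have := h N hM1
        rw [Nat.floor_natCast] at this
        refine le_trans (le_of_eq ?_) this
        rw [Finset.range_eq_Ico, Finset.sum_Ico_add' (fun j => (ca j : ℝ) ^ 2) 0 N 1]
        refine Finset.sum_congr ?_ fun _ _ => rfl
        ext x
        simp only [Finset.mem_Ico, Finset.mem_Icc]
        omega
      rw [e1]
      have : (0 : ℝ) ≤ N := by positivity
      nlinarith
    · rw [hf]; simp only; positivity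
  have h3 : ∑ i ∈ Finset.range N, (ca (i + 1) : ℝ) ^ 2 * f i ≤
      2 * C * ∑ i ∈ Finset.range N, ((i + 1 : ℕ) : ℝ) * f i := by
    have h4 := hpos.trans key
    simp only [sub_mul, Finset.sum_sub_distrib] at h4
    rw [Finset.mul_sum]
    have e3 : ∑ i ∈ Finset.range N, 2 * C * (((i + 1 : ℕ) : ℝ) * f i) =
        ∑ i ∈ Finset.range N, 2 * C * ((i + 1 : ℕ) : ℝ) * f i := by
      apply Finset.sum_congr rfl
      intro i _
      ring
    rw [e3]
    linarith
  have h5 : ∑ i ∈ Finset.range N, ((i + 1 : ℕ) : ℝ) * f i ≤ 2 * l := by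
    have e4 : ∑ i ∈ Finset.range N, ((i + 1 : ℕ) : ℝ) * f i =
        ∑ i ∈ Finset.range N, ((i + 1 : ℕ) : ℝ) ^ (-1 - θ) := by
      apply Finset.sum_congr rfl
      intro i _
      rw [hf]
      simp only
      have : (0 : ℝ) < ((i + 1 : ℕ) : ℝ) := by positivity
      rw [show (-1 - θ) = 1 + (-2 - θ) by ring, Real.rpow_add this, Real.rpow_one]
    rw [e4]
    have h6 := P004.B.tsum_rpow θ hθ0 hθ1
    have h7 : ∑ i ∈ Finset.range N, ENNReal.ofReal (((i + 1 : ℕ) : ℝ) ^ (-1 - θ)) ≤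
        ∑' n : ℕ, ENNReal.ofReal ((n : ℝ) ^ (-1 - θ)) := by
      calc ∑ i ∈ Finset.range N, ENNReal.ofReal (((i + 1 : ℕ) : ℝ) ^ (-1 - θ))
          ≤ ∑' i : ℕ, ENNReal.ofReal (((i + 1 : ℕ) : ℝ) ^ (-1 - θ)) := ENNReal.sum_le_tsum _
        _ ≤ _ := ENNReal.tsum_comp_le_tsum_of_injective (add_left_injective 1)
            (fun n : ℕ => ENNReal.ofReal ((n : ℝ) ^ (-1 - θ)))
    rw [← ENNReal.ofReal_sum_of_nonneg (fun i _ => by positivity)] at h7
    have h8 := (ENNReal.ofReal_le_ofReal_iff (by positivity)).1 (h7.trans h6)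
    refine h8.trans ?_
    rw [hθ, one_div_one_div, pow_one]
  have h9 : ∑ n ∈ Finset.range N, lam n ^ 2 / n * (n : ℝ) ^ (-θ) ≤
      ∑ i ∈ Finset.range N, (ca (i + 1) : ℝ) ^ 2 * f i := by
    have e5 : ∀ n : ℕ, 0 < n → lam n ^ 2 / n * (n : ℝ) ^ (-θ) = (ca n : ℝ) ^ 2 * (n : ℝ) ^ (-2 - θ) := by
      intro n hn
      have hn0 : (0 : ℝ) < n := by exact_mod_cast hn
      rw [lam_sq_eq, show (-2 - θ) = -θ - 2 by ring, Real.rpow_sub hn0]
      norm_num
      field_simp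
    rcases N with _ | N
    · simp
    rw [Finset.sum_range_succ', Finset.sum_range_succ]
    have e6 : lam 0 ^ 2 / ((0 : ℕ) : ℝ) * ((0 : ℕ) : ℝ) ^ (-θ) = 0 := by simp
    rw [e6, add_zero]
    have e7 : ∀ i ∈ Finset.range N, lam (i + 1) ^ 2 / ((i + 1 : ℕ) : ℝ) * ((i + 1 : ℕ) : ℝ) ^ (-θ) =
        (ca (i + 1) : ℝ) ^ 2 * f i := fun i _ => e5 (i + 1) (by omega)
    rw [Finset.sum_congr rfl e7]
    have : 0 ≤ (ca (N + 1) : ℝ) ^ 2 * f N := by
      rw [hf]; simp only; positivity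
    linarith
  calc ∑ n ∈ Finset.range N, lam n ^ 2 / n * (n : ℝ) ^ (-θ)
      ≤ 2 * C * ∑ i ∈ Finset.range N, ((i + 1 : ℕ) : ℝ) * f i := h9.trans h3
    _ ≤ 2 * C * (2 * l) := by gcongr
    _ = 4 * C * l := by ring

end Dual

end P004E
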