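import Vale.Agent.P004E.H187.Dual1

/-!
# P004E, module S5 (`StDual`), part 2: the blocks `X ≤ j < 2 X`
-/

open Real MeasureTheory Set Filter
open scoped ENNReal Topology

namespace P004E

namespace Dual

open P004G

variable [Crv]

/-- `∑_{X ≤ j < 2X} Sw(ε j)² / j` -/
noncomputable def Qs (ε : ℤ) (X q : ℕ) (u : ℝ) (k : ℝ → ℝ) : ℝ :=
  ∑ j ∈ Finset.Ico X (2 * X), 1 / (j : ℝ) * Sw (ε * j) q u k ^ 2

/-- the image of a set of positive integers under the sign `ε` -/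
noncomputable def im (ε : ℤ) (J : Finset ℕ) : Finset ℤ := J.image (fun j : ℕ => ε * (j : ℤ))

omit [Crv] in
theorem eps_cases {ε : ℤ} (h : ε.natAbs = 1) : ε = 1 ∨ ε = -1 := by omega

omit [Crv] in
theorem eps_ne {ε : ℤ} (h : ε.natAbs = 1) : ε ≠ 0 := by omega

omit [Crv] in
theorem sum_im {ε : ℤ} (h : ε.natAbs = 1) (J : Finset ℕ) (F : ℤ → ℝ) :
    ∑ m ∈ im ε J, F m = ∑ j ∈ J, F (ε * j) := by
  unfold im
  rw [Finset.sum_image]
  intro a _ b _ hab
  have := mul_left_cancel₀ (eps_ne h) hab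
  exact_mod_cast this

omit [Crv] in
theorem abs_eps {ε : ℤ} (h : ε.natAbs = 1) (j : ℕ) : |((ε * j : ℤ) : ℝ)| = j := by
  rcases eps_cases h with rfl | rfl <;> simp

omit [Crv] in
theorem kn_mono {m n : ℕ} (h : m ≤ n) {k : ℝ → ℝ} (hk : Kn n k) : Kn m k where
  smooth := hk.smooth.of_le (by exact_mod_cast h)
  supp := hk.supp
  bound := fun i hi x => hk.bound i (hi.trans h) x

/-- far windows -/
theorem far_block (hFar : StFar) : ∃ C : ℝ, 1 ≤ C ∧ ∃ A : ℕ, ∀ (Λ : ℝ) (ε : ℤ) (X q : ℕ) (u : ℝ)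
    (k : ℝ → ℝ), 1 ≤ Λ → ε.natAbs = 1 → 1 ≤ X → Real.log (2 * X) ≤ Λ → Real.exp (-Λ) ≤ u →
    0 < q → Kn 0 k →
    Qs ε X q u k ≤ C * (1 + Λ ^ A * dv q ^ A / (X * u)) * Real.exp (-u) := by
  obtain ⟨C, hC, A, h⟩ := hFar
  refine ⟨2 * C, by linarith, A, ?_⟩
  intro Λ ε X q u k hΛ hε hX hlog hu hq hk
  have hX0 : (0 : ℝ) < X := by exact_mod_cast hX
  have hu0 : 0 < u := lt_of_lt_of_le (Real.exp_pos _) hu
  have hd := dv_nn q
  have h1 := h Λ u (2 * X) q k hΛ (by omega) (by push_cast; exact hlog) hu hq hk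
  have h2 : Qs ε X q u k ≤ 1 / X * ∑ m ∈ im ε (Finset.Ico X (2 * X)), Sw m q u k ^ 2 := by
    rw [sum_im hε, Finset.mul_sum]
    unfold Qs
    apply Finset.sum_le_sum
    intro j hj
    rw [Finset.mem_Ico] at hj
    have hj0 : (X : ℝ) ≤ j := by exact_mod_cast hj.1
    gcongr
  have h3 : ∑ m ∈ im ε (Finset.Ico X (2 * X)), Sw m q u k ^ 2 ≤
      ∑ m ∈ hZ (2 * X), Sw m q u k ^ 2 := by
    apply Finset.sum_le_sum_of_subset_of_nonneg
    · intro m hm
      unfold im at hm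
      rw [Finset.mem_image] at hm
      obtain ⟨j, hj, rfl⟩ := hm
      rw [Finset.mem_Ico] at hj
      unfold hZ
      rw [Finset.mem_erase, Finset.mem_Icc]
      rcases eps_cases hε with rfl | rfl
      · exact ⟨by omega, by push_cast; omega, by push_cast; omega⟩
      · exact ⟨by omega, by push_cast; omega, by push_cast; omega⟩
    · intro m _ _; positivity
  calc Qs ε X q u k ≤ 1 / X * (C * ((2 * X : ℕ) + Λ ^ A * dv q ^ A / u) * Real.exp (-u)) := by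
        refine h2.trans ?_
        gcongr
        exact h3.trans h1
    _ = C * (2 + Λ ^ A * dv q ^ A / (X * u)) * Real.exp (-u) := by
        push_cast
        field_simp
    _ ≤ 2 * C * (1 + Λ ^ A * dv q ^ A / (X * u)) * Real.exp (-u) := by
        have h4 : 0 ≤ Λ ^ A * dv q ^ A / (X * u) := by positivity
        apply mul_le_mul_of_nonneg_right _ (Real.exp_pos _).le
        have h5 : 0 ≤ C * (Λ ^ A * dv q ^ A / (X * u)) := by positivity
        linarith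

/-- full sums -/
theorem near_T {n : ℕ} {α : ℝ} (hTq : StTq) (hLev : StLev n α) : ∃ C : ℝ, 1 ≤ C ∧
    ∀ (Λ : ℝ) (ε : ℤ) (X : ℕ) (u : ℝ) (k : ℝ → ℝ), 1 ≤ Λ → ε.natAbs = 1 → 1 ≤ X →
    Real.log (2 * X) ≤ Λ → 0 < u → Kn n k →
    ∑ j ∈ Finset.Ico X (2 * X), 1 / (j : ℝ) * Tw (ε * j) u k ^ 2 ≤ C * Λ ^ α := by
  obtain ⟨C, hC, h⟩ := hLev
  obtain ⟨D, hD, hsum⟩ := sum_conv 4
  refine ⟨2 * C * D, by nlinarith, ?_⟩
  intro Λ ε X u k hΛ hε hX hlog hu hk
  have hX0 : (0 : ℝ) < X := by exact_mod_cast hX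
  have hΛ0 : 0 < Λ := by linarith
  have hΛα : 0 ≤ Λ ^ α := by positivity
  -- one `j₂`
  have hone : ∀ j₂ : ℕ, 0 < j₂ → ∑ j₁ ∈ sqf (2 * X / j₂ ^ 2),
      Tw (ε * j₁ * (j₂ : ℤ) ^ 2) u k ^ 2 ≤ nu j₂ * (C * Λ ^ α * ((2 * X : ℕ) / (j₂ : ℝ) ^ 2)) := by
    intro j₂ hj₂
    have hj₂0 : (0 : ℝ) < j₂ := by exact_mod_cast hj₂
    have hB : 0 ≤ C * Λ ^ α * ((2 * X : ℕ) / (j₂ : ℝ) ^ 2) := by positivity
    rcases Nat.eq_zero_or_pos (2 * X / j₂ ^ 2) with h0 | h0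
    · rw [h0]
      have : sqf 0 = ∅ := by unfold sqf; simp
      rw [this, Finset.sum_empty]
      exact mul_nonneg (nu_nonneg _) hB
    have hYle : ((2 * X / j₂ ^ 2 : ℕ) : ℝ) ≤ (2 * X : ℕ) / (j₂ : ℝ) ^ 2 := by
      have := Nat.cast_div_le (α := ℝ) (m := 2 * X) (n := j₂ ^ 2)
      push_cast at this ⊢
      exact this
    have hYlog : Real.log ((2 * X / j₂ ^ 2 : ℕ) : ℝ) ≤ Λ := by
      refine le_trans (Real.log_le_log (by exact_mod_cast h0) ?_) hlog
      refine hYle.trans ?_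
      rw [div_le_iff₀ (by positivity)]
      push_cast
      have : (1 : ℝ) ≤ (j₂ : ℝ) ^ 2 := one_le_pow₀ (by exact_mod_cast hj₂)
      nlinarith
    have key := hTq (C * Λ ^ α * ((2 * X : ℕ) / (j₂ : ℝ) ^ 2)) u j₂ n
      (im ε (sqf (2 * X / j₂ ^ 2))) (fun _ => 1) hu hB hj₂ (by
        intro m hm
        refine ⟨?_, zero_le_one⟩
        unfold im at hm
        rw [Finset.mem_image] at hm
        obtain ⟨j, hj, rfl⟩ := hm
        unfold P004.sqf at hj
        rw [Finset.mem_filter, Finset.mem_Icc] at hj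
        exact mul_ne_zero (eps_ne hε) (by omega)) (by
        intro u' _ k' hk'
        have hu'0 : 0 < u' := by linarith
        have h1 := h Λ (2 * X / j₂ ^ 2) hΛ h0 hYlog u' hu'0 k' hk'
        calc ∑ m ∈ im ε (sqf (2 * X / j₂ ^ 2)), 1 * Tw m u' k' ^ 2
            = ∑ m ∈ im ε (sqf (2 * X / j₂ ^ 2)), Tw m u' k' ^ 2 := by simp
          _ ≤ MT (2 * X / j₂ ^ 2) u' k' := by
              unfold MT
              apply Finset.sum_le_sum_of_subset_of_nonneg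
              · intro m hm
                unfold im at hm
                rw [Finset.mem_image] at hm
                obtain ⟨j, hj, rfl⟩ := hm
                unfold P004.sqf at hj
                rw [Finset.mem_filter, Finset.mem_Icc] at hj
                rw [mem_sqZ]
                refine ⟨?_, ?_⟩
                · rw [Int.natAbs_mul, hε]; simpa using hj.1.2
                · rw [← Int.squarefree_natAbs, Int.natAbs_mul, hε]; simpa using hj.2
              · intro m _ _; positivity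
          _ ≤ C * Λ ^ α * ((2 * X / j₂ ^ 2 : ℕ) : ℝ) := h1
          _ ≤ _ := by gcongr) k hk
    refine le_trans (le_of_eq ?_) key
    rw [sum_im hε]
    apply Finset.sum_congr rfl
    intro j _
    rw [one_mul]
  -- in `ℝ≥0∞`
  have hmain : ENNReal.ofReal (∑ j ∈ Finset.Ico X (2 * X), 1 / (j : ℝ) * Tw (ε * j) u k ^ 2) ≤
      ENNReal.ofReal (2 * C * D * Λ ^ α) := by
    rw [ENNReal.ofReal_sum_of_nonneg (fun j _ => by positivity)]
    set W : ℕ → ℝ≥0∞ := fun j => if X ≤ j then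
      ENNReal.ofReal (1 / (j : ℝ) * Tw (ε * j) u k ^ 2) else 0 with hW
    have e1 : ∑ j ∈ Finset.Ico X (2 * X), ENNReal.ofReal (1 / (j : ℝ) * Tw (ε * j) u k ^ 2) ≤
        ∑ j ∈ Finset.Icc 1 (2 * X), W j := by
      calc _ = ∑ j ∈ Finset.Ico X (2 * X), W j := by
            apply Finset.sum_congr rfl
            intro j hj
            rw [Finset.mem_Ico] at hj
            rw [hW]
            simp only
            rw [if_pos hj.1]
        _ ≤ _ := by
            apply Finset.sum_le_sum_of_subset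
            intro j hj
            rw [Finset.mem_Ico] at hj
            rw [Finset.mem_Icc]
            omega
    refine e1.trans ((P004.I2Mod.regroup W (2 * X)).trans ?_)
    calc ∑ p ∈ (sqf (2 * X) ×ˢ Finset.Icc 1 (2 * X)).filter (fun p => p.1 * p.2 ^ 2 ≤ 2 * X),
          W (p.1 * p.2 ^ 2)
        ≤ ∑ p ∈ (sqf (2 * X) ×ˢ Finset.Icc 1 (2 * X)).filter (fun p => p.1 * p.2 ^ 2 ≤ 2 * X),
          ENNReal.ofReal (1 / (X : ℝ) * Tw (ε * p.1 * (p.2 : ℤ) ^ 2) u k ^ 2) := by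
          apply Finset.sum_le_sum
          intro p _
          rw [hW]
          simp only
          split_ifs with hp
          · apply ENNReal.ofReal_le_ofReal
            have e2 : ε * ((p.1 * p.2 ^ 2 : ℕ) : ℤ) = ε * p.1 * (p.2 : ℤ) ^ 2 := by
              push_cast; ring
            rw [e2]
            have : (X : ℝ) ≤ ((p.1 * p.2 ^ 2 : ℕ) : ℝ) := by exact_mod_cast hp
            gcongr
          · exact bot_le
      _ ≤ ∑ j₂ ∈ Finset.Icc 1 (2 * X), ∑ j₁ ∈ sqf (2 * X / j₂ ^ 2),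
          ENNReal.ofReal (1 / (X : ℝ) * Tw (ε * j₁ * (j₂ : ℤ) ^ 2) u k ^ 2) := by
          rw [Finset.sum_sigma']
          apply le_of_eq
          refine Finset.sum_bij' (fun p _ => (⟨p.2, p.1⟩ : Σ _ : ℕ, ℕ)) (fun s _ => (s.2, s.1))
            ?_ ?_ ?_ ?_ ?_
          · intro p hp
            simp only [Finset.mem_filter, Finset.mem_product, P004.sqf, Finset.mem_Icc] at hp
            simp only [Finset.mem_sigma, P004.sqf, Finset.mem_filter, Finset.mem_Icc]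
            refine ⟨hp.1.2, ⟨hp.1.1.1.1, ?_⟩, hp.1.1.2⟩
            rw [Nat.le_div_iff_mul_le (pow_pos (by omega) 2)]
            exact hp.2
          · intro s hs
            simp only [Finset.mem_sigma, P004.sqf, Finset.mem_filter, Finset.mem_Icc] at hs
            simp only [Finset.mem_filter, Finset.mem_product, P004.sqf, Finset.mem_Icc]
            have h5 : s.2 * s.1 ^ 2 ≤ 2 * X := by
              rw [← Nat.le_div_iff_mul_le (pow_pos (by omega) 2)]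
              exact hs.2.1.2
            have h6 : s.2 ≤ s.2 * s.1 ^ 2 := Nat.le_mul_of_pos_right _ (pow_pos (by omega) 2)
            exact ⟨⟨⟨⟨hs.2.1.1, h6.trans h5⟩, hs.2.2⟩, hs.1⟩, h5⟩
          · intro p _; rfl
          · intro s _; rfl
          · intro p _; rfl
      _ ≤ ∑ j₂ ∈ Finset.Icc 1 (2 * X), ENNReal.ofReal (2 * C * Λ ^ α) *
          ENNReal.ofReal (dv j₂ ^ 4 * (j₂ : ℝ) ^ (-(3 / 2) : ℝ)) := by
          apply Finset.sum_le_sum
          intro j₂ hj₂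
          rw [Finset.mem_Icc] at hj₂
          have hj0 : 0 < j₂ := by omega
          have hj1 : (1 : ℝ) ≤ j₂ := by exact_mod_cast hj0
          have hj2 : (0 : ℝ) < j₂ := by linarith
          rw [← ENNReal.ofReal_sum_of_nonneg (fun j _ => by positivity), ← Finset.mul_sum,
            ← ENNReal.ofReal_mul (by positivity)]
          apply ENNReal.ofReal_le_ofReal
          have hdd := dv_nn j₂
          have hpow : 1 / (j₂ : ℝ) ^ 2 ≤ (j₂ : ℝ) ^ (-(3 / 2) : ℝ) := by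
            rw [one_div, ← Real.rpow_natCast, ← Real.rpow_neg hj2.le]
            apply Real.rpow_le_rpow_of_exponent_le hj1
            norm_num
          calc 1 / (X : ℝ) * ∑ j₁ ∈ sqf (2 * X / j₂ ^ 2), Tw (ε * j₁ * (j₂ : ℤ) ^ 2) u k ^ 2
              ≤ 1 / (X : ℝ) * (nu j₂ * (C * Λ ^ α * ((2 * X : ℕ) / (j₂ : ℝ) ^ 2))) := by
                gcongr
                exact hone j₂ hj0
            _ = 2 * C * Λ ^ α * (nu j₂ * (1 / (j₂ : ℝ) ^ 2)) := by
                push_cast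
                field_simp
            _ ≤ 2 * C * Λ ^ α * (dv j₂ ^ 4 * (j₂ : ℝ) ^ (-(3 / 2) : ℝ)) := by
                gcongr
                exact nu_le hj0
      _ = ENNReal.ofReal (2 * C * Λ ^ α) * ∑ j₂ ∈ Finset.Icc 1 (2 * X),
          ENNReal.ofReal (dv j₂ ^ 4 * (j₂ : ℝ) ^ (-(3 / 2) : ℝ)) := by rw [Finset.mul_sum]
      _ ≤ ENNReal.ofReal (2 * C * Λ ^ α) * ENNReal.ofReal D := by
          gcongr
          exact (ENNReal.sum_le_tsum _).trans hsum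
      _ = _ := by
          rw [← ENNReal.ofReal_mul (by positivity)]
          congr 1
          ring
  exact (ENNReal.ofReal_le_ofReal_iff (by positivity)).1 hmain

/-- squarefree-supported sums, all windows -/
theorem near_block {n : ℕ} {α : ℝ} (hST : StST) (hTq : StTq) (hFar : StFar) (hLev : StLev n α) :
    ∃ A : ℕ, ∀ ε₁ : ℝ, 0 < ε₁ → ∃ δ : ℝ, 0 < δ ∧ δ ≤ ε₁ ∧ ∃ C : ℝ, 1 ≤ C ∧
    ∀ (Λ : ℝ) (ε : ℤ) (X q : ℕ) (u : ℝ) (k : ℝ → ℝ), 1 ≤ Λ → ε.natAbs = 1 → 1 ≤ X → 0 < q →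
    (2 * X : ℝ) * q ≤ Real.exp Λ → Real.exp (-Λ) ≤ u → Kn (n + 1) k →
    Qs ε X q u k ≤ C * Λ ^ ε₁ * (dv q ^ 4 * Λ ^ α + 1 +
      Λ ^ A * dv q ^ A * Real.exp (-Λ ^ δ) / (X * u)) := by
  obtain ⟨C₁, hC₁, A, h1⟩ := far_block hFar
  obtain ⟨C₂, hC₂, h2⟩ := near_T hTq hLev
  refine ⟨A, fun ε₁ hε₁ => ?_⟩
  obtain ⟨δ, hδ0, hδ1, C₃, hC₃, h3⟩ := hST ε₁ hε₁
  refine ⟨δ, hδ0, hδ1, C₃ * (C₁ + C₂), by nlinarith, ?_⟩
  intro Λ ε X q u k hΛ hε hX hq hXq hu hk
  have hX0 : (0 : ℝ) < X := by exact_mod_cast hX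
  have hu0 : 0 < u := lt_of_lt_of_le (Real.exp_pos _) hu
  have hΛ0 : 0 < Λ := by linarith
  have hq1 : (1 : ℝ) ≤ q := by exact_mod_cast hq
  have hd := dv_nn q
  have hlog : Real.log (2 * X) ≤ Λ := by
    rw [Real.log_le_iff_le_exp (by positivity)]
    refine le_trans ?_ hXq
    nlinarith
  have hw : ∀ (F : ℤ → ℝ), ∑ m ∈ im ε (Finset.Ico X (2 * X)), (1 / |(m : ℝ)|) * F m =
      ∑ j ∈ Finset.Ico X (2 * X), 1 / (j : ℝ) * F (ε * j) := by
    intro F
    rw [sum_im hε]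
    apply Finset.sum_congr rfl
    intro j _
    rw [abs_eps hε]
  have key := h3 Λ (dv q ^ 4 * (C₂ * Λ ^ α))
    (C₁ * (1 + Λ ^ A * dv q ^ A * Real.exp (-Λ ^ δ) / (X * u))) u q n
    (im ε (Finset.Ico X (2 * X))) (fun m => 1 / |(m : ℝ)|) hΛ hu0 (by positivity)
    (by positivity) hq (by
      intro m hm
      unfold im at hm
      rw [Finset.mem_image] at hm
      obtain ⟨j, hj, rfl⟩ := hm
      rw [Finset.mem_Ico] at hj
      refine ⟨mul_ne_zero (eps_ne hε) (by omega), ?_, by positivity⟩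
      rw [abs_eps hε]
      refine le_trans ?_ hXq
      have : (j : ℝ) ≤ 2 * X := by exact_mod_cast hj.2.le
      gcongr) (by
      intro u' hu' k' hk'
      have hu'0 : 0 < u' := by linarith
      have a1 := hTq (C₂ * Λ ^ α) u' q n (im ε (Finset.Ico X (2 * X)))
        (fun m => 1 / |(m : ℝ)|) hu'0 (by positivity) hq (by
          intro m hm
          unfold im at hm
          rw [Finset.mem_image] at hm
          obtain ⟨j, hj, rfl⟩ := hm
          rw [Finset.mem_Ico] at hj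
          exact ⟨mul_ne_zero (eps_ne hε) (by omega), by positivity⟩) (by
          intro u'' hu'' k'' hk''
          rw [hw (fun m => Tw m u'' k'' ^ 2)]
          exact h2 Λ ε X u'' k'' hΛ hε hX hlog (by linarith) hk'') k' hk'
      refine a1.trans ?_
      gcongr
      exact nu_le hq) (by
      intro u' hu' k' hk'
      have e1 : 1 ≤ Real.exp (Λ ^ δ) := Real.one_le_exp (by positivity)
      have hu'1 : u ≤ u' := by nlinarith
      have hu'0 : 0 < u' := by linarith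
      rw [hw (fun m => Sw m q u' k' ^ 2)]
      have b1 := h1 Λ ε X q u' k' hΛ hε hX hlog (hu.trans hu'1) hq (kn_mono (Nat.zero_le _) hk')
      refine b1.trans ?_
      have b2 : Real.exp (-u') ≤ 1 := by rw [Real.exp_le_one_iff]; linarith
      have b3 : Λ ^ A * dv q ^ A / (X * u') ≤
          Λ ^ A * dv q ^ A * Real.exp (-Λ ^ δ) / (X * u) := by
        rw [div_le_div_iff₀ (by positivity) (by positivity)]
        have b4 : u ≤ Real.exp (-Λ ^ δ) * u' := by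
          calc u = Real.exp (-Λ ^ δ) * (u * Real.exp (Λ ^ δ)) := by
                rw [mul_comm u, ← mul_assoc, ← Real.exp_add]; simp
            _ ≤ _ := by gcongr
        calc Λ ^ A * dv q ^ A * (X * u) ≤
            Λ ^ A * dv q ^ A * (X * (Real.exp (-Λ ^ δ) * u')) := by gcongr
          _ = _ := by ring
      calc C₁ * (1 + Λ ^ A * dv q ^ A / (X * u')) * Real.exp (-u')
          ≤ C₁ * (1 + Λ ^ A * dv q ^ A / (X * u')) * 1 := by gcongr
        _ ≤ _ := by rw [mul_one]; gcongr) k hk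
  rw [hw (fun m => Sw m q u k ^ 2)] at key
  refine key.trans ?_
  have p1 : 0 ≤ dv q ^ 4 * Λ ^ α := by positivity
  have p2 : 0 ≤ 1 + Λ ^ A * dv q ^ A * Real.exp (-Λ ^ δ) / (X * u) := by positivity
  have p3 : 0 ≤ C₃ * Λ ^ ε₁ := by positivity
  calc C₃ * Λ ^ ε₁ * (dv q ^ 4 * (C₂ * Λ ^ α) +
        C₁ * (1 + Λ ^ A * dv q ^ A * Real.exp (-Λ ^ δ) / (X * u)))
      = C₃ * Λ ^ ε₁ * (C₂ * (dv q ^ 4 * Λ ^ α) +
        C₁ * (1 + Λ ^ A * dv q ^ A * Real.exp (-Λ ^ δ) / (X * u))) := by ring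
    _ ≤ C₃ * Λ ^ ε₁ * ((C₁ + C₂) * (dv q ^ 4 * Λ ^ α) +
        (C₁ + C₂) * (1 + Λ ^ A * dv q ^ A * Real.exp (-Λ ^ δ) / (X * u))) := by
        gcongr
        · linarith
        · linarith
    _ = _ := by ring

/-- the pointwise a priori bound with decay -/
theorem ap (hAP : StAP) : ∃ C : ℝ, 1 ≤ C ∧ ∃ A : ℕ, ∀ (Λ u w : ℝ) (ε : ℤ) (q j₁ j₂ : ℕ)
    (k : ℝ → ℝ), 1 ≤ Λ → ε.natAbs = 1 → Squarefree j₁ → 0 < j₂ → 0 < q → Real.exp (-Λ) ≤ w →
    w ≤ u → Kn 1 k →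
    ENNReal.ofReal (Sw (ε * ((j₁ * j₂ ^ 2 : ℕ) : ℤ)) q u k ^ 2) ≤
      ENNReal.ofReal (C * Λ ^ A * dv q ^ A * dv j₂ ^ A * w ^ (-(1 / Λ))) * (Jm j₁ + 1) := by
  obtain ⟨C, hC, A, h⟩ := hAP
  obtain ⟨C₅, hC₅, hS⟩ := Far.Sw_small
  refine ⟨max C (C₅ ^ 2), le_max_of_le_left hC, A, ?_⟩
  intro Λ u w ε q j₁ j₂ k hΛ hε hj₁ hj₂ hq hw hwu hk
  have hw0 : 0 < w := lt_of_lt_of_le (Real.exp_pos _) hw
  have hΛ0 : 0 < Λ := by linarith
  have hd1 := one_le_dv hq
  have hd2 := one_le_dv hj₂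
  have hΛA : 1 ≤ Λ ^ A := one_le_pow₀ hΛ
  have hdA : 1 ≤ dv q ^ A := one_le_pow₀ hd1
  have hdB : 1 ≤ dv j₂ ^ A := one_le_pow₀ hd2
  have hθ : 0 < 1 / Λ := by positivity
  have hθ1 : 1 / Λ ≤ 1 := by rw [div_le_one hΛ0]; exact hΛ
  rcases le_total w 1 with hw1 | hw1
  · refine (h Λ u ε q j₁ j₂ k hΛ hε hj₁ hj₂ hq (hw.trans hwu) hk).trans ?_
    apply mul_le_mul' (ENNReal.ofReal_le_ofReal _) le_rfl
    have h1 : 1 ≤ w ^ (-(1 / Λ)) := Real.one_le_rpow_of_pos_of_le_one_of_nonpos hw0 hw1 (by linarith)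
    calc C * Λ ^ A * dv q ^ A * dv j₂ ^ A = C * Λ ^ A * dv q ^ A * dv j₂ ^ A * 1 := by ring
      _ ≤ max C (C₅ ^ 2) * Λ ^ A * dv q ^ A * dv j₂ ^ A * w ^ (-(1 / Λ)) := by
        gcongr
        exact le_max_left _ _
  · have h1 := hS (ε * ((j₁ * j₂ ^ 2 : ℕ) : ℤ)) q u k (hw1.trans hwu) (kn_mono (Nat.zero_le _) hk)
    have h2 : Real.exp (-2 * u) ^ 2 ≤ w ^ (-(1 / Λ)) := by
      calc Real.exp (-2 * u) ^ 2 = Real.exp (-4 * u) := by
            rw [← Real.exp_nat_mul]; congr 1; push_cast; ring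
        _ ≤ Real.exp (-w) := Real.exp_le_exp.2 (by linarith)
        _ ≤ w⁻¹ := by
          rw [Real.exp_neg]
          apply inv_anti₀ hw0
          linarith [Real.add_one_le_exp w]
        _ = w ^ (-1 : ℝ) := by rw [Real.rpow_neg_one]
        _ ≤ w ^ (-(1 / Λ)) := Real.rpow_le_rpow_of_exponent_le hw1 (by linarith)
    have h3 : Sw (ε * ((j₁ * j₂ ^ 2 : ℕ) : ℤ)) q u k ^ 2 ≤
        max C (C₅ ^ 2) * Λ ^ A * dv q ^ A * dv j₂ ^ A * w ^ (-(1 / Λ)) := by
      calc Sw (ε * ((j₁ * j₂ ^ 2 : ℕ) : ℤ)) q u k ^ 2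
          = |Sw (ε * ((j₁ * j₂ ^ 2 : ℕ) : ℤ)) q u k| ^ 2 := (sq_abs _).symm
        _ ≤ (C₅ * Real.exp (-2 * u)) ^ 2 := by gcongr
        _ = C₅ ^ 2 * 1 * 1 * 1 * Real.exp (-2 * u) ^ 2 := by ring
        _ ≤ max C (C₅ ^ 2) * Λ ^ A * dv q ^ A * dv j₂ ^ A * w ^ (-(1 / Λ)) := by
          gcongr
          exact le_max_right _ _
    calc ENNReal.ofReal (Sw (ε * ((j₁ * j₂ ^ 2 : ℕ) : ℤ)) q u k ^ 2)
        ≤ ENNReal.ofReal (max C (C₅ ^ 2) * Λ ^ A * dv q ^ A * dv j₂ ^ A * w ^ (-(1 / Λ))) * 1 := by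
          rw [mul_one]
          exact ENNReal.ofReal_le_ofReal h3
      _ ≤ _ := by
          gcongr
          exact le_add_self

end Dual

end P004E
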