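import Vale.Agent.P004E.H187.Dual2

/-!
# P004E, module S5 (`StDual`), part 3: the dual terms of one block
-/

open Real MeasureTheory Set Filter
open scoped ENNReal Topology

namespace P004E

namespace Dual

open P004G

variable [Crv]

omit [Crv] in
theorem regroup2 (K : ℕ) (G : ℕ → ℕ → ℝ≥0∞) :
    ∑ p ∈ (sqf K ×ˢ Finset.Icc 1 K).filter (fun p => p.1 * p.2 ^ 2 ≤ K), G p.1 p.2 =
      ∑ j₂ ∈ Finset.Icc 1 K, ∑ j₁ ∈ sqf (K / j₂ ^ 2), G j₁ j₂ := by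
  rw [Finset.sum_sigma']
  refine Finset.sum_bij' (fun p _ => (⟨p.2, p.1⟩ : Σ _ : ℕ, ℕ)) (fun s _ => (s.2, s.1))
    ?_ ?_ ?_ ?_ ?_
  · intro p hp
    simp only [Finset.mem_filter, Finset.mem_product, P004.sqf, Finset.mem_Icc] at hp
    simp only [Finset.mem_sigma, P004.sqf, Finset.mem_filter, Finset.mem_Icc]
    refine ⟨hp.1.2, ⟨hp.1.1.1.1, ?_⟩, hp.1.1.2⟩
    rw [Nat.le_div_iff_mul_le (pow_pos (by omega) 2)]
    exact hp.2
  · intro s hs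
    simp only [Finset.mem_sigma, P004.sqf, Finset.mem_filter, Finset.mem_Icc] at hs
    simp only [Finset.mem_filter, Finset.mem_product, P004.sqf, Finset.mem_Icc]
    have h5 : s.2 * s.1 ^ 2 ≤ K := by
      rw [← Nat.le_div_iff_mul_le (pow_pos (by omega) 2)]
      exact hs.2.1.2
    have h6 : s.2 ≤ s.2 * s.1 ^ 2 := Nat.le_mul_of_pos_right _ (pow_pos (by omega) 2)
    exact ⟨⟨⟨⟨hs.2.1.1, h6.trans h5⟩, hs.2.2⟩, hs.1⟩, h5⟩
  · intro p _; rfl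
  · intro s _; rfl
  · intro p _; rfl

/-- the sum over `j = j₁ j₂²` of the a priori bounds -/
theorem psum (hFull : StFull) (A : ℕ) : ∃ C : ℝ, 1 ≤ C ∧ ∃ A₃ : ℕ, ∀ (Λ : ℝ) (X : ℕ), 1 ≤ Λ →
    1 ≤ X → Real.log (2 * X) ≤ Λ →
    ∑ p ∈ (sqf (2 * X) ×ˢ Finset.Icc 1 (2 * X)).filter (fun p => p.1 * p.2 ^ 2 ≤ 2 * X),
      ENNReal.ofReal (dv p.2 ^ A / X) * (Jm p.1 + 1) ≤ ENNReal.ofReal (C * Λ ^ A₃) := by
  obtain ⟨C, hC, B, hF⟩ := hFull
  obtain ⟨D, hD, hsum⟩ := sum_conv A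
  refine ⟨2 * (3 * C * 2 ^ B + 1) * D, ?_, B, ?_⟩
  · have h1 : 0 ≤ 3 * C * 2 ^ B := by positivity
    nlinarith
  intro Λ X hΛ hX hlog
  have hX0 : (0 : ℝ) < X := by exact_mod_cast hX
  have hΛB : 1 ≤ Λ ^ B := one_le_pow₀ hΛ
  rw [regroup2 (2 * X) (fun j₁ j₂ => ENNReal.ofReal (dv j₂ ^ A / X) * (Jm j₁ + 1))]
  have hone : ∀ j₂ ∈ Finset.Icc 1 (2 * X), ∑ j₁ ∈ sqf (2 * X / j₂ ^ 2),
      ENNReal.ofReal (dv j₂ ^ A / X) * (Jm j₁ + 1) ≤
      ENNReal.ofReal (2 * (3 * C * 2 ^ B + 1) * Λ ^ B) *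
        ENNReal.ofReal (dv j₂ ^ A * (j₂ : ℝ) ^ (-(3 / 2) : ℝ)) := by
    intro j₂ hj₂
    rw [Finset.mem_Icc] at hj₂
    have hj1 : (1 : ℝ) ≤ j₂ := by exact_mod_cast hj₂.1
    have hj0 : (0 : ℝ) < j₂ := by linarith
    have hdd := dv_nn j₂
    rw [← Finset.mul_sum]
    set Y : ℕ := 2 * X / j₂ ^ 2 with hY
    have hYle : (Y : ℝ) ≤ 2 * X / (j₂ : ℝ) ^ 2 := by
      have := Nat.cast_div_le (α := ℝ) (m := 2 * X) (n := j₂ ^ 2)
      push_cast at this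
      rw [hY]
      exact this
    have hlogY : Real.log Y ≤ Λ := by
      rcases Nat.eq_zero_or_pos Y with h0 | h0
      · rw [h0]; simp; linarith
      · refine le_trans (Real.log_le_log (by exact_mod_cast h0) ?_) hlog
        refine hYle.trans ?_
        rw [div_le_iff₀ (by positivity)]
        have : (1 : ℝ) ≤ (j₂ : ℝ) ^ 2 := one_le_pow₀ hj1
        nlinarith
    have h1 : ∑ j₁ ∈ sqf Y, (Jm j₁ + 1) ≤ ENNReal.ofReal ((3 * C * 2 ^ B * Λ ^ B + 1) * Y) := by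
      rw [Finset.sum_add_distrib]
      have h2 : ∑ j₁ ∈ sqf Y, Jm j₁ ≤ ENNReal.ofReal ((3 * C * 2 ^ B * Λ ^ B) * Y) :=
        Tw.sumJ_lin hC hF hΛ hlogY
      have h3 : ∑ j₁ ∈ sqf Y, (1 : ℝ≥0∞) ≤ ENNReal.ofReal Y := by
        rw [Finset.sum_const, nsmul_eq_mul, mul_one, ENNReal.ofReal_natCast]
        have : (sqf Y).card ≤ Y := by
          calc (sqf Y).card ≤ (Finset.Icc 1 Y).card := Finset.card_filter_le _ _
            _ = Y := by simp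
        exact_mod_cast this
      calc _ ≤ ENNReal.ofReal ((3 * C * 2 ^ B * Λ ^ B) * Y) + ENNReal.ofReal Y := add_le_add h2 h3
        _ = _ := by
          rw [← ENNReal.ofReal_add (by positivity) (by positivity)]
          congr 1; ring
    calc ENNReal.ofReal (dv j₂ ^ A / X) * ∑ j₁ ∈ sqf Y, (Jm j₁ + 1)
        ≤ ENNReal.ofReal (dv j₂ ^ A / X) *
          ENNReal.ofReal ((3 * C * 2 ^ B * Λ ^ B + 1) * Y) := by gcongr
      _ = ENNReal.ofReal (dv j₂ ^ A / X * ((3 * C * 2 ^ B * Λ ^ B + 1) * Y)) := by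
          rw [← ENNReal.ofReal_mul (by positivity)]
      _ ≤ ENNReal.ofReal ((2 * (3 * C * 2 ^ B + 1) * Λ ^ B) *
          (dv j₂ ^ A * (j₂ : ℝ) ^ (-(3 / 2) : ℝ))) := by
          apply ENNReal.ofReal_le_ofReal
          have hpow : 1 / (j₂ : ℝ) ^ 2 ≤ (j₂ : ℝ) ^ (-(3 / 2) : ℝ) := by
            rw [one_div, ← Real.rpow_natCast, ← Real.rpow_neg hj0.le]
            apply Real.rpow_le_rpow_of_exponent_le hj1
            norm_num
          have h4 : 3 * C * 2 ^ B * Λ ^ B + 1 ≤ (3 * C * 2 ^ B + 1) * Λ ^ B := by nlinarith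
          calc dv j₂ ^ A / X * ((3 * C * 2 ^ B * Λ ^ B + 1) * Y)
              ≤ dv j₂ ^ A / X * ((3 * C * 2 ^ B + 1) * Λ ^ B * (2 * X / (j₂ : ℝ) ^ 2)) := by
                gcongr
            _ = (2 * (3 * C * 2 ^ B + 1) * Λ ^ B) * (dv j₂ ^ A * (1 / (j₂ : ℝ) ^ 2)) := by
                field_simp
            _ ≤ _ := by gcongr
      _ = _ := by rw [ENNReal.ofReal_mul (by positivity)]
  refine (Finset.sum_le_sum hone).trans ?_
  rw [← Finset.mul_sum]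
  calc ENNReal.ofReal (2 * (3 * C * 2 ^ B + 1) * Λ ^ B) * ∑ j₂ ∈ Finset.Icc 1 (2 * X),
        ENNReal.ofReal (dv j₂ ^ A * (j₂ : ℝ) ^ (-(3 / 2) : ℝ))
      ≤ ENNReal.ofReal (2 * (3 * C * 2 ^ B + 1) * Λ ^ B) * ENNReal.ofReal D := by
        gcongr
        exact (ENNReal.sum_le_tsum _).trans hsum
    _ = _ := by
        rw [← ENNReal.ofReal_mul (by positivity)]
        congr 1; ring

omit [Crv] in
theorem v_pow {Λ v : ℝ} (hΛ : 1 ≤ Λ) (hv : Real.exp (-Λ) ≤ v) : v ^ (-(1 / Λ)) ≤ 3 := by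
  have hΛ0 : 0 < Λ := by linarith
  have h1 : 0 < 1 / Λ := by positivity
  calc v ^ (-(1 / Λ)) ≤ (Real.exp (-Λ)) ^ (-(1 / Λ)) :=
        Real.rpow_le_rpow_of_nonpos (Real.exp_pos _) hv (by linarith)
    _ = Real.exp 1 := by rw [← Real.exp_mul]; congr 1; field_simp
    _ ≤ 3 := by linarith [Real.exp_one_lt_d9]

/-- `e`-sum without divisor weights -/
theorem esum (h0 : StN0) : ∃ C : ℝ, 1 ≤ C ∧ ∀ Λ v : ℝ, 1 ≤ Λ → Real.exp (-Λ) ≤ v →
    ∑' e : ℕ, ENNReal.ofReal (lam e ^ 2 / e * ((e : ℝ) * v) ^ (-(1 / Λ))) ≤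
      ENNReal.ofReal (C * Λ) := by
  obtain ⟨C, hC, h⟩ := sum_lam h0
  refine ⟨3 * C, by linarith, ?_⟩
  intro Λ v hΛ hv
  have hv0 : 0 < v := lt_of_lt_of_le (Real.exp_pos _) hv
  have hv3 := v_pow hΛ hv
  have h1 : ∀ e : ℕ, ENNReal.ofReal (lam e ^ 2 / e * ((e : ℝ) * v) ^ (-(1 / Λ))) ≤
      ENNReal.ofReal 3 * ENNReal.ofReal (lam e ^ 2 / e * (e : ℝ) ^ (-(1 / Λ))) := by
    intro e
    rw [← ENNReal.ofReal_mul (by norm_num)]
    apply ENNReal.ofReal_le_ofReal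
    rw [Real.mul_rpow (by positivity) hv0.le]
    calc lam e ^ 2 / e * ((e : ℝ) ^ (-(1 / Λ)) * v ^ (-(1 / Λ)))
        ≤ lam e ^ 2 / e * ((e : ℝ) ^ (-(1 / Λ)) * 3) := by gcongr
      _ = _ := by ring
  refine (ENNReal.tsum_le_tsum h1).trans ?_
  rw [ENNReal.tsum_mul_left]
  calc ENNReal.ofReal 3 * ∑' e : ℕ, ENNReal.ofReal (lam e ^ 2 / e * (e : ℝ) ^ (-(1 / Λ)))
      ≤ ENNReal.ofReal 3 * ENNReal.ofReal (C * Λ) := by gcongr; exact h Λ hΛ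
    _ = _ := by rw [← ENNReal.ofReal_mul (by norm_num)]; congr 1; ring

/-- `e`-sum with divisor weights -/
theorem esum_dv (A : ℕ) : ∃ C : ℝ, 1 ≤ C ∧ ∃ A₂ : ℕ, ∀ Λ v : ℝ, 1 ≤ Λ → Real.exp (-Λ) ≤ v →
    ∑' e : ℕ, ENNReal.ofReal (lam e ^ 2 / e) *
      ENNReal.ofReal (dv e ^ A * ((e : ℝ) * v) ^ (-(1 / Λ))) ≤ ENNReal.ofReal (C * Λ ^ A₂) := by
  obtain ⟨C, hC, A₂, h⟩ := sum_th (A + 2)
  refine ⟨3 * C, by linarith, A₂, ?_⟩
  intro Λ v hΛ hv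
  have hv0 : 0 < v := lt_of_lt_of_le (Real.exp_pos _) hv
  have hv3 := v_pow hΛ hv
  have h1 : ∀ e : ℕ, ENNReal.ofReal (lam e ^ 2 / e) *
      ENNReal.ofReal (dv e ^ A * ((e : ℝ) * v) ^ (-(1 / Λ))) ≤
      ENNReal.ofReal 3 * ENNReal.ofReal (dv e ^ (A + 2) / e * (e : ℝ) ^ (-(1 / Λ))) := by
    intro e
    have hd := dv_nn e
    rw [← ENNReal.ofReal_mul (by positivity), ← ENNReal.ofReal_mul (by norm_num)]
    apply ENNReal.ofReal_le_ofReal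
    rw [Real.mul_rpow (by positivity) hv0.le]
    calc lam e ^ 2 / e * (dv e ^ A * ((e : ℝ) ^ (-(1 / Λ)) * v ^ (-(1 / Λ))))
        ≤ dv e ^ 2 / e * (dv e ^ A * ((e : ℝ) ^ (-(1 / Λ)) * 3)) :=
          mul_le_mul (div_le_div_of_nonneg_right (lam_sq_le e) (by positivity))
            (by gcongr) (by positivity) (by positivity)
      _ = _ := by rw [pow_add]; ring
  refine (ENNReal.tsum_le_tsum h1).trans ?_
  rw [ENNReal.tsum_mul_left]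
  calc ENNReal.ofReal 3 * ∑' e : ℕ, ENNReal.ofReal (dv e ^ (A + 2) / e * (e : ℝ) ^ (-(1 / Λ)))
      ≤ ENNReal.ofReal 3 * ENNReal.ofReal (C * Λ ^ A₂) := by gcongr; exact h Λ hΛ
    _ = _ := by rw [← ENNReal.ofReal_mul (by norm_num)]; congr 1; ring

/-- convergent `e`-sum -/
theorem esum_conv (A : ℕ) : ∃ C : ℝ, 1 ≤ C ∧
    ∑' e : ℕ, ENNReal.ofReal (lam e ^ 2 / e * (dv e ^ A * (e : ℝ) ^ (-(1 / 2) : ℝ))) ≤
      ENNReal.ofReal C := by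
  obtain ⟨C, hC, h⟩ := sum_conv (A + 2)
  refine ⟨C, hC, le_trans (ENNReal.tsum_le_tsum fun e => ENNReal.ofReal_le_ofReal ?_) h⟩
  have hd := dv_nn e
  rcases Nat.eq_zero_or_pos e with rfl | he
  · rw [Nat.cast_zero, div_zero, zero_mul]
    positivity
  have he0 : (0 : ℝ) < e := by exact_mod_cast he
  calc lam e ^ 2 / e * (dv e ^ A * (e : ℝ) ^ (-(1 / 2) : ℝ))
      ≤ dv e ^ 2 / e * (dv e ^ A * (e : ℝ) ^ (-(1 / 2) : ℝ)) :=
        mul_le_mul_of_nonneg_right (div_le_div_of_nonneg_right (lam_sq_le e) (by positivity))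
          (by positivity)
    _ = dv e ^ (A + 2) * ((e : ℝ) ^ (-(1 / 2) : ℝ) / e) := by rw [pow_add]; ring
    _ = _ := by
        rw [show (-(3 / 2) : ℝ) = -(1 / 2) - 1 by norm_num, Real.rpow_sub he0, Real.rpow_one]

/-- `e`-sum up to `e^l` -/
theorem esum_cut (K : ℕ) : ∃ C : ℝ, 1 ≤ C ∧ ∃ A : ℕ, ∀ l : ℝ, 1 ≤ l →
    ∑' e : ℕ, ENNReal.ofReal (if (e : ℝ) ≤ Real.exp l then lam e ^ 2 / e * dv e ^ K else 0) ≤
      ENNReal.ofReal (C * l ^ A) := by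
  obtain ⟨C, hC, A, h⟩ := sum_div (K + 2)
  refine ⟨C, hC, A, fun l hl => le_trans (ENNReal.tsum_le_tsum fun e =>
    ENNReal.ofReal_le_ofReal ?_) (h l hl)⟩
  have hd := dv_nn e
  split_ifs
  · calc lam e ^ 2 / e * dv e ^ K ≤ dv e ^ 2 / e * dv e ^ K :=
          mul_le_mul_of_nonneg_right (div_le_div_of_nonneg_right (lam_sq_le e) (by positivity))
            (by positivity)
      _ = _ := by rw [pow_add]; ring
  · exact le_rfl

/-- `g`-sum up to `e^l` -/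
theorem gsum_cut (K : ℕ) : ∃ C : ℝ, 1 ≤ C ∧ ∃ A : ℕ, ∀ l : ℝ, 1 ≤ l →
    ∑' g : ℕ, ENNReal.ofReal (if (g : ℝ) ≤ Real.exp l then
      lam g ^ 2 / g ^ 2 * (sig g * dv g ^ K) else 0) ≤ ENNReal.ofReal (C * l ^ A) := by
  obtain ⟨C, hC, A, h⟩ := sum_div (K + 3)
  refine ⟨C, hC, A, fun l hl => le_trans (ENNReal.tsum_le_tsum fun g =>
    ENNReal.ofReal_le_ofReal ?_) (h l hl)⟩
  have hd := dv_nn g
  have hs := sig_nonneg g
  split_ifs
  · rcases Nat.eq_zero_or_pos g with rfl | hg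
    · simp
    have hg0 : (0 : ℝ) < g := by exact_mod_cast hg
    calc lam g ^ 2 / g ^ 2 * (sig g * dv g ^ K)
        ≤ dv g ^ 2 / g ^ 2 * ((g * dv g) * dv g ^ K) :=
          mul_le_mul (div_le_div_of_nonneg_right (lam_sq_le g) (by positivity))
            (mul_le_mul_of_nonneg_right (sig_le g) (by positivity)) (by positivity)
            (by positivity)
      _ = _ := by
          rw [pow_add]
          field_simp
  · exact le_rfl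

end Dual

end P004E
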