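import Vale.Agent.P004E.H187.Dual3

/-!
# P004E, module S5 (`StDual`), part 4: small `g` and large `g`
-/

open Real MeasureTheory Set Filter
open scoped ENNReal Topology

namespace P004E

namespace Dual

open P004G

theorem exp_neg_le_rpow {t θ : ℝ} (ht : 0 < t) (h0 : 0 ≤ θ) (h1 : θ ≤ 1) :
    Real.exp (-t) ≤ t ^ (-θ) := by
  rcases le_total t 1 with h | h
  · calc Real.exp (-t) ≤ 1 := by rw [Real.exp_le_one_iff]; linarith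
      _ ≤ _ := Real.one_le_rpow_of_pos_of_le_one_of_nonpos ht h (by linarith)
  · calc Real.exp (-t) ≤ t⁻¹ := by
          rw [Real.exp_neg]
          apply inv_anti₀ ht
          linarith [Real.add_one_le_exp t]
      _ = t ^ (-1 : ℝ) := by rw [Real.rpow_neg_one]
      _ ≤ t ^ (-θ) := Real.rpow_le_rpow_of_exponent_le h (by linarith)

/-- the numerical facts about `Λ` -/
theorem lam_facts {Λ δ : ℝ} (hΛ : 9 ≤ Λ) (hδ0 : 0 < δ) (hδ : δ ≤ 1 / 2) :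
    1 ≤ Λ ^ δ ∧ Λ ^ δ ≤ Λ / 3 := by
  have hΛ1 : 1 ≤ Λ := by linarith
  refine ⟨Real.one_le_rpow hΛ1 hδ0.le, ?_⟩
  calc Λ ^ δ ≤ Λ ^ (1 / 2 : ℝ) := Real.rpow_le_rpow_of_exponent_le hΛ1 hδ
    _ = √Λ := (Real.sqrt_eq_rpow Λ).symm
    _ ≤ Λ / 3 := by
      rw [Real.sqrt_le_left (by positivity)]
      nlinarith

theorem half_pow {e : ℝ} (he : 1 ≤ e) : e ^ (-(1 / 2) : ℝ) * e ^ (-(1 / 2) : ℝ) = 1 / e := by
  have he0 : 0 < e := by linarith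
  rw [← Real.rpow_add he0, one_div e, ← Real.rpow_neg_one e]
  norm_num

/-- the third term -/
theorem third {Λ δ X v e u' q de dg E : ℝ} {A m : ℕ} (hΛ : 1 ≤ Λ) (hX : 0 < X) (hv : 0 < v)
    (he : 1 ≤ e) (hevu : e * v ≤ u') (hq : 1 ≤ q) (hqe : q ≤ de * dg) (hde : 1 ≤ de)
    (hdg : 1 ≤ dg) (hm : m ≤ A) (hE0 : 0 ≤ E)
    (hE : E * e ^ (-(1 / 2) : ℝ) ≤ Real.exp (-Λ ^ δ / 2)) :
    Λ ^ m * q ^ m * E / (X * u') ≤ dg ^ (A + 4) * (Λ ^ A * Real.exp (-Λ ^ δ / 2) / (X * v) *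
      (de ^ A * e ^ (-(1 / 2) : ℝ))) := by
  have he0 : 0 < e := by linarith
  have hev0 : 0 < e * v := by positivity
  have hu' : 0 < u' := by linarith
  have hq0 : 0 ≤ q := by linarith
  have hinv : 1 / u' ≤ e ^ (-(1 / 2) : ℝ) * (e ^ (-(1 / 2) : ℝ) / v) := by
    calc 1 / u' ≤ 1 / (e * v) := one_div_le_one_div_of_le hev0 hevu
      _ = 1 / e * (1 / v) := by rw [one_div_mul_one_div]
      _ = _ := by rw [← half_pow he]; ring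
  have hA : q ^ m ≤ dg ^ (A + 4) * de ^ A := by
    calc q ^ m ≤ q ^ A := pow_le_pow_right₀ hq hm
      _ ≤ (de * dg) ^ A := pow_le_pow_left₀ hq0 hqe A
      _ = dg ^ A * de ^ A := by rw [mul_pow]; ring
      _ ≤ dg ^ (A + 4) * de ^ A :=
        mul_le_mul_of_nonneg_right (pow_le_pow_right₀ hdg (by omega)) (by positivity)
  have hΛm : Λ ^ m ≤ Λ ^ A := pow_le_pow_right₀ hΛ hm
  calc Λ ^ m * q ^ m * E / (X * u') = Λ ^ m * q ^ m * E / X * (1 / u') := by field_simp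
    _ ≤ Λ ^ A * (dg ^ (A + 4) * de ^ A) * E / X *
        (e ^ (-(1 / 2) : ℝ) * (e ^ (-(1 / 2) : ℝ) / v)) := by gcongr
    _ = Λ ^ A * (dg ^ (A + 4) * de ^ A) / X *
        (E * e ^ (-(1 / 2) : ℝ)) * (e ^ (-(1 / 2) : ℝ) / v) := by ring
    _ ≤ Λ ^ A * (dg ^ (A + 4) * de ^ A) / X *
        Real.exp (-Λ ^ δ / 2) * (e ^ (-(1 / 2) : ℝ) / v) := by gcongr
    _ = _ := by field_simp

theorem rhs_near {C₁ C₂ Λ α ε₁ δ X v e u' q de dg : ℝ} {A m : ℕ} (hC₁ : 1 ≤ C₁) (hC₂ : 1 ≤ C₂)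
    (hΛ : 1 ≤ Λ) (hX : 0 < X) (hv : 0 < v) (he : 1 ≤ e) (hevu : e * v ≤ u') (hq : 1 ≤ q)
    (hqe : q ≤ de * dg) (hde : 1 ≤ de) (hdg : 1 ≤ dg) (hm : m ≤ A) :
    C₁ * Λ ^ ε₁ * (q ^ 4 * Λ ^ α + 1 + Λ ^ m * q ^ m * Real.exp (-Λ ^ δ) / (X * u')) ≤
      dg ^ (A + 4) * ((C₁ + C₂) * Λ ^ ε₁ * (1 + Λ ^ α) * de ^ 4 +
      (C₁ + C₂) * (e * v) ^ (-(1 / Λ)) +
      (C₁ + C₂) * Λ ^ ε₁ * Λ ^ A * Real.exp (-Λ ^ δ / 2) / (X * v) *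
        (de ^ A * e ^ (-(1 / 2) : ℝ))) := by
  have hq0 : 0 ≤ q := by linarith
  have hΛ0 : 0 < Λ := by linarith
  have hΛδ : 0 ≤ Λ ^ δ := by positivity
  have hΛα : 0 ≤ Λ ^ α := by positivity
  have hehalf : e ^ (-(1 / 2) : ℝ) ≤ 1 := Real.rpow_le_one_of_one_le_of_nonpos he (by norm_num)
  have c4 := third (δ := δ) (E := Real.exp (-Λ ^ δ)) hΛ hX hv he hevu hq hqe hde hdg hm
    (by positivity) (by
      calc Real.exp (-Λ ^ δ) * e ^ (-(1 / 2) : ℝ) ≤ Real.exp (-Λ ^ δ) * 1 := by gcongr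
        _ ≤ Real.exp (-Λ ^ δ / 2) := by
          rw [mul_one]
          apply Real.exp_le_exp.2
          linarith)
  set T₃ : ℝ := Λ ^ A * Real.exp (-Λ ^ δ / 2) / (X * v) * (de ^ A * e ^ (-(1 / 2) : ℝ)) with hT₃
  have hT₃0 : 0 ≤ T₃ := by positivity
  set D : ℝ := dg ^ (A + 4) with hD
  have hD1 : 1 ≤ D := one_le_pow₀ hdg
  have c6 : q ^ 4 ≤ de ^ 4 * D := by
    calc q ^ 4 ≤ (de * dg) ^ 4 := pow_le_pow_left₀ hq0 hqe 4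
      _ = de ^ 4 * dg ^ 4 := by rw [mul_pow]
      _ ≤ de ^ 4 * D :=
        mul_le_mul_of_nonneg_left (pow_le_pow_right₀ hdg (by omega)) (by positivity)
  have c7 : 1 ≤ de ^ 4 * D := by
    have : 1 ≤ de ^ 4 := one_le_pow₀ hde
    nlinarith
  have c5 : q ^ 4 * Λ ^ α + 1 ≤ D * (de ^ 4 * (1 + Λ ^ α)) := by
    calc q ^ 4 * Λ ^ α + 1 ≤ de ^ 4 * D * Λ ^ α + de ^ 4 * D := by gcongr
      _ = _ := by ring
  have c8 : 0 ≤ (C₁ + C₂) * (e * v) ^ (-(1 / Λ)) := by positivity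
  have c9 : 0 ≤ C₂ * Λ ^ ε₁ * ((1 + Λ ^ α) * de ^ 4) := by positivity
  have c10 : 0 ≤ C₂ * Λ ^ ε₁ * T₃ := by positivity
  calc C₁ * Λ ^ ε₁ * (q ^ 4 * Λ ^ α + 1 + Λ ^ m * q ^ m * Real.exp (-Λ ^ δ) / (X * u'))
      ≤ C₁ * Λ ^ ε₁ * (D * (de ^ 4 * (1 + Λ ^ α)) + D * T₃) := by gcongr
    _ = D * (C₁ * Λ ^ ε₁ * ((1 + Λ ^ α) * de ^ 4) + C₁ * Λ ^ ε₁ * T₃) := by ring
    _ ≤ D * ((C₁ * Λ ^ ε₁ * ((1 + Λ ^ α) * de ^ 4) + C₂ * Λ ^ ε₁ * ((1 + Λ ^ α) * de ^ 4)) +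
        (C₁ + C₂) * (e * v) ^ (-(1 / Λ)) + (C₁ * Λ ^ ε₁ * T₃ + C₂ * Λ ^ ε₁ * T₃)) := by
        apply mul_le_mul_of_nonneg_left _ (by linarith)
        linarith
    _ = _ := by rw [hT₃]; ring

theorem rhs_far {C₁ C₂ Λ ε₁ δ X v e u' q de dg : ℝ} {A m : ℕ} (hC₁ : 1 ≤ C₁) (hC₂ : 1 ≤ C₂)
    (hΛ : 1 ≤ Λ) (hε₁ : 0 < ε₁) (hX : 0 < X) (hv : 0 < v) (he : 1 ≤ e) (hevu : e * v ≤ u')
    (hq : 1 ≤ q) (hqe : q ≤ de * dg) (hde : 1 ≤ de) (hdg : 1 ≤ dg) (hm : m ≤ A)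
    (heR : Real.exp (Λ ^ δ) ≤ e) :
    C₂ * (1 + Λ ^ m * q ^ m / (X * u')) * Real.exp (-u') ≤
      dg ^ (A + 4) * ((C₁ + C₂) * (e * v) ^ (-(1 / Λ)) +
      (C₁ + C₂) * Λ ^ ε₁ * Λ ^ A * Real.exp (-Λ ^ δ / 2) / (X * v) *
        (de ^ A * e ^ (-(1 / 2) : ℝ))) := by
  have hq0 : 0 ≤ q := by linarith
  have he0 : 0 < e := by linarith
  have hev0 : 0 < e * v := by positivity
  have hu'0 : 0 < u' := by linarith
  have hΛ0 : 0 < Λ := by linarith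
  have hθ0 : 0 ≤ 1 / Λ := by positivity
  have hθ1 : 1 / Λ ≤ 1 := by rw [div_le_one hΛ0]; exact hΛ
  have c1 : Real.exp (-u') ≤ (e * v) ^ (-(1 / Λ)) :=
    (exp_neg_le_rpow hu'0 hθ0 hθ1).trans
      (Real.rpow_le_rpow_of_nonpos hev0 hevu (by linarith))
  have c2 : Real.exp (-u') ≤ 1 := by rw [Real.exp_le_one_iff]; linarith
  have c3 : e ^ (-(1 / 2) : ℝ) ≤ Real.exp (-Λ ^ δ / 2) := by
    calc e ^ (-(1 / 2) : ℝ) ≤ (Real.exp (Λ ^ δ)) ^ (-(1 / 2) : ℝ) :=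
          Real.rpow_le_rpow_of_nonpos (Real.exp_pos _) heR (by norm_num)
      _ = _ := by rw [← Real.exp_mul]; congr 1; ring
  have c4 := third (δ := δ) (E := 1) hΛ hX hv he hevu hq hqe hde hdg hm zero_le_one
    (by rw [one_mul]; exact c3)
  rw [mul_one] at c4
  set T₃ : ℝ := Λ ^ A * Real.exp (-Λ ^ δ / 2) / (X * v) * (de ^ A * e ^ (-(1 / 2) : ℝ)) with hT₃
  have hT₃0 : 0 ≤ T₃ := by positivity
  set D : ℝ := dg ^ (A + 4) with hD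
  have hD1 : 1 ≤ D := one_le_pow₀ hdg
  set P : ℝ := (e * v) ^ (-(1 / Λ)) with hP
  have hP0 : 0 ≤ P := by positivity
  have hΛε : 1 ≤ Λ ^ ε₁ := Real.one_le_rpow hΛ hε₁.le
  have c5 : 0 ≤ Λ ^ m * q ^ m / (X * u') := by positivity
  have c6 : C₂ * P ≤ D * ((C₁ + C₂) * P) := by
    calc C₂ * P = 1 * (C₂ * P) := by ring
      _ ≤ D * ((C₁ + C₂) * P) := by gcongr; linarith
  have c7 : C₂ * (D * T₃) ≤ D * ((C₁ + C₂) * Λ ^ ε₁ * T₃) := by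
    calc C₂ * (D * T₃) = D * (C₂ * 1 * T₃) := by ring
      _ ≤ D * ((C₁ + C₂) * Λ ^ ε₁ * T₃) := by gcongr; linarith
  calc C₂ * (1 + Λ ^ m * q ^ m / (X * u')) * Real.exp (-u')
      = C₂ * Real.exp (-u') + C₂ * (Λ ^ m * q ^ m / (X * u')) * Real.exp (-u') := by ring
    _ ≤ C₂ * P + C₂ * (D * T₃) * 1 := by gcongr
    _ ≤ D * ((C₁ + C₂) * P) + D * ((C₁ + C₂) * Λ ^ ε₁ * T₃) := by
        rw [mul_one]
        exact add_le_add c6 c7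
    _ = _ := by rw [hT₃]; ring

variable [Crv]

/-- the bound for small `g` -/
noncomputable def Bsm (C : ℝ) (A : ℕ) (Λ α ε₁ δ v : ℝ) (X g e : ℕ) : ℝ :=
  sig g * dv g ^ (A + 4) * (C * Λ ^ ε₁ * (1 + Λ ^ α) * (if (e : ℝ) ≤ Real.exp (Λ ^ δ) then
    dv e ^ 4 else 0) + C * ((e : ℝ) * v) ^ (-(1 / Λ)) +
    C * Λ ^ ε₁ * Λ ^ A * Real.exp (-Λ ^ δ / 2) / (X * v) * (dv e ^ A * (e : ℝ) ^ (-(1 / 2) : ℝ)))

theorem Qs_nonneg (ε : ℤ) (X q : ℕ) (u : ℝ) (k : ℝ → ℝ) : 0 ≤ Qs ε X q u k := by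
  unfold Qs; positivity

theorem to_Qs (ε : ℤ) (X g q : ℕ) (u : ℝ) (k : ℝ → ℝ) :
    ∑ j ∈ Finset.Ico X (2 * X), ENNReal.ofReal ((∑ d ∈ g.divisors.filter (· ∣ j), (d : ℝ)) / j *
      Sw (ε * j) q u k ^ 2) ≤ ENNReal.ofReal (sig g * Qs ε X q u k) := by
  rw [← ENNReal.ofReal_sum_of_nonneg (fun j _ => by positivity)]
  apply ENNReal.ofReal_le_ofReal
  unfold Qs
  rw [Finset.mul_sum]
  apply Finset.sum_le_sum
  intro j _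
  have h1 : ∑ d ∈ g.divisors.filter (· ∣ j), (d : ℝ) ≤ sig g := by
    unfold sig
    apply Finset.sum_le_sum_of_subset_of_nonneg (Finset.filter_subset _ _)
    intro d _ _; positivity
  calc (∑ d ∈ g.divisors.filter (· ∣ j), (d : ℝ)) / j * Sw (ε * j) q u k ^ 2
      = (∑ d ∈ g.divisors.filter (· ∣ j), (d : ℝ)) * (1 / j * Sw (ε * j) q u k ^ 2) := by ring
    _ ≤ sig g * (1 / j * Sw (ε * j) q u k ^ 2) := by gcongr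

/-- small `g` -/
theorem small_g {n : ℕ} {α : ℝ} (hST : StST) (hTq : StTq) (hFar : StFar) (hLev : StLev n α) :
    ∃ A : ℕ, ∀ ε₁ : ℝ, 0 < ε₁ → ε₁ ≤ 1 / 2 → ∃ δ : ℝ, 0 < δ ∧ δ ≤ ε₁ ∧ ∃ C : ℝ, 1 ≤ C ∧
    ∀ (Λ : ℝ) (ε : ℤ) (X g e : ℕ) (u u' : ℝ) (k : ℝ → ℝ), 9 ≤ Λ → ε.natAbs = 1 → 1 ≤ X →
    Real.log (2 * X) ≤ Λ / 9 → Real.exp (-(Λ / 9)) ≤ u → 0 < g → 0 < e →
    (g : ℝ) ≤ Real.exp (Λ ^ δ) → g * e * u / 2 ≤ u' → Kn (n + 1) k →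
    ∑ j ∈ Finset.Ico X (2 * X), ENNReal.ofReal ((∑ d ∈ g.divisors.filter (· ∣ j), (d : ℝ)) / j *
      Sw (ε * j) (e * g * 1) u' k ^ 2) ≤ ENNReal.ofReal (Bsm C A Λ α ε₁ δ (u / 2) X g e) := by
  obtain ⟨A₁, h1⟩ := near_block hST hTq hFar hLev
  obtain ⟨C₂, hC₂, A₂, h2⟩ := far_block hFar
  refine ⟨A₁ + A₂, fun ε₁ hε₁ hε₁' => ?_⟩
  obtain ⟨δ, hδ0, hδ1, C₁, hC₁, h1⟩ := h1 ε₁ hε₁
  refine ⟨δ, hδ0, hδ1, C₁ + C₂, by linarith, ?_⟩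
  intro Λ ε X g e u u' k hΛ hε hX hlog hu hg he hgR hu' hk
  obtain ⟨hL1, hL2⟩ := lam_facts hΛ hδ0 (hδ1.trans hε₁')
  have hΛ1 : 1 ≤ Λ := by linarith
  have hX0 : (0 : ℝ) < X := by exact_mod_cast hX
  have hg1 : (1 : ℝ) ≤ g := by exact_mod_cast hg
  have he1 : (1 : ℝ) ≤ e := by exact_mod_cast he
  have hu0 : 0 < u := lt_of_lt_of_le (Real.exp_pos _) hu
  have hv0 : 0 < u / 2 := by positivity
  have hevu : e * (u / 2) ≤ u' := by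
    refine le_trans ?_ hu'
    have : (e : ℝ) * (u / 2) * 1 ≤ (e * (u / 2)) * g := by gcongr
    linarith
  have hvΛ : Real.exp (-Λ) ≤ u / 2 := by
    have a1 : Real.exp (-1) ≤ 1 / 2 := by
      rw [Real.exp_neg, inv_le_comm₀ (by positivity) (by norm_num)]
      linarith [Real.add_one_le_exp (1 : ℝ)]
    calc Real.exp (-Λ) ≤ Real.exp (-(Λ / 9)) * Real.exp (-1) := by
          rw [← Real.exp_add]
          apply Real.exp_le_exp.2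
          linarith
      _ ≤ u * (1 / 2) := by gcongr
      _ = u / 2 := by ring
  have hvu' : u / 2 ≤ u' := by nlinarith
  have hq : 0 < e * g * 1 := by positivity
  have hdq : dv (e * g * 1) ≤ dv e * dv g := by rw [mul_one]; exact P004.B.dv_mul_le e g
  have hdq1 : 1 ≤ dv (e * g * 1) := one_le_dv hq
  have hde := one_le_dv he
  have hdg := one_le_dv hg
  refine (to_Qs ε X g (e * g * 1) u' k).trans (ENNReal.ofReal_le_ofReal ?_)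
  unfold Bsm
  rw [mul_assoc (sig g)]
  apply mul_le_mul_of_nonneg_left _ (sig_nonneg g)
  by_cases heR : (e : ℝ) ≤ Real.exp (Λ ^ δ)
  · rw [if_pos heR]
    have hXq : (2 * X : ℝ) * ((e * g * 1 : ℕ) : ℝ) ≤ Real.exp Λ := by
      have c1 : (2 * X : ℝ) ≤ Real.exp (Λ / 9) := by
        rw [← Real.log_le_iff_le_exp (by positivity)]
        exact hlog
      calc (2 * X : ℝ) * ((e * g * 1 : ℕ) : ℝ) = (2 * X) * (e * g) := by push_cast; ring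
        _ ≤ Real.exp (Λ / 9) * (Real.exp (Λ ^ δ) * Real.exp (Λ ^ δ)) := by gcongr
        _ = Real.exp (Λ / 9 + (Λ ^ δ + Λ ^ δ)) := by rw [Real.exp_add, Real.exp_add]
        _ ≤ Real.exp Λ := by
          apply Real.exp_le_exp.2
          linarith
    exact (h1 Λ ε X (e * g * 1) u' k hΛ1 hε hX hq hXq (hvΛ.trans hvu') hk).trans
      (rhs_near hC₁ hC₂ hΛ1 hX0 hv0 he1 hevu hdq1 hdq hde hdg (by omega))
  · rw [if_neg heR, mul_zero, zero_add]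
    exact (h2 Λ ε X (e * g * 1) u' k hΛ1 hε hX (by linarith) (hvΛ.trans hvu') hq
      (kn_mono (Nat.zero_le _) hk)).trans
      (rhs_far hC₁ hC₂ hΛ1 hε₁ hX0 hv0 he1 hevu hdq1 hdq hde hdg (by omega) (not_le.1 heR).le)

end Dual

end P004E
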