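import Vale.Agent.P004E.H187.Dual4

/-!
# P004E, module S5 (`StDual`), part 5: the sums over `g` and `e`
-/

open Real MeasureTheory Set Filter
open scoped ENNReal Topology

namespace P004E

namespace Dual

open P004G

variable [Crv]

theorem Bsm_eq (C : ℝ) (A : ℕ) (Λ α ε₁ δ v : ℝ) (X g e : ℕ) :
    lam g ^ 2 / g ^ 2 * (lam e ^ 2 / e) * Bsm C A Λ α ε₁ δ v X g e =
      (lam g ^ 2 / g ^ 2 * (sig g * dv g ^ (A + 4))) *
      (C * Λ ^ ε₁ * (1 + Λ ^ α) * (if (e : ℝ) ≤ Real.exp (Λ ^ δ) then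
        lam e ^ 2 / e * dv e ^ 4 else 0) +
      C * (lam e ^ 2 / e * ((e : ℝ) * v) ^ (-(1 / Λ))) +
      C * Λ ^ ε₁ * Λ ^ A * Real.exp (-Λ ^ δ / 2) / (X * v) *
        (lam e ^ 2 / e * (dv e ^ A * (e : ℝ) ^ (-(1 / 2) : ℝ)))) := by
  unfold Bsm
  split_ifs <;> ring

/-- the sum over small `g` -/
theorem sum_small (h0 : StN0) (A : ℕ) : ∃ A₁ : ℕ, ∃ K : ℝ, 1 ≤ K ∧
    ∀ (C Λ α ε₁ δ v : ℝ) (X : ℕ), 1 ≤ C → 1 ≤ Λ → 0 < δ → 1 ≤ X → Real.exp (-Λ) ≤ v →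
    ∑' g : ℕ, ∑' e : ℕ, ENNReal.ofReal (lam g ^ 2 / g ^ 2 * (lam e ^ 2 / e)) *
      (if (g : ℝ) ≤ Real.exp (Λ ^ δ) then ENNReal.ofReal (Bsm C A Λ α ε₁ δ v X g e) else 0) ≤
    ENNReal.ofReal (K * C * (Λ ^ δ) ^ A₁ * (Λ ^ ε₁ * (1 + Λ ^ α) * (Λ ^ δ) ^ A₁ + Λ +
      Λ ^ ε₁ * Λ ^ A * Real.exp (-Λ ^ δ / 2) / (X * v))) := by
  obtain ⟨C₁, hC₁, B₁, h1⟩ := gsum_cut (A + 4)
  obtain ⟨C₂, hC₂, B₂, h2⟩ := esum_cut 4
  obtain ⟨C₃, hC₃, h3⟩ := esum h0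
  obtain ⟨C₄, hC₄, h4⟩ := esum_conv A
  refine ⟨B₁ + B₂, C₁ * (C₂ * C₃ * C₄), ?_, ?_⟩
  · calc (1 : ℝ) = 1 * (1 * 1 * 1) := by norm_num
      _ ≤ _ := by gcongr
  intro C Λ α ε₁ δ v X hC hΛ hδ hX hv
  have hX0 : (0 : ℝ) < X := by exact_mod_cast hX
  have hv0 : 0 < v := lt_of_lt_of_le (Real.exp_pos _) hv
  have hΛ0 : 0 < Λ := by linarith
  set l : ℝ := Λ ^ δ with hl
  have hl1 : 1 ≤ l := Real.one_le_rpow hΛ hδ.le
  have hΛα : 0 ≤ Λ ^ α := by positivity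
  set c₁ : ℝ := C * Λ ^ ε₁ * (1 + Λ ^ α) with hc₁
  set c₃ : ℝ := C * Λ ^ ε₁ * Λ ^ A * Real.exp (-l / 2) / (X * v) with hc₃
  have hc₁0 : 0 ≤ c₁ := by positivity
  have hc₃0 : 0 ≤ c₃ := by positivity
  set F : ℕ → ℝ≥0∞ := fun g => ENNReal.ofReal (if (g : ℝ) ≤ Real.exp l then
      lam g ^ 2 / g ^ 2 * (sig g * dv g ^ (A + 4)) else 0) with hF
  set E₁ : ℕ → ℝ≥0∞ := fun e => ENNReal.ofReal (if (e : ℝ) ≤ Real.exp l then
      lam e ^ 2 / e * dv e ^ 4 else 0) with hE₁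
  set E₂ : ℕ → ℝ≥0∞ := fun e => ENNReal.ofReal
      (lam e ^ 2 / e * ((e : ℝ) * v) ^ (-(1 / Λ))) with hE₂
  set E₃ : ℕ → ℝ≥0∞ := fun e => ENNReal.ofReal
      (lam e ^ 2 / e * (dv e ^ A * (e : ℝ) ^ (-(1 / 2) : ℝ))) with hE₃
  have hpt : ∀ g e : ℕ, ENNReal.ofReal (lam g ^ 2 / g ^ 2 * (lam e ^ 2 / e)) *
      (if (g : ℝ) ≤ Real.exp l then ENNReal.ofReal (Bsm C A Λ α ε₁ δ v X g e) else 0) =
      F g * (ENNReal.ofReal c₁ * E₁ e + ENNReal.ofReal C * E₂ e + ENNReal.ofReal c₃ * E₃ e) := by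
    intro g e
    by_cases hg : (g : ℝ) ≤ Real.exp l
    · rw [if_pos hg, ← ENNReal.ofReal_mul (by positivity), Bsm_eq, hF, hE₁, hE₂, hE₃]
      simp only
      rw [if_pos hg]
      have hsg := sig_nonneg g
      have hdg := dv_nn g
      have hde := dv_nn e
      have hi : 0 ≤ (if (e : ℝ) ≤ Real.exp l then lam e ^ 2 / e * dv e ^ 4 else 0) := by
        split_ifs <;> positivity
      rw [ENNReal.ofReal_mul (by positivity), ENNReal.ofReal_add (by positivity) (by positivity),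
        ENNReal.ofReal_add (by positivity) (by positivity), ENNReal.ofReal_mul hc₁0,
        ENNReal.ofReal_mul (p := C) (by positivity), ENNReal.ofReal_mul hc₃0]
    · rw [if_neg hg, hF]
      simp only
      rw [if_neg hg]
      simp
  simp_rw [hpt]
  simp_rw [ENNReal.tsum_mul_left]
  rw [ENNReal.tsum_mul_right]
  rw [ENNReal.tsum_add, ENNReal.tsum_add, ENNReal.tsum_mul_left, ENNReal.tsum_mul_left,
    ENNReal.tsum_mul_left]
  calc (∑' g, F g) * (ENNReal.ofReal c₁ * ∑' e, E₁ e + ENNReal.ofReal C * ∑' e, E₂ e +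
        ENNReal.ofReal c₃ * ∑' e, E₃ e)
      ≤ ENNReal.ofReal (C₁ * l ^ B₁) * (ENNReal.ofReal c₁ * ENNReal.ofReal (C₂ * l ^ B₂) +
        ENNReal.ofReal C * ENNReal.ofReal (C₃ * Λ) + ENNReal.ofReal c₃ * ENNReal.ofReal C₄) := by
        gcongr
        · exact h1 l hl1
        · exact h2 l hl1
        · exact h3 Λ v hΛ hv
    _ = ENNReal.ofReal ((C₁ * l ^ B₁) * (c₁ * (C₂ * l ^ B₂) + C * (C₃ * Λ) + c₃ * C₄)) := by
        rw [← ENNReal.ofReal_mul hc₁0, ← ENNReal.ofReal_mul (by positivity),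
          ← ENNReal.ofReal_mul hc₃0, ← ENNReal.ofReal_add (by positivity) (by positivity),
          ← ENNReal.ofReal_add (by positivity) (by positivity), ← ENNReal.ofReal_mul (by positivity)]
    _ ≤ _ := by
        apply ENNReal.ofReal_le_ofReal
        set M : ℝ := C₂ * C₃ * C₄ with hM
        have m1 : C₂ ≤ M := by
          calc C₂ = C₂ * 1 * 1 := by ring
            _ ≤ M := by rw [hM]; gcongr
        have m2 : C₃ ≤ M := by
          calc C₃ = 1 * C₃ * 1 := by ring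
            _ ≤ M := by rw [hM]; gcongr
        have m3 : C₄ ≤ M := by
          calc C₄ = 1 * 1 * C₄ := by ring
            _ ≤ M := by rw [hM]; gcongr
        have hl2 : l ^ B₂ ≤ l ^ (B₁ + B₂) := pow_le_pow_right₀ hl1 (by omega)
        have hl3 : l ^ B₁ ≤ l ^ (B₁ + B₂) := pow_le_pow_right₀ hl1 (by omega)
        have a1 : c₁ * (C₂ * l ^ B₂) ≤ c₁ * (M * l ^ (B₁ + B₂)) := by gcongr
        have a2 : C * (C₃ * Λ) ≤ C * (M * Λ) := by gcongr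
        have a3 : c₃ * C₄ ≤ c₃ * M := by gcongr
        calc (C₁ * l ^ B₁) * (c₁ * (C₂ * l ^ B₂) + C * (C₃ * Λ) + c₃ * C₄)
            ≤ (C₁ * l ^ (B₁ + B₂)) * (c₁ * (M * l ^ (B₁ + B₂)) + C * (M * Λ) + c₃ * M) := by
              gcongr
          _ = _ := by rw [hc₁, hc₃]; ring

/-- the bound for large `g` -/
noncomputable def Blg (C : ℝ) (A : ℕ) (Λ v : ℝ) (X g e : ℕ) : ℝ≥0∞ :=
  ENNReal.ofReal (dv e ^ A * ((e : ℝ) * v) ^ (-(1 / Λ))) *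
    ∑ p ∈ (sqf (2 * X) ×ˢ Finset.Icc 1 (2 * X)).filter (fun p => p.1 * p.2 ^ 2 ≤ 2 * X),
      ENNReal.ofReal (dv g ^ A * ∑ d ∈ g.divisors.filter (· ∣ p.1 * p.2 ^ 2), (d : ℝ)) *
        (ENNReal.ofReal (C * Λ ^ A) * (ENNReal.ofReal (dv p.2 ^ A / X) * (Jm p.1 + 1)))

theorem large_g (hAP : StAP) : ∃ C : ℝ, 1 ≤ C ∧ ∃ A : ℕ,
    ∀ (Λ : ℝ) (ε : ℤ) (X g e : ℕ) (u u' : ℝ) (k : ℝ → ℝ), 1 ≤ Λ → ε.natAbs = 1 → 1 ≤ X →
    Real.exp (-Λ) ≤ u / 2 → 0 < g → 0 < e → g * e * u / 2 ≤ u' → Kn 1 k →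
    ∑ j ∈ Finset.Ico X (2 * X), ENNReal.ofReal ((∑ d ∈ g.divisors.filter (· ∣ j), (d : ℝ)) / j *
      Sw (ε * j) (e * g * 1) u' k ^ 2) ≤ Blg C A Λ (u / 2) X g e := by
  obtain ⟨C, hC, A, h⟩ := ap hAP
  refine ⟨C, hC, A, ?_⟩
  intro Λ ε X g e u u' k hΛ hε hX hu hg he hu' hk
  have hX0 : (0 : ℝ) < X := by exact_mod_cast hX
  have hg1 : (1 : ℝ) ≤ g := by exact_mod_cast hg
  have he1 : (1 : ℝ) ≤ e := by exact_mod_cast he
  have hv0 : 0 < u / 2 := lt_of_lt_of_le (Real.exp_pos _) hu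
  have hevu : e * (u / 2) ≤ u' := by
    refine le_trans ?_ hu'
    have : (e : ℝ) * (u / 2) * 1 ≤ (e * (u / 2)) * g := by gcongr
    linarith
  have hvev : Real.exp (-Λ) ≤ e * (u / 2) := by nlinarith
  have hq : 0 < e * g * 1 := by positivity
  have hdq : dv (e * g * 1) ≤ dv e * dv g := by rw [mul_one]; exact P004.B.dv_mul_le e g
  have hde := dv_nn e
  have hdg := dv_nn g
  set W : ℕ → ℝ≥0∞ := fun j => if X ≤ j then
    ENNReal.ofReal ((∑ d ∈ g.divisors.filter (· ∣ j), (d : ℝ)) / j *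
      Sw (ε * j) (e * g * 1) u' k ^ 2) else 0 with hW
  have e1 : ∑ j ∈ Finset.Ico X (2 * X), ENNReal.ofReal
      ((∑ d ∈ g.divisors.filter (· ∣ j), (d : ℝ)) / j * Sw (ε * j) (e * g * 1) u' k ^ 2) ≤
      ∑ j ∈ Finset.Icc 1 (2 * X), W j := by
    calc _ = ∑ j ∈ Finset.Ico X (2 * X), W j := by
          apply Finset.sum_congr rfl
          intro j hj
          rw [Finset.mem_Ico] at hj
          rw [hW]
          simp only
          rw [if_pos hj.1]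
      _ ≤ _ := by
          apply Finset.sum_le_sum_of_subset
          intro j hj
          rw [Finset.mem_Ico] at hj
          rw [Finset.mem_Icc]
          omega
  refine e1.trans ((P004.I2Mod.regroup W (2 * X)).trans ?_)
  unfold Blg
  rw [Finset.mul_sum]
  apply Finset.sum_le_sum
  intro p hp
  simp only [Finset.mem_filter, Finset.mem_product, P004.sqf, Finset.mem_Icc] at hp
  rw [hW]
  simp only
  split_ifs with hXj
  · set S : ℝ := ∑ d ∈ g.divisors.filter (· ∣ p.1 * p.2 ^ 2), (d : ℝ) with hS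
    have hS0 : 0 ≤ S := by positivity
    have hj0 : (X : ℝ) ≤ ((p.1 * p.2 ^ 2 : ℕ) : ℝ) := by exact_mod_cast hXj
    have key := h Λ u' (e * (u / 2)) ε (e * g * 1) p.1 p.2 k hΛ hε hp.1.1.2 hp.1.2.1 hq hvev hevu hk
    have hdp := dv_nn p.2
    have hw0 : 0 ≤ (e * (u / 2)) ^ (-(1 / Λ)) := by positivity
    calc ENNReal.ofReal (S / ((p.1 * p.2 ^ 2 : ℕ) : ℝ) *
          Sw (ε * ((p.1 * p.2 ^ 2 : ℕ) : ℤ)) (e * g * 1) u' k ^ 2)
        = ENNReal.ofReal (S / ((p.1 * p.2 ^ 2 : ℕ) : ℝ)) *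
          ENNReal.ofReal (Sw (ε * ((p.1 * p.2 ^ 2 : ℕ) : ℤ)) (e * g * 1) u' k ^ 2) := by
          rw [ENNReal.ofReal_mul (by positivity)]
      _ ≤ ENNReal.ofReal (S / X) * (ENNReal.ofReal (C * Λ ^ A * dv (e * g * 1) ^ A *
          dv p.2 ^ A * (e * (u / 2)) ^ (-(1 / Λ))) * (Jm p.1 + 1)) := by gcongr
      _ ≤ ENNReal.ofReal (S / X) * (ENNReal.ofReal (C * Λ ^ A * (dv e ^ A * dv g ^ A) *
          dv p.2 ^ A * (e * (u / 2)) ^ (-(1 / Λ))) * (Jm p.1 + 1)) := by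
          have c1 : dv (e * g * 1) ^ A ≤ dv e ^ A * dv g ^ A := by
            rw [← mul_pow]
            exact pow_le_pow_left₀ (dv_nn _) hdq A
          gcongr
      _ = _ := by
          rw [← mul_assoc, ← ENNReal.ofReal_mul (by positivity), ← mul_assoc (ENNReal.ofReal (C * Λ ^ A)),
            ← ENNReal.ofReal_mul (by positivity), ← mul_assoc (ENNReal.ofReal _)
            (ENNReal.ofReal _) (Jm p.1 + 1),
            ← ENNReal.ofReal_mul (by positivity), ← mul_assoc (ENNReal.ofReal _)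
            (ENNReal.ofReal _) (Jm p.1 + 1), ← ENNReal.ofReal_mul (by positivity)]
          congr 2
          ring
  · exact bot_le

/-- the sum over large `g` -/
theorem sum_large (hG : StGsum) (hFull : StFull) (A : ℕ) : ∀ δ : ℝ, 0 < δ → ∃ K : ℝ, 1 ≤ K ∧
    ∀ (C Λ v : ℝ) (X : ℕ), 1 ≤ C → 1 ≤ Λ → 1 ≤ X → Real.log (2 * X) ≤ Λ → Real.exp (-Λ) ≤ v →
    ∑' g : ℕ, ∑' e : ℕ, ENNReal.ofReal (lam g ^ 2 / g ^ 2 * (lam e ^ 2 / e)) *
      (if Real.exp (Λ ^ δ) < (g : ℝ) then Blg C A Λ v X g e else 0) ≤ ENNReal.ofReal (K * C) := by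
  intro δ hδ
  obtain ⟨C₂, hC₂, A₂, h2⟩ := esum_dv A
  obtain ⟨C₃, hC₃, A₃, h3⟩ := psum hFull A
  obtain ⟨C₄, hC₄, h4⟩ := hG (A + 2) (A + A₂ + A₃) δ hδ
  refine ⟨C₂ * (C₄ * C₃), ?_, ?_⟩
  · calc (1 : ℝ) = 1 * (1 * 1) := by norm_num
      _ ≤ _ := by gcongr
  intro C Λ v X hC hΛ hX hlog hv
  have hX0 : (0 : ℝ) < X := by exact_mod_cast hX
  have hv0 : 0 < v := lt_of_lt_of_le (Real.exp_pos _) hv
  have hΛ0 : 0 < Λ := by linarith
  set P : Finset (ℕ × ℕ) := (sqf (2 * X) ×ˢ Finset.Icc 1 (2 * X)).filter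
    (fun p => p.1 * p.2 ^ 2 ≤ 2 * X) with hP
  set E : ℕ → ℝ≥0∞ := fun e => ENNReal.ofReal (lam e ^ 2 / e) *
    ENNReal.ofReal (dv e ^ A * ((e : ℝ) * v) ^ (-(1 / Λ))) with hE
  set Gf : ℕ → ℕ → ℝ≥0∞ := fun g j => ENNReal.ofReal (if Real.exp (Λ ^ δ) < (g : ℝ) then
    dv g ^ (A + 2) / g ^ 2 * ∑ d ∈ g.divisors.filter (· ∣ j), (d : ℝ) else 0) with hGf
  set T : ℕ × ℕ → ℝ≥0∞ := fun p => ENNReal.ofReal (C * Λ ^ A) *
    (ENNReal.ofReal (dv p.2 ^ A / X) * (Jm p.1 + 1)) with hT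
  have hpt : ∀ g e : ℕ, ENNReal.ofReal (lam g ^ 2 / g ^ 2 * (lam e ^ 2 / e)) *
      (if Real.exp (Λ ^ δ) < (g : ℝ) then Blg C A Λ v X g e else 0) ≤
      (∑ p ∈ P, Gf g (p.1 * p.2 ^ 2) * T p) * E e := by
    intro g e
    have hdg := dv_nn g
    by_cases hg : Real.exp (Λ ^ δ) < (g : ℝ)
    · rw [if_pos hg]
      unfold Blg
      rw [← hP, ENNReal.ofReal_mul (by positivity)]
      have e1 : ∀ p : ℕ × ℕ, ENNReal.ofReal (lam g ^ 2 / g ^ 2) *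
          ENNReal.ofReal (dv g ^ A * ∑ d ∈ g.divisors.filter (· ∣ p.1 * p.2 ^ 2), (d : ℝ)) ≤
          Gf g (p.1 * p.2 ^ 2) := by
        intro p
        rw [← ENNReal.ofReal_mul (by positivity), hGf]
        simp only
        rw [if_pos hg]
        apply ENNReal.ofReal_le_ofReal
        have hS0 : 0 ≤ ∑ d ∈ g.divisors.filter (· ∣ p.1 * p.2 ^ 2), (d : ℝ) := by positivity
        calc lam g ^ 2 / g ^ 2 * (dv g ^ A * ∑ d ∈ g.divisors.filter (· ∣ p.1 * p.2 ^ 2), (d : ℝ))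
            ≤ dv g ^ 2 / g ^ 2 *
              (dv g ^ A * ∑ d ∈ g.divisors.filter (· ∣ p.1 * p.2 ^ 2), (d : ℝ)) :=
              mul_le_mul_of_nonneg_right (div_le_div_of_nonneg_right (lam_sq_le g) (by positivity))
                (by positivity)
          _ = _ := by rw [pow_add]; ring
      calc ENNReal.ofReal (lam g ^ 2 / g ^ 2) * ENNReal.ofReal (lam e ^ 2 / e) *
            (ENNReal.ofReal (dv e ^ A * ((e : ℝ) * v) ^ (-(1 / Λ))) *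
            ∑ p ∈ P, ENNReal.ofReal
              (dv g ^ A * ∑ d ∈ g.divisors.filter (· ∣ p.1 * p.2 ^ 2), (d : ℝ)) * T p)
          = (∑ p ∈ P, (ENNReal.ofReal (lam g ^ 2 / g ^ 2) * ENNReal.ofReal
              (dv g ^ A * ∑ d ∈ g.divisors.filter (· ∣ p.1 * p.2 ^ 2), (d : ℝ))) * T p) * E e := by
            have e2 : ∑ p ∈ P, (ENNReal.ofReal (lam g ^ 2 / g ^ 2) * ENNReal.ofReal
              (dv g ^ A * ∑ d ∈ g.divisors.filter (· ∣ p.1 * p.2 ^ 2), (d : ℝ))) * T p =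
              ENNReal.ofReal (lam g ^ 2 / g ^ 2) * ∑ p ∈ P, ENNReal.ofReal
              (dv g ^ A * ∑ d ∈ g.divisors.filter (· ∣ p.1 * p.2 ^ 2), (d : ℝ)) * T p := by
              rw [Finset.mul_sum]
              apply Finset.sum_congr rfl
              intro p _
              rw [mul_assoc]
            rw [e2, hE]
            ring
        _ ≤ (∑ p ∈ P, Gf g (p.1 * p.2 ^ 2) * T p) * E e := by
            gcongr with p _
            exact e1 p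
    · rw [if_neg hg, mul_zero]
      exact bot_le
  have hlogj : ∀ p ∈ P, ∑' g : ℕ, Gf g (p.1 * p.2 ^ 2) ≤
      ENNReal.ofReal (C₄ / Λ ^ (A + A₂ + A₃)) := by
    intro p hp
    rw [hP] at hp
    simp only [Finset.mem_filter, Finset.mem_product, P004.sqf, Finset.mem_Icc] at hp
    have hj0 : 0 < p.1 * p.2 ^ 2 := Nat.mul_pos (by omega) (pow_pos (by omega) 2)
    refine h4 Λ (p.1 * p.2 ^ 2) hΛ hj0 ?_
    refine le_trans (Real.log_le_log (by exact_mod_cast hj0) ?_) hlog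
    exact_mod_cast hp.2
  calc ∑' g : ℕ, ∑' e : ℕ, ENNReal.ofReal (lam g ^ 2 / g ^ 2 * (lam e ^ 2 / e)) *
        (if Real.exp (Λ ^ δ) < (g : ℝ) then Blg C A Λ v X g e else 0)
      ≤ ∑' g : ℕ, ∑' e : ℕ, (∑ p ∈ P, Gf g (p.1 * p.2 ^ 2) * T p) * E e :=
        ENNReal.tsum_le_tsum fun g => ENNReal.tsum_le_tsum fun e => hpt g e
    _ = (∑' g : ℕ, ∑ p ∈ P, Gf g (p.1 * p.2 ^ 2) * T p) * ∑' e, E e := by
        simp_rw [ENNReal.tsum_mul_left]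
        rw [ENNReal.tsum_mul_right]
    _ = (∑ p ∈ P, (∑' g : ℕ, Gf g (p.1 * p.2 ^ 2)) * T p) * ∑' e, E e := by
        rw [Summable.tsum_finsetSum (fun p _ => ENNReal.summable)]
        simp_rw [ENNReal.tsum_mul_right]
    _ ≤ (∑ p ∈ P, ENNReal.ofReal (C₄ / Λ ^ (A + A₂ + A₃)) * T p) *
        ENNReal.ofReal (C₂ * Λ ^ A₂) := by
        gcongr with p hp
        · exact hlogj p hp
        · exact h2 Λ v hΛ hv
    _ = ENNReal.ofReal (C₄ / Λ ^ (A + A₂ + A₃)) * (ENNReal.ofReal (C * Λ ^ A) *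
        ∑ p ∈ P, ENNReal.ofReal (dv p.2 ^ A / X) * (Jm p.1 + 1)) *
        ENNReal.ofReal (C₂ * Λ ^ A₂) := by
        rw [← Finset.mul_sum, hT, ← Finset.mul_sum]
    _ ≤ ENNReal.ofReal (C₄ / Λ ^ (A + A₂ + A₃)) * (ENNReal.ofReal (C * Λ ^ A) *
        ENNReal.ofReal (C₃ * Λ ^ A₃)) * ENNReal.ofReal (C₂ * Λ ^ A₂) := by
        gcongr
        exact h3 Λ X hΛ hX hlog
    _ = ENNReal.ofReal (C₄ / Λ ^ (A + A₂ + A₃) * (C * Λ ^ A * (C₃ * Λ ^ A₃)) *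
        (C₂ * Λ ^ A₂)) := by
        rw [← ENNReal.ofReal_mul (by positivity), ← ENNReal.ofReal_mul (by positivity),
          ← ENNReal.ofReal_mul (by positivity)]
    _ = _ := by
        congr 1
        rw [pow_add, pow_add]
        field_simp

end Dual

end P004E
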