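import Vale.Agent.P004E.H187.Dual5

/-!
# P004E, module S5 (`StDual`), part 6: one block of the dual sum
-/

open Real MeasureTheory Set Filter
open scoped ENNReal Topology

namespace P004E

namespace Dual

open P004G

/-- `Λ^K e^{-Λ^δ/2}` is bounded -/
theorem pow_exp (K : ℕ) {δ : ℝ} (hδ : 0 < δ) : ∃ C : ℝ, 1 ≤ C ∧ ∀ Λ : ℝ, 1 ≤ Λ →
    Λ ^ K * Real.exp (-Λ ^ δ / 2) ≤ C := by
  set c : ℝ := K / (δ / 2) with hc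
  have hc0 : 0 ≤ c := by positivity
  refine ⟨Real.exp (c ^ 2 / 2), Real.one_le_exp (by positivity), ?_⟩
  intro Λ hΛ
  have hΛ0 : 0 < Λ := by linarith
  have h1 := Real.log_le_rpow_div hΛ0.le (show 0 < δ / 2 by positivity)
  have h2 : Λ ^ K ≤ Real.exp (c * Λ ^ (δ / 2)) := by
    calc Λ ^ K = Real.exp (K * Real.log Λ) := by
          rw [mul_comm, Real.exp_mul, Real.exp_log hΛ0, Real.rpow_natCast]
      _ ≤ _ := by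
          apply Real.exp_le_exp.2
          calc (K : ℝ) * Real.log Λ ≤ K * (Λ ^ (δ / 2) / (δ / 2)) := by gcongr
            _ = _ := by rw [hc]; ring
  have h3 : Λ ^ δ = (Λ ^ (δ / 2)) ^ 2 := by
    rw [← Real.rpow_natCast, ← Real.rpow_mul hΛ0.le]
    congr 1; push_cast; ring
  calc Λ ^ K * Real.exp (-Λ ^ δ / 2) ≤ Real.exp (c * Λ ^ (δ / 2)) * Real.exp (-Λ ^ δ / 2) := by
        gcongr
    _ = Real.exp (c * Λ ^ (δ / 2) + -(Λ ^ (δ / 2)) ^ 2 / 2) := by rw [← Real.exp_add, h3]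
    _ ≤ _ := by
        apply Real.exp_le_exp.2
        nlinarith [sq_nonneg (Λ ^ (δ / 2) - c)]

variable [Crv]

/-- the dual sum over one block -/
theorem block {n : ℕ} {α : ℝ} (hSep : StAdSep) (hAP : StAP) (hST : StST) (hTq : StTq)
    (hFar : StFar) (hLev : StLev n α) (h0 : StN0) (hG : StGsum) (hFull : StFull) :
    ∃ A A₁ : ℕ, ∀ ε₁ : ℝ, 0 < ε₁ → ε₁ ≤ 1 / 2 → ∃ δ : ℝ, 0 < δ ∧ δ ≤ ε₁ ∧ ∃ C : ℝ, 1 ≤ C ∧
    ∀ (Λ u : ℝ) (H X : ℕ) (ε : ℤ) (k : ℝ → ℝ), 9 ≤ Λ → 1 ≤ H → ε.natAbs = 1 → 1 ≤ X →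
    Real.log (2 * X) ≤ Λ / 9 → Real.exp (-(Λ / 9)) ≤ u → Kn (n + 4) k →
    ∑ j ∈ Finset.Ico X (2 * X), ENNReal.ofReal |Ad H 1 (ε * j) u k| ≤
      ENNReal.ofReal (C / (H * u) * ((Λ ^ δ) ^ A₁ * (Λ ^ ε₁ * (1 + Λ ^ α) * (Λ ^ δ) ^ A₁ + Λ +
        Λ ^ ε₁ * Λ ^ A * Real.exp (-Λ ^ δ / 2) / (X * (u / 2))) + 1)) := by
  obtain ⟨Cs, hCs, hs⟩ := hSep (n + 3)
  obtain ⟨A, hsm⟩ := small_g hST hTq hFar hLev
  obtain ⟨A₁, K₁, hK₁, hss⟩ := sum_small h0 A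
  obtain ⟨Cl, hCl, Al, hlg⟩ := large_g hAP
  refine ⟨A, A₁, fun ε₁ hε₁ hε₁' => ?_⟩
  obtain ⟨δ, hδ0, hδ1, C₁, hC₁, hsm⟩ := hsm ε₁ hε₁ hε₁'
  obtain ⟨K₂, hK₂, hsl⟩ := sum_large hG hFull Al δ hδ0
  refine ⟨δ, hδ0, hδ1, Cs * (K₁ * C₁ + K₂ * Cl), ?_, ?_⟩
  · have : 1 ≤ K₁ * C₁ := by nlinarith
    have : 0 ≤ K₂ * Cl := by positivity
    nlinarith
  intro Λ u H X ε k hΛ hH hε hX hlog hu hk
  have hΛ1 : 1 ≤ Λ := by linarith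
  have hΛ0 : 0 < Λ := by linarith
  have hu0 : 0 < u := lt_of_lt_of_le (Real.exp_pos _) hu
  have hX0 : (0 : ℝ) < X := by exact_mod_cast hX
  have hH0 : (0 : ℝ) < H := by exact_mod_cast hH
  have hvΛ : Real.exp (-Λ) ≤ u / 2 := by
    have a1 : Real.exp (-1) ≤ 1 / 2 := by
      rw [Real.exp_neg, inv_le_comm₀ (by positivity) (by norm_num)]
      linarith [Real.add_one_le_exp (1 : ℝ)]
    calc Real.exp (-Λ) ≤ Real.exp (-(Λ / 9)) * Real.exp (-1) := by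
          rw [← Real.exp_add]
          apply Real.exp_le_exp.2
          linarith
      _ ≤ u * (1 / 2) := by gcongr
      _ = u / 2 := by ring
  set B : ℕ → ℕ → ℝ≥0∞ := fun g e =>
    (if (g : ℝ) ≤ Real.exp (Λ ^ δ) then ENNReal.ofReal (Bsm C₁ A Λ α ε₁ δ (u / 2) X g e) else 0) +
    (if Real.exp (Λ ^ δ) < (g : ℝ) then Blg Cl Al Λ (u / 2) X g e else 0) with hB
  have key := hs H u 1 ε k (Finset.Ico X (2 * X)) B hH hu0 one_pos hε hk (by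
      intro j hj
      rw [Finset.mem_Ico] at hj
      omega) (by
      intro g e hg he u' hu' k' hk'
      rw [hB]
      simp only
      by_cases hgR : (g : ℝ) ≤ Real.exp (Λ ^ δ)
      · rw [if_pos hgR, if_neg (not_lt.2 hgR), add_zero]
        exact hsm Λ ε X g e u u' k' hΛ hε hX hlog hu hg he hgR hu' (kn_mono (by omega) hk')
      · rw [if_neg hgR, if_pos (not_le.1 hgR), zero_add]
        exact hlg Λ ε X g e u u' k' hΛ1 hε hX hvΛ hg he hu' (kn_mono (by omega) hk'))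
  refine key.trans ?_
  have hsplit : ∑' g : ℕ, ∑' e : ℕ, ENNReal.ofReal (lam g ^ 2 / g ^ 2 * (lam e ^ 2 / e)) * B g e =
      ∑' g : ℕ, ∑' e : ℕ, ENNReal.ofReal (lam g ^ 2 / g ^ 2 * (lam e ^ 2 / e)) *
        (if (g : ℝ) ≤ Real.exp (Λ ^ δ) then
          ENNReal.ofReal (Bsm C₁ A Λ α ε₁ δ (u / 2) X g e) else 0) +
      ∑' g : ℕ, ∑' e : ℕ, ENNReal.ofReal (lam g ^ 2 / g ^ 2 * (lam e ^ 2 / e)) *
        (if Real.exp (Λ ^ δ) < (g : ℝ) then Blg Cl Al Λ (u / 2) X g e else 0) := by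
    rw [← ENNReal.tsum_add]
    apply tsum_congr
    intro g
    rw [← ENNReal.tsum_add]
    apply tsum_congr
    intro e
    rw [hB, ← mul_add]
  rw [hsplit]
  have b1 := hss C₁ Λ α ε₁ δ (u / 2) X hC₁ hΛ1 hδ0 hX hvΛ
  have b2 := hsl Cl Λ (u / 2) X hCl hΛ1 hX (by linarith) hvΛ
  set R : ℝ := (Λ ^ δ) ^ A₁ * (Λ ^ ε₁ * (1 + Λ ^ α) * (Λ ^ δ) ^ A₁ + Λ +
      Λ ^ ε₁ * Λ ^ A * Real.exp (-Λ ^ δ / 2) / (X * (u / 2))) with hR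
  have hR0 : 0 ≤ R := by positivity
  have e1 : K₁ * C₁ * (Λ ^ δ) ^ A₁ * (Λ ^ ε₁ * (1 + Λ ^ α) * (Λ ^ δ) ^ A₁ + Λ +
      Λ ^ ε₁ * Λ ^ A * Real.exp (-Λ ^ δ / 2) / (X * (u / 2))) = K₁ * C₁ * R := by
    rw [hR]; ring
  rw [e1] at b1
  calc ENNReal.ofReal (Cs / (H * u)) * (_ + _)
      ≤ ENNReal.ofReal (Cs / (H * u)) * (ENNReal.ofReal (K₁ * C₁ * R) +
        ENNReal.ofReal (K₂ * Cl)) := by gcongr
    _ = ENNReal.ofReal (Cs / (H * u) * (K₁ * C₁ * R + K₂ * Cl)) := by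
        rw [← ENNReal.ofReal_add (by positivity) (by positivity),
          ← ENNReal.ofReal_mul (by positivity)]
    _ ≤ _ := by
        apply ENNReal.ofReal_le_ofReal
        have c1 : K₁ * C₁ * R + K₂ * Cl ≤ (K₁ * C₁ + K₂ * Cl) * (R + 1) := by
          have : 0 ≤ K₁ * C₁ := by positivity
          have : 0 ≤ K₂ * Cl * R := by positivity
          nlinarith
        calc Cs / (H * u) * (K₁ * C₁ * R + K₂ * Cl)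
            ≤ Cs / (H * u) * ((K₁ * C₁ + K₂ * Cl) * (R + 1)) := by gcongr
          _ = _ := by ring

/-- the sum over small `j` -/
theorem main_sum' {C₂ : ℝ} (hC₂ : 0 < C₂) {A₂ : ℕ}
    (hG : ∀ θ : ℝ, 0 < θ → θ ≤ 1 / 8 →
    ∀ (H V₁ V₂ : ℝ) (R j k₁ k₂ : ℕ) (ε : ℤ), ε.natAbs = 1 → 0 < H → 0 < V₁ → 0 < V₂ → 0 < R →
    0 < j → Squarefree k₁ → 0 < k₂ →
    ∫⁻ u₁ in Ioi V₁, ∫⁻ u₂ in Ioi V₂,
      ENNReal.ofReal |AG H R j (ε * ((k₁ * k₂ ^ 2 : ℕ) : ℤ)) u₁ u₂| ≤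
      ENNReal.ofReal (C₂ * (1 / θ) ^ A₂ * dv R ^ A₂ * dv k₂ ^ A₂ * (j * H) ^ (-1 / 2 + θ) *
        (V₁ * V₂) ^ (-θ)) * (Jm k₁ + 1))
    {C₄ : ℝ} {B : ℕ} (hJ : ∀ L H M : ℝ, 1 ≤ L → 1 ≤ H → 0 < M →
      Real.log M ≤ 1000 * L → ∀ (W : ℕ → ℝ≥0∞) (D : ℝ≥0∞),
    (∀ j₁ j₂ : ℕ, Squarefree j₁ → 0 < j₂ → W (j₁ * j₂ ^ 2) ≤ D * ENNReal.ofReal (dv j₂ ^ A₂ *
      (((j₁ * j₂ ^ 2 : ℕ) : ℝ) * H) ^ (-1 / 2 + 1 / (8 * L))) * (Jm j₁ + 1)) →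
    ∑ j ∈ Finset.Icc 1 ⌊M / H⌋₊, W j ≤ D * ENNReal.ofReal (C₄ * L ^ B * √M / H))
    {H V Λ M : ℝ} {q : ℕ} (hΛ : 1 ≤ Λ) (hH : 1 ≤ H) (hM : 0 < M) (hlogM : Real.log M ≤ 1000 * Λ)
    (hVL : Real.exp (-(2 * Λ)) ≤ V) (hq : 0 < q) :
    ∑ j ∈ Finset.Icc 1 ⌊M / H⌋₊, Far.WW H V q j ≤
      ENNReal.ofReal (4 * C₂ * (8 * Λ) ^ A₂ * dv q ^ A₂) *
        ENNReal.ofReal (C₄ * Λ ^ B * √M / H) := by
  have hΛ0 : 0 < Λ := by linarith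
  refine hJ Λ H M hΛ hH hM hlogM _ _ ?_
  intro j₁ j₂ h1 h2
  have i1 := Far.one_j hC₂ hG hΛ le_rfl (by linarith) hVL hq 1 (by norm_num) j₁ j₂ h1 h2 (H := H)
  have i2 := Far.one_j hC₂ hG hΛ le_rfl (by linarith) hVL hq (-1) (by norm_num) j₁ j₂ h1 h2 (H := H)
  refine (add_le_add i1 i2).trans (le_of_eq ?_)
  have e : ENNReal.ofReal (4 * C₂ * (8 * Λ) ^ A₂ * dv q ^ A₂) =
      2 * ENNReal.ofReal (2 * C₂ * (8 * Λ) ^ A₂ * dv q ^ A₂) := by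
    rw [show 4 * C₂ * (8 * Λ) ^ A₂ * dv q ^ A₂ =
      2 * (2 * C₂ * (8 * Λ) ^ A₂ * dv q ^ A₂) by ring, ENNReal.ofReal_mul (by norm_num)]
    norm_num
  rw [e]
  ring

omit [Crv] in
/-- decomposition into blocks -/
theorem sum_blocks (a : ℕ → ℝ≥0∞) (X : ℕ) (I : ℕ) :
    ∑ j ∈ Finset.Ico X (2 ^ I * X), a j =
      ∑ i ∈ Finset.range I, ∑ j ∈ Finset.Ico (2 ^ i * X) (2 * (2 ^ i * X)), a j := by
  induction I with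
  | zero => simp
  | succ I ih =>
    rw [Finset.sum_range_succ, ← ih]
    have e : 2 ^ (I + 1) * X = 2 * (2 ^ I * X) := by ring
    rw [e]
    rw [Finset.sum_Ico_consecutive a (Nat.le_mul_of_pos_left X (by positivity)) (by omega)]

end Dual

end P004E
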