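import Vale.Agent.P004E.H187.Dual6

/-!
# P004E, module S5 (`StDual`), part 7: all the blocks
-/

open Real MeasureTheory Set Filter
open scoped ENNReal Topology

namespace P004E

namespace Dual

open P004G

/-- the cut -/
noncomputable def Mc (Λ V : ℝ) (B₀ : ℕ) : ℝ := 1 / (V * V * (Λ ^ B₀) ^ 2)

/-- the first block -/
noncomputable def Xc (Λ V H : ℝ) (B₀ : ℕ) : ℕ := ⌊Mc Λ V B₀ / H⌋₊ + 1

theorem exists_I {Y : ℝ} (hY : 1 ≤ Y) : ∃ I : ℕ, Y ≤ 2 ^ I ∧ (2 : ℝ) ^ I ≤ 2 * Y ∧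
    (I : ℝ) ≤ 2 * Real.log Y + 1 := by
  obtain ⟨n, h1, h2⟩ := exists_nat_pow_near hY (one_lt_two : (1 : ℝ) < 2)
  refine ⟨n + 1, h2.le, ?_, ?_⟩
  · rw [pow_succ]; linarith
  · have h3 : (n : ℝ) * Real.log 2 ≤ Real.log Y := by
      rw [← Real.log_pow]
      exact Real.log_le_log (by positivity) h1
    have h4 : (1 / 2 : ℝ) ≤ Real.log 2 := by linarith [Real.log_two_gt_d9]
    have h5 : (n : ℝ) * (1 / 2) ≤ n * Real.log 2 := by gcongr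
    push_cast
    linarith

theorem log_le_two_sqrt {x : ℝ} (hx : 1 ≤ x) : Real.log x ≤ 2 * √x := by
  have h0 : 0 < x := by linarith
  have h1 : Real.log √x = Real.log x / 2 := Real.log_sqrt h0.le
  have h2 := Real.log_le_sub_one_of_pos (Real.sqrt_pos.2 h0)
  linarith

theorem exp_u {L u : ℝ} (hu : Real.exp (-L) ≤ u) : 1 / (u / 2 * (u / 2)) ≤ 4 * Real.exp (2 * L) := by
  have hu0 : 0 < u := lt_of_lt_of_le (Real.exp_pos _) hu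
  have h1 : 1 ≤ Real.exp L * u := by
    calc (1 : ℝ) = Real.exp L * Real.exp (-L) := by rw [← Real.exp_add]; simp
      _ ≤ _ := by gcongr
  have h2 : Real.exp (2 * L) = Real.exp L * Real.exp L := by rw [← Real.exp_add]; congr 1; ring
  rw [div_le_iff₀ (by positivity), h2]
  calc (1 : ℝ) = 1 * 1 := by ring
    _ ≤ (Real.exp L * u) * (Real.exp L * u) := by gcongr
    _ = _ := by ring

theorem Mc_le {Λ V : ℝ} {B₀ : ℕ} (hΛ : 1 ≤ Λ) (hV : 0 < V) : Mc Λ V B₀ ≤ 1 / (V * V) := by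
  unfold Mc
  apply one_div_le_one_div_of_le (by positivity)
  have : 1 ≤ (Λ ^ B₀) ^ 2 := one_le_pow₀ (one_le_pow₀ hΛ)
  nlinarith [mul_pos hV hV]

theorem Mc_pos {Λ V : ℝ} {B₀ : ℕ} (hΛ : 1 ≤ Λ) (hV : 0 < V) : 0 < Mc Λ V B₀ := by
  unfold Mc
  have : 0 < Λ := by linarith
  positivity

theorem Xc_gt (Λ V H : ℝ) (B₀ : ℕ) : Mc Λ V B₀ / H < Xc Λ V H B₀ := by
  unfold Xc
  push_cast
  exact Nat.lt_floor_add_one _

theorem Xc_pos (Λ V H : ℝ) (B₀ : ℕ) : (0 : ℝ) < Xc Λ V H B₀ := by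
  unfold Xc; push_cast; positivity

theorem Xc_le {Λ L u H : ℝ} {B₀ : ℕ} (hΛ : 1 ≤ Λ) (hL : 1 ≤ L) (hH : 1 ≤ H)
    (hu : Real.exp (-L) ≤ u) : (Xc Λ (u / 2) H B₀ : ℝ) ≤ 5 * Real.exp (2 * L) := by
  have hu0 : 0 < u := lt_of_lt_of_le (Real.exp_pos _) hu
  have hH0 : 0 < H := by linarith
  have hM0 : 0 < Mc Λ (u / 2) B₀ := Mc_pos hΛ (by positivity)
  have h4 : Mc Λ (u / 2) B₀ ≤ 1 / (u / 2 * (u / 2)) := Mc_le hΛ (by positivity)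
  unfold Xc
  push_cast
  have h2 := Nat.floor_le (show 0 ≤ Mc Λ (u / 2) B₀ / H by positivity)
  have h3 : Mc Λ (u / 2) B₀ / H ≤ Mc Λ (u / 2) B₀ := div_le_self hM0.le hH
  have h5 := exp_u hu
  have h6 : 1 ≤ Real.exp (2 * L) := Real.one_le_exp (by linarith)
  linarith

theorem log_ten : Real.log 10 ≤ 3 := by
  have : Real.log 10 ≤ Real.log (Real.exp 3) := by
    apply Real.log_le_log (by norm_num)
    have h6 : Real.exp 3 = Real.exp 1 ^ 3 := by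
      rw [← Real.exp_nat_mul]; norm_num
    rw [h6]
    have h7 := Real.exp_one_gt_d9
    have h8 : (2.7 : ℝ) ≤ Real.exp 1 := by linarith
    calc (10 : ℝ) ≤ 2.7 ^ 3 := by norm_num
      _ ≤ _ := by gcongr
  rwa [Real.log_exp] at this

theorem log_X {L Y x X : ℝ} (hx0 : 0 < x) (hY : 1 ≤ Y) (hX0 : 0 < X) (hx : x ≤ 2 * Y)
    (hX : X ≤ 5 * Real.exp (2 * L)) : Real.log (x * X) ≤ 3 + Real.log Y + 2 * L := by
  have h3 : x * X ≤ 10 * Y * Real.exp (2 * L) := by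
    calc x * X ≤ (2 * Y) * (5 * Real.exp (2 * L)) := by gcongr
      _ = _ := by ring
  calc Real.log (x * X) ≤ Real.log (10 * Y * Real.exp (2 * L)) :=
        Real.log_le_log (by positivity) h3
    _ = Real.log 10 + Real.log Y + 2 * L := by
        rw [Real.log_mul (by positivity) (by positivity), Real.log_exp,
          Real.log_mul (by norm_num) (by positivity)]
    _ ≤ _ := by linarith [log_ten]

theorem fin_log {Λ L K₂ l : ℝ} (hl : 0 ≤ l) (hK₂ : 0 ≤ K₂) (hL : 1 ≤ L)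
    (hΛ : (144 + 36 * (3 + 11 * l) + (72 * K₂) ^ 2) * L = Λ) :
    3 + (11 * l + K₂ * Real.log Λ) + 2 * L ≤ Λ / 9 := by
  have hc0 : 0 ≤ (72 * K₂) ^ 2 := sq_nonneg _
  have hcc : 0 ≤ 36 * (3 + 11 * l) + (72 * K₂) ^ 2 := by positivity
  have hΛc : 144 + 36 * (3 + 11 * l) + (72 * K₂) ^ 2 ≤ Λ := by
    rw [← hΛ]
    nlinarith
  have hΛ1 : 1 ≤ Λ := by linarith
  have h6 := log_le_two_sqrt hΛ1
  have h7 : 72 * K₂ ≤ √Λ := by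
    apply Real.le_sqrt_of_sq_le
    linarith
  have h8 : √Λ * √Λ = Λ := Real.mul_self_sqrt (by linarith)
  have h9 : K₂ * Real.log Λ ≤ Λ / 36 := by
    calc K₂ * Real.log Λ ≤ K₂ * (2 * √Λ) := by gcongr
      _ = (72 * K₂) * √Λ / 36 := by ring
      _ ≤ √Λ * √Λ / 36 := by gcongr
      _ = _ := by rw [h8]
  have h11 : 144 * L ≤ Λ := by
    rw [← hΛ]
    nlinarith
  linarith

theorem nI {Λ ε K₂ l : ℝ} {I : ℕ} (hε : 0 < ε) (hl : 0 ≤ l) (hK₂ : 0 ≤ K₂) (hΛ : 1 ≤ Λ)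
    (hI : (I : ℝ) ≤ 2 * (11 * l + K₂ * Real.log Λ) + 1) :
    (I : ℝ) ≤ (2 * (3 + 11 * l) + 2 * K₂ / ε) * Λ ^ ε := by
  have h1 := Real.log_le_rpow_div (show 0 ≤ Λ by linarith) hε
  have h2 : 1 ≤ Λ ^ ε := Real.one_le_rpow hΛ hε.le
  calc (I : ℝ) ≤ 2 * (11 * l + K₂ * Real.log Λ) + 1 := hI
    _ ≤ 2 * (11 * l + K₂ * (Λ ^ ε / ε)) + 1 := by gcongr
    _ = (2 * (11 * l) + 1) * 1 + 2 * K₂ / ε * Λ ^ ε := by ring
    _ ≤ (2 * (3 + 11 * l)) * Λ ^ ε + 2 * K₂ / ε * Λ ^ ε := by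
        gcongr
        linarith
    _ = _ := by ring

theorem Y_eq (C₃ : ℝ) {Λ V H : ℝ} (B₀ : ℕ) (hΛ : 0 < Λ) (hV : 0 < V) (hH : 0 < H) :
    (200 * C₃ * Λ) ^ 11 / (V * V) / H =
      ((200 * C₃) ^ 11 * Λ ^ (11 + 2 * B₀)) * (Mc Λ V B₀ / H) := by
  unfold Mc
  rw [pow_add, mul_pow (200 * C₃) Λ, pow_mul' Λ 2 B₀]
  field_simp

/-- the number and the size of the blocks -/
theorem nblocks (C₃ : ℝ) (hC₃ : 1 ≤ C₃) (B₀ : ℕ) : ∃ c : ℝ, 144 ≤ c ∧ ∀ ε : ℝ, 0 < ε →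
    ∃ K : ℝ, 1 ≤ K ∧ ∀ L u H : ℝ, 1 ≤ L → 1 ≤ H → Real.exp (-L) ≤ u →
    ∃ I : ℕ, (I : ℝ) ≤ K * (c * L) ^ ε ∧
      ⌊((200 * C₃ * (c * L)) ^ 11 / (u / 2 * (u / 2))) / H⌋₊ < 2 ^ I * Xc (c * L) (u / 2) H B₀ ∧
      ∀ i < I, Real.log (2 * ((2 ^ i * Xc (c * L) (u / 2) H B₀ : ℕ) : ℝ)) ≤ c * L / 9 := by
  set l : ℝ := Real.log (200 * C₃) with hl
  set K₂ : ℝ := 11 + 2 * B₀ with hK₂
  have hl0 : 0 ≤ l := Real.log_nonneg (by linarith)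
  have hK₂0 : 11 ≤ K₂ := by rw [hK₂]; linarith [(Nat.cast_nonneg B₀ : (0 : ℝ) ≤ B₀)]
  refine ⟨144 + 36 * (3 + 11 * l) + (72 * K₂) ^ 2, by nlinarith, ?_⟩
  set c : ℝ := 144 + 36 * (3 + 11 * l) + (72 * K₂) ^ 2 with hc
  have hc144 : 144 ≤ c := by rw [hc]; nlinarith
  intro ε hε
  refine ⟨2 * (3 + 11 * l) + 2 * K₂ / ε, ?_, ?_⟩
  · have : 0 ≤ 2 * K₂ / ε := by positivity
    linarith
  intro L u H hL hH hu
  have hu0 : 0 < u := lt_of_lt_of_le (Real.exp_pos _) hu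
  obtain ⟨Λ, hΛ⟩ : ∃ Λ, Λ = c * L := ⟨_, rfl⟩
  rw [← hΛ]
  have hΛ1 : 1 ≤ Λ := by rw [hΛ]; nlinarith
  have hΛ0 : 0 < Λ := by linarith
  have hH0 : 0 < H := by linarith
  obtain ⟨Y, hY⟩ : ∃ Y, Y = (200 * C₃) ^ 11 * Λ ^ (11 + 2 * B₀) := ⟨_, rfl⟩
  have hY1 : 1 ≤ Y := by
    have h1 : 1 ≤ (200 * C₃) ^ 11 := one_le_pow₀ (by linarith)
    have h2 : 1 ≤ Λ ^ (11 + 2 * B₀) := one_le_pow₀ hΛ1
    rw [hY]
    nlinarith
  have hlogY : Real.log Y = 11 * l + K₂ * Real.log Λ := by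
    rw [hY, Real.log_mul (by positivity) (by positivity), Real.log_pow, Real.log_pow, hK₂, hl]
    push_cast
    ring
  obtain ⟨I, hI1, hI2, hI3⟩ := exists_I hY1
  have hX0 := Xc_gt Λ (u / 2) H B₀
  have hXpos := Xc_pos Λ (u / 2) H B₀
  have hXle : (Xc Λ (u / 2) H B₀ : ℝ) ≤ 5 * Real.exp (2 * L) := Xc_le hΛ1 hL hH hu
  have hM0 : 0 < Mc Λ (u / 2) B₀ := Mc_pos hΛ1 (by positivity)
  refine ⟨I, ?_, ?_, ?_⟩
  · rw [hlogY] at hI3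
    exact nI hε hl0 (by linarith) hΛ1 hI3
  · rw [Nat.floor_lt (by positivity), Y_eq C₃ B₀ hΛ0 (by positivity) hH0, ← hY]
    push_cast
    calc Y * (Mc Λ (u / 2) B₀ / H) ≤ 2 ^ I * (Mc Λ (u / 2) B₀ / H) := by gcongr
      _ < _ := by gcongr
  · intro i hi
    push_cast
    have h2 : (2 : ℝ) * 2 ^ i ≤ 2 * Y := by
      calc (2 : ℝ) * 2 ^ i = 2 ^ (i + 1) := by ring
        _ ≤ 2 ^ I := pow_le_pow_right₀ (by norm_num) (by omega)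
        _ ≤ _ := hI2
    rw [← mul_assoc]
    refine (log_X (by positivity) hY1 hXpos h2 hXle).trans ?_
    rw [hlogY]
    exact fin_log hl0 (by linarith) hL (by rw [hΛ, hc])

end Dual

end P004E
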