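import Vale.Agent.P004E.H187.Dual7

/-!
# P004E, module S5 (`StDual`), part 8: the sums over small `j` and over the blocks
-/

open Real MeasureTheory Set Filter
open scoped ENNReal Topology

namespace P004E

namespace Dual

open P004G

theorem sqrt_Mc {Λ V : ℝ} {B₀ : ℕ} (hΛ : 1 ≤ Λ) (hV : 0 < V) :
    √(Mc Λ V B₀) = 1 / (V * Λ ^ B₀) := by
  have hΛ0 : 0 < Λ := by linarith
  have e : Mc Λ V B₀ = (1 / (V * Λ ^ B₀)) ^ 2 := by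
    unfold Mc
    rw [div_pow, one_pow, mul_pow]
    ring
  rw [e, Real.sqrt_sq (by positivity)]

theorem log_Mc {Λ V : ℝ} {B₀ : ℕ} (hΛ : 1 ≤ Λ) (hVL : Real.exp (-(2 * Λ)) ≤ V) :
    Real.log (Mc Λ V B₀) ≤ 1000 * Λ := by
  have hV0 : 0 < V := lt_of_lt_of_le (Real.exp_pos _) hVL
  have h1 := Mc_le (B₀ := B₀) hΛ hV0
  have h2 := Mc_pos (B₀ := B₀) hΛ hV0
  have h3 : 1 / (V * V) ≤ Real.exp (4 * Λ) := by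
    have h4 : Real.exp (-(4 * Λ)) ≤ V * V := by
      calc Real.exp (-(4 * Λ)) = Real.exp (-(2 * Λ)) * Real.exp (-(2 * Λ)) := by
            rw [← Real.exp_add]; congr 1; ring
        _ ≤ V * V := mul_le_mul hVL hVL (Real.exp_pos _).le hV0.le
    rw [div_le_iff₀ (by positivity)]
    calc (1 : ℝ) = Real.exp (4 * Λ) * Real.exp (-(4 * Λ)) := by rw [← Real.exp_add]; simp
      _ ≤ _ := by gcongr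
  calc Real.log (Mc Λ V B₀) ≤ Real.log (Real.exp (4 * Λ)) := Real.log_le_log h2 (h1.trans h3)
    _ = 4 * Λ := Real.log_exp _
    _ ≤ _ := by linarith

theorem dv_one : dv 1 = 1 := by
  unfold P004.dv
  simp

variable [Crv]

/-- the small `j` -/
theorem small_part {C₂ : ℝ} (hC₂ : 0 < C₂) {A₂ : ℕ}
    (hG : ∀ θ : ℝ, 0 < θ → θ ≤ 1 / 8 →
    ∀ (H V₁ V₂ : ℝ) (R j k₁ k₂ : ℕ) (ε : ℤ), ε.natAbs = 1 → 0 < H → 0 < V₁ → 0 < V₂ → 0 < R →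
    0 < j → Squarefree k₁ → 0 < k₂ →
    ∫⁻ u₁ in Ioi V₁, ∫⁻ u₂ in Ioi V₂,
      ENNReal.ofReal |AG H R j (ε * ((k₁ * k₂ ^ 2 : ℕ) : ℤ)) u₁ u₂| ≤
      ENNReal.ofReal (C₂ * (1 / θ) ^ A₂ * dv R ^ A₂ * dv k₂ ^ A₂ * (j * H) ^ (-1 / 2 + θ) *
        (V₁ * V₂) ^ (-θ)) * (Jm k₁ + 1))
    {C₄ : ℝ} {B : ℕ} (hJ : ∀ L H M : ℝ, 1 ≤ L → 1 ≤ H → 0 < M →
      Real.log M ≤ 1000 * L → ∀ (W : ℕ → ℝ≥0∞) (D : ℝ≥0∞),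
    (∀ j₁ j₂ : ℕ, Squarefree j₁ → 0 < j₂ → W (j₁ * j₂ ^ 2) ≤ D * ENNReal.ofReal (dv j₂ ^ A₂ *
      (((j₁ * j₂ ^ 2 : ℕ) : ℝ) * H) ^ (-1 / 2 + 1 / (8 * L))) * (Jm j₁ + 1)) →
    ∑ j ∈ Finset.Icc 1 ⌊M / H⌋₊, W j ≤ D * ENNReal.ofReal (C₄ * L ^ B * √M / H))
    {H V Λ : ℝ} (hΛ : 1 ≤ Λ) (hH : 1 ≤ H) (hVL : Real.exp (-(2 * Λ)) ≤ V) :
    ∑ j ∈ Finset.Ico 1 (Xc Λ V H (A₂ + B)), Far.WW H V 1 j ≤
      ENNReal.ofReal (4 * C₂ * 8 ^ A₂ * C₄ / (V * H)) := by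
  have hΛ0 : 0 < Λ := by linarith
  have hV0 : 0 < V := lt_of_lt_of_le (Real.exp_pos _) hVL
  have hH0 : 0 < H := by linarith
  have h := main_sum' hC₂ hG hJ (q := 1) hΛ hH (Mc_pos (B₀ := A₂ + B) hΛ hV0) (log_Mc hΛ hVL)
    hVL one_pos
  have e : Finset.Ico 1 (Xc Λ V H (A₂ + B)) = Finset.Icc 1 ⌊Mc Λ V (A₂ + B) / H⌋₊ := by
    ext x
    unfold Xc
    simp only [Finset.mem_Ico, Finset.mem_Icc]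
    omega
  rw [e]
  refine h.trans (le_of_eq ?_)
  rw [dv_one, one_pow, mul_one, ← ENNReal.ofReal_mul (by positivity), sqrt_Mc hΛ hV0]
  congr 1
  rw [mul_pow, pow_add]
  field_simp

omit [Crv] in
theorem real_blk {Λ u H X α ε ε₁ δ C E : ℝ} {A A₁ B₀ : ℕ} (hΛ : 1 ≤ Λ) (hu : 0 < u) (hH : 0 < H)
    (hX : 0 < X) (hα : 0 ≤ α) (hC : 1 ≤ C) (hδ0 : 0 < δ) (hδ1 : δ ≤ ε₁) (hε₁ : ε₁ ≤ 1 / 2)
    (hε : ε₁ * (2 * A₁ + 1) ≤ ε) (hE : 0 ≤ E) (hM : Mc Λ (u / 2) B₀ / H < X) :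
    C / (H * u) * ((Λ ^ δ) ^ A₁ * (Λ ^ ε₁ * (1 + Λ ^ α) * (Λ ^ δ) ^ A₁ + Λ +
        Λ ^ ε₁ * Λ ^ A * E / (X * (u / 2))) + 1) ≤
      2 * C * (Λ ^ ε * (Λ + Λ ^ α) / (H * u) + Λ ^ (A₁ + 1 + A + 2 * B₀) * E) := by
  have hΛ0 : 0 < Λ := by linarith
  have hε₁0 : 0 < ε₁ := hδ0.trans_le hδ1
  have hε0 : 0 ≤ ε := by
    have : 0 ≤ ε₁ * (2 * A₁ + 1) := by positivity
    linarith
  have hP1 : 1 ≤ Λ ^ ε := Real.one_le_rpow hΛ hε0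
  have ha1 : 1 ≤ Λ ^ α := Real.one_le_rpow hΛ hα
  have hl1 : 1 ≤ Λ ^ δ := Real.one_le_rpow hΛ hδ0.le
  have f0 : (Λ ^ δ) ^ A₁ ≤ Λ ^ (ε₁ * A₁) := by
    rw [← Real.rpow_natCast (Λ ^ δ), ← Real.rpow_mul hΛ0.le]
    apply Real.rpow_le_rpow_of_exponent_le hΛ
    gcongr
  have f1 : (Λ ^ δ) ^ A₁ * (Λ ^ ε₁ * (Λ ^ δ) ^ A₁) ≤ Λ ^ ε := by
    calc (Λ ^ δ) ^ A₁ * (Λ ^ ε₁ * (Λ ^ δ) ^ A₁) ≤ Λ ^ (ε₁ * A₁) * (Λ ^ ε₁ * Λ ^ (ε₁ * A₁)) := by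
          gcongr
      _ = Λ ^ (ε₁ * (2 * A₁ + 1)) := by
          rw [← Real.rpow_add hΛ0, ← Real.rpow_add hΛ0]
          congr 1; ring
      _ ≤ _ := Real.rpow_le_rpow_of_exponent_le hΛ hε
  have f2 : (Λ ^ δ) ^ A₁ ≤ Λ ^ ε := by
    refine le_trans ?_ f1
    have g1 : 1 ≤ Λ ^ ε₁ := Real.one_le_rpow hΛ hε₁0.le
    have g2 : 1 ≤ (Λ ^ δ) ^ A₁ := one_le_pow₀ hl1
    have g3 : 1 ≤ Λ ^ ε₁ * (Λ ^ δ) ^ A₁ := by nlinarith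
    exact le_mul_of_one_le_right (by positivity) g3
  have f4 : (Λ ^ δ) ^ A₁ ≤ Λ ^ A₁ := by
    gcongr
    calc Λ ^ δ ≤ Λ ^ (1 : ℝ) := Real.rpow_le_rpow_of_exponent_le hΛ (by linarith)
      _ = Λ := Real.rpow_one _
  have f5 : Λ ^ ε₁ ≤ Λ := by
    calc Λ ^ ε₁ ≤ Λ ^ (1 : ℝ) := Real.rpow_le_rpow_of_exponent_le hΛ (by linarith)
      _ = Λ := Real.rpow_one _
  have f6 : 1 / (X * (u / 2)) ≤ H * (u / 2) * (Λ ^ B₀) ^ 2 := by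
    have g1 : 1 < X * H * ((u / 2) * (u / 2) * (Λ ^ B₀) ^ 2) := by
      rw [div_lt_iff₀ hH] at hM
      unfold Mc at hM
      rwa [div_lt_iff₀ (by positivity)] at hM
    rw [div_le_iff₀ (by positivity)]
    calc (1 : ℝ) ≤ X * H * ((u / 2) * (u / 2) * (Λ ^ B₀) ^ 2) := g1.le
      _ = _ := by ring
  have e1 : C / (H * u) * ((Λ ^ δ) ^ A₁ * (Λ ^ ε₁ * (1 + Λ ^ α) * (Λ ^ δ) ^ A₁ + Λ +
        Λ ^ ε₁ * Λ ^ A * E / (X * (u / 2))) + 1) =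
      C / (H * u) * (((Λ ^ δ) ^ A₁ * (Λ ^ ε₁ * (Λ ^ δ) ^ A₁)) * (1 + Λ ^ α) +
        (Λ ^ δ) ^ A₁ * Λ + 1) +
      C / (H * u) * ((Λ ^ δ) ^ A₁ * Λ ^ ε₁ * Λ ^ A * E * (1 / (X * (u / 2)))) := by
    ring
  have p1 : ((Λ ^ δ) ^ A₁ * (Λ ^ ε₁ * (Λ ^ δ) ^ A₁)) * (1 + Λ ^ α) + (Λ ^ δ) ^ A₁ * Λ + 1 ≤
      2 * (Λ ^ ε * (Λ + Λ ^ α)) := by
    calc ((Λ ^ δ) ^ A₁ * (Λ ^ ε₁ * (Λ ^ δ) ^ A₁)) * (1 + Λ ^ α) + (Λ ^ δ) ^ A₁ * Λ + 1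
        ≤ Λ ^ ε * (1 + Λ ^ α) + Λ ^ ε * Λ + Λ ^ ε := by gcongr
      _ = Λ ^ ε * (1 + Λ ^ α + Λ + 1) := by ring
      _ ≤ Λ ^ ε * (2 * (Λ + Λ ^ α)) := by gcongr; linarith
      _ = _ := by ring
  have p2 : (Λ ^ δ) ^ A₁ * Λ ^ ε₁ * Λ ^ A * E * (1 / (X * (u / 2))) ≤
      (H * u) * (2 * (Λ ^ (A₁ + 1 + A + 2 * B₀) * E)) := by
    calc (Λ ^ δ) ^ A₁ * Λ ^ ε₁ * Λ ^ A * E * (1 / (X * (u / 2)))
        ≤ Λ ^ A₁ * Λ * Λ ^ A * E * (H * (u / 2) * (Λ ^ B₀) ^ 2) := by gcongr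
      _ = (H * u) * (1 / 2 * (Λ ^ (A₁ + 1 + A + 2 * B₀) * E)) := by ring
      _ ≤ _ := by
          gcongr
          norm_num
  rw [e1]
  calc C / (H * u) * (((Λ ^ δ) ^ A₁ * (Λ ^ ε₁ * (Λ ^ δ) ^ A₁)) * (1 + Λ ^ α) +
        (Λ ^ δ) ^ A₁ * Λ + 1) +
      C / (H * u) * ((Λ ^ δ) ^ A₁ * Λ ^ ε₁ * Λ ^ A * E * (1 / (X * (u / 2))))
      ≤ C / (H * u) * (2 * (Λ ^ ε * (Λ + Λ ^ α))) +
        C / (H * u) * ((H * u) * (2 * (Λ ^ (A₁ + 1 + A + 2 * B₀) * E))) := by gcongr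
    _ = _ := by field_simp

/-- one block, simplified -/
theorem block' {n : ℕ} {α : ℝ} (hSep : StAdSep) (hAP : StAP) (hST : StST) (hTq : StTq)
    (hFar : StFar) (hLev : StLev n α) (h0 : StN0) (hG : StGsum) (hFull : StFull) (hα : 0 ≤ α)
    (B₀ : ℕ) {ε : ℝ} (hε : 0 < ε) : ∃ δ : ℝ, 0 < δ ∧ ∃ K : ℕ, ∃ C : ℝ, 1 ≤ C ∧
    ∀ (Λ u : ℝ) (H X : ℕ) (σ : ℤ) (k : ℝ → ℝ), 9 ≤ Λ → 1 ≤ H → σ.natAbs = 1 → 1 ≤ X →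
    Mc Λ (u / 2) B₀ / H < X →
    Real.log (2 * X) ≤ Λ / 9 → Real.exp (-(Λ / 9)) ≤ u → Kn (n + 4) k →
    ∑ j ∈ Finset.Ico X (2 * X), ENNReal.ofReal |Ad H 1 (σ * j) u k| ≤
      ENNReal.ofReal (C * (Λ ^ ε * (Λ + Λ ^ α) / (H * u) + Λ ^ K * Real.exp (-Λ ^ δ / 2))) := by
  obtain ⟨A, A₁, hb⟩ := block hSep hAP hST hTq hFar hLev h0 hG hFull
  have hA₁ : (0 : ℝ) < 2 * A₁ + 1 := by positivity
  obtain ⟨δ, hδ0, hδ1, C, hC, hb⟩ := hb (min (1 / 2) (ε / (2 * A₁ + 1))) (by positivity)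
    (min_le_left _ _)
  refine ⟨δ, hδ0, A₁ + 1 + A + 2 * B₀, 2 * C, by linarith, ?_⟩
  intro Λ u H X σ k hΛ hH hσ hX hM hlog hu hk
  refine (hb Λ u H X σ k hΛ hH hσ hX hlog hu hk).trans (ENNReal.ofReal_le_ofReal ?_)
  have hu0 : 0 < u := lt_of_lt_of_le (Real.exp_pos _) hu
  exact real_blk (by linarith) hu0 (by exact_mod_cast hH) (by exact_mod_cast hX) hα hC hδ0 hδ1
    (min_le_left _ _) (by
      calc min (1 / 2) (ε / (2 * A₁ + 1)) * (2 * A₁ + 1) ≤ ε / (2 * A₁ + 1) * (2 * A₁ + 1) := by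
            gcongr
            exact min_le_right _ _
        _ = ε := by field_simp) (Real.exp_pos _).le hM

/-- all blocks -/
theorem blocks {n : ℕ} {α : ℝ} (hSep : StAdSep) (hAP : StAP) (hST : StST) (hTq : StTq)
    (hFar : StFar) (hLev : StLev n α) (h0 : StN0) (hG : StGsum) (hFull : StFull) (hα : 0 ≤ α)
    (B₀ : ℕ) {ε : ℝ} (hε : 0 < ε) : ∃ δ : ℝ, 0 < δ ∧ ∃ K : ℕ, ∃ C : ℝ, 1 ≤ C ∧
    ∀ (Λ u : ℝ) (H I : ℕ) (k : ℝ → ℝ), 9 ≤ Λ → 1 ≤ H →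
    (∀ i < I, Real.log (2 * ((2 ^ i * Xc Λ (u / 2) H B₀ : ℕ) : ℝ)) ≤ Λ / 9) →
    Real.exp (-(Λ / 9)) ≤ u → Kn (n + 4) k →
    ∑ j ∈ Finset.Ico (Xc Λ (u / 2) H B₀) (2 ^ I * Xc Λ (u / 2) H B₀),
      (ENNReal.ofReal |Ad H 1 (1 * j) u k| + ENNReal.ofReal |Ad H 1 (-1 * j) u k|) ≤
      ENNReal.ofReal (I * (C * (Λ ^ ε * (Λ + Λ ^ α) / (H * u) +
        Λ ^ K * Real.exp (-Λ ^ δ / 2)))) := by
  obtain ⟨δ, hδ0, K, C, hC, hb⟩ := block' hSep hAP hST hTq hFar hLev h0 hG hFull hα B₀ hε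
  refine ⟨δ, hδ0, K, 2 * C, by linarith, ?_⟩
  intro Λ u H I k hΛ hH hI hu hk
  rw [sum_blocks]
  have hX1 : 1 ≤ Xc Λ (u / 2) H B₀ := by unfold Xc; omega
  have hu0 : 0 < u := lt_of_lt_of_le (Real.exp_pos _) hu
  have hH0 : (0 : ℝ) < H := by exact_mod_cast hH
  set R : ℝ := Λ ^ ε * (Λ + Λ ^ α) / (H * u) + Λ ^ K * Real.exp (-Λ ^ δ / 2) with hR
  have hΛ0 : 0 < Λ := by linarith
  have hR0 : 0 ≤ R := by positivity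
  have key : ∀ i ∈ Finset.range I, ∑ j ∈ Finset.Ico (2 ^ i * Xc Λ (u / 2) H B₀)
      (2 * (2 ^ i * Xc Λ (u / 2) H B₀)),
      (ENNReal.ofReal |Ad H 1 (1 * j) u k| + ENNReal.ofReal |Ad H 1 (-1 * j) u k|) ≤
      ENNReal.ofReal (2 * C * R) := by
    intro i hi
    rw [Finset.mem_range] at hi
    have hX2 : Xc Λ (u / 2) H B₀ ≤ 2 ^ i * Xc Λ (u / 2) H B₀ :=
      Nat.le_mul_of_pos_left _ (by positivity)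
    have hM : Mc Λ (u / 2) B₀ / H < ((2 ^ i * Xc Λ (u / 2) H B₀ : ℕ) : ℝ) :=
      (Xc_gt Λ (u / 2) H B₀).trans_le (by exact_mod_cast hX2)
    rw [Finset.sum_add_distrib]
    have t1 := hb Λ u H (2 ^ i * Xc Λ (u / 2) H B₀) 1 k hΛ hH (by norm_num) (hX1.trans hX2) hM
      (hI i hi) hu hk
    have t2 := hb Λ u H (2 ^ i * Xc Λ (u / 2) H B₀) (-1) k hΛ hH (by norm_num) (hX1.trans hX2) hM
      (hI i hi) hu hk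
    refine (add_le_add t1 t2).trans (le_of_eq ?_)
    rw [← ENNReal.ofReal_add (by positivity) (by positivity)]
    congr 1
    rw [hR]
    ring
  refine (Finset.sum_le_sum key).trans (le_of_eq ?_)
  rw [Finset.sum_const, Finset.card_range, nsmul_eq_mul, ENNReal.ofReal_mul (p := (I : ℝ))
    (by positivity)]
  norm_num

end Dual

end P004E
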