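import Vale.Agent.P004E.SDefs
import Vale.Agent.P004.B

/-!
# P004E, module S : arithmetic for the removal of large `g` (`StGsum`)
-/

open Real MeasureTheory Set Filter
open scoped ENNReal Topology

namespace P004E

namespace Gsum

open P004G

/-- `∑_{d ∣ j} d^{-s}` -/
noncomputable def sg (s : ℝ) (j : ℕ) : ℝ := ∑ d ∈ j.divisors, (d : ℝ) ^ (-s)

/-- `∑_{p ∣ j} p^{-s}` -/
noncomputable def pg (s : ℝ) (j : ℕ) : ℝ := ∑ p ∈ j.primeFactors, (p : ℝ) ^ (-s)

theorem sg_nonneg (s : ℝ) (j : ℕ) : 0 ≤ sg s j := by unfold sg; positivity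

theorem pg_nonneg (s : ℝ) (j : ℕ) : 0 ≤ pg s j := by unfold pg; positivity

theorem sg_mul (s : ℝ) (a b : ℕ) : sg s (a * b) ≤ sg s a * sg s b := by
  unfold sg
  rw [Nat.divisors_mul, Finset.mul_def, Finset.sum_mul_sum, ← Finset.sum_product']
  refine (Finset.sum_image_le_of_nonneg (fun u _ => by positivity)).trans ?_
  apply Finset.sum_le_sum
  intro p _
  push_cast
  rw [Real.mul_rpow (by positivity) (by positivity)]

theorem one_div_le_exp {x : ℝ} (h0 : 0 ≤ x) (h1 : x ≤ 3 / 4) : (1 - x)⁻¹ ≤ Real.exp (4 * x) := by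
  have h2 : (1 - x)⁻¹ ≤ 1 + 4 * x := by
    rw [inv_le_iff_one_le_mul₀ (by linarith)]
    nlinarith
  linarith [Real.add_one_le_exp (4 * x)]

theorem rpow_small {s : ℝ} (hs : 1 / 2 ≤ s) {p : ℕ} (hp : 2 ≤ p) : (p : ℝ) ^ (-s) ≤ 3 / 4 := by
  have h2 : (2 : ℝ) ≤ p := by exact_mod_cast hp
  have h3 : (p : ℝ) ^ (-s) ≤ (p : ℝ) ^ (-(1 / 2 : ℝ)) :=
    Real.rpow_le_rpow_of_exponent_le (by linarith) (by linarith)
  have h4 : (p : ℝ) ^ (-(1 / 2 : ℝ)) ≤ (2 : ℝ) ^ (-(1 / 2 : ℝ)) :=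
    Real.rpow_le_rpow_of_nonpos (by norm_num) h2 (by norm_num)
  have h5 : (2 : ℝ) ^ (-(1 / 2 : ℝ)) ≤ 3 / 4 := by
    rw [Real.rpow_neg (by norm_num), ← Real.sqrt_eq_rpow, inv_le_comm₀ (by positivity) (by norm_num)]
    apply Real.le_sqrt_of_sq_le
    norm_num
  linarith

theorem sg_prime_pow {s : ℝ} (hs : 1 / 2 ≤ s) {p : ℕ} (hp : p.Prime) (n : ℕ) :
    sg s (p ^ n) ≤ Real.exp (4 * (p : ℝ) ^ (-s)) := by
  have h0 : 0 ≤ (p : ℝ) ^ (-s) := by positivity
  have h1 := rpow_small hs hp.two_le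
  refine le_trans ?_ (one_div_le_exp h0 h1)
  unfold sg
  rw [Nat.sum_divisors_prime_pow hp]
  have e : ∀ i ∈ Finset.range (n + 1), ((p ^ i : ℕ) : ℝ) ^ (-s) = ((p : ℝ) ^ (-s)) ^ i := by
    intro i _
    push_cast
    rw [← Real.rpow_natCast, ← Real.rpow_natCast, ← Real.rpow_mul (by positivity),
      ← Real.rpow_mul (by positivity), mul_comm]
  rw [Finset.sum_congr rfl e]
  exact (Summable.sum_le_tsum _ (fun i _ => by positivity)
    (summable_geometric_of_lt_one h0 (by linarith))).trans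
    (tsum_geometric_of_lt_one h0 (by linarith)).le

theorem sg_le {s : ℝ} (hs : 1 / 2 ≤ s) (j : ℕ) : sg s j ≤ Real.exp (4 * pg s j) := by
  induction j using Nat.recOnPosPrimePosCoprime with
  | prime_pow p n hp hn =>
    have : pg s (p ^ n) = (p : ℝ) ^ (-s) := by
      unfold pg
      rw [Nat.primeFactors_prime_pow hn.ne' hp]
      simp
    rw [this]
    exact sg_prime_pow hs hp n
  | zero => simp [sg, pg]
  | one => simp [sg, pg]
  | coprime a b ha hb hab iha ihb =>
    have : pg s (a * b) = pg s a + pg s b := by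
      unfold pg
      rw [hab.primeFactors_mul, Finset.sum_union hab.disjoint_primeFactors]
    rw [this, mul_add, Real.exp_add]
    exact (sg_mul s a b).trans (mul_le_mul iha ihb (sg_nonneg _ _) (by positivity))

/-- the same with weights `dv^K` -/
theorem sg_dv {s : ℝ} (hs : 1 / 2 ≤ s) (j : ℕ) (K : ℕ) :
    ∑ d ∈ j.divisors, dv d ^ K * (d : ℝ) ^ (-s) ≤ Real.exp (2 ^ K * (4 * pg s j)) := by
  rcases Nat.eq_zero_or_pos j with rfl | hj
  · simp only [Nat.divisors_zero, Finset.sum_empty]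
    positivity
  induction K with
  | zero => simpa [sg] using sg_le hs j
  | succ K ih =>
    have h1 : ∑ d ∈ j.divisors, dv d ^ (K + 1) * (d : ℝ) ^ (-s) ≤
        (∑ d ∈ j.divisors, dv d ^ K * (d : ℝ) ^ (-s)) *
          (∑ d ∈ j.divisors, dv d ^ K * (d : ℝ) ^ (-s)) := by
      rw [Finset.sum_mul_sum, ← Finset.sum_product']
      have h2 : ∀ d ∈ j.divisors, dv d ^ (K + 1) * (d : ℝ) ^ (-s) ≤
          ∑ q ∈ (j.divisors ×ˢ j.divisors).filter (fun q => q.1 * q.2 = d),
            (dv q.1 ^ K * (q.1 : ℝ) ^ (-s)) * (dv q.2 ^ K * (q.2 : ℝ) ^ (-s)) := by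
        intro d hd
        have hsub : d.divisorsAntidiagonal ⊆
            (j.divisors ×ˢ j.divisors).filter (fun q => q.1 * q.2 = d) := by
          intro q hq
          rw [Nat.mem_divisorsAntidiagonal] at hq
          rw [Finset.mem_filter, Finset.mem_product, Nat.mem_divisors, Nat.mem_divisors]
          have hdj := Nat.dvd_of_mem_divisors hd
          exact ⟨⟨⟨(Dvd.intro _ hq.1).trans hdj, hj.ne'⟩,
            ⟨(Dvd.intro_left _ hq.1).trans hdj, hj.ne'⟩⟩, hq.1⟩
        refine le_trans ?_ (Finset.sum_le_sum_of_subset_of_nonneg hsub (fun q _ _ => by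
          have := P004.B.dv_nonneg q.1
          have := P004.B.dv_nonneg q.2
          positivity))
        have hcard : (d.divisorsAntidiagonal.card : ℝ) = dv d := by
          unfold P004.dv
          rw [← Nat.map_div_right_divisors, Finset.card_map]
        calc dv d ^ (K + 1) * (d : ℝ) ^ (-s)
            = ∑ q ∈ d.divisorsAntidiagonal, dv d ^ K * (d : ℝ) ^ (-s) := by
              rw [Finset.sum_const, nsmul_eq_mul, hcard]; ring
          _ ≤ _ := by
              apply Finset.sum_le_sum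
              intro q hq
              have hqd := (Nat.mem_divisorsAntidiagonal.1 hq).1
              have h3 : (d : ℝ) ^ (-s) = (q.1 : ℝ) ^ (-s) * (q.2 : ℝ) ^ (-s) := by
                rw [← hqd]; push_cast
                rw [Real.mul_rpow (by positivity) (by positivity)]
              have h4 : dv d ^ K ≤ dv q.1 ^ K * dv q.2 ^ K := by
                rw [← mul_pow, ← hqd]
                exact pow_le_pow_left₀ (P004.B.dv_nonneg _) (P004.B.dv_mul_le _ _) _
              rw [h3]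
              calc dv d ^ K * ((q.1 : ℝ) ^ (-s) * (q.2 : ℝ) ^ (-s))
                  ≤ (dv q.1 ^ K * dv q.2 ^ K) * ((q.1 : ℝ) ^ (-s) * (q.2 : ℝ) ^ (-s)) := by
                    apply mul_le_mul_of_nonneg_right h4 (by positivity)
                _ = _ := by ring
      refine (Finset.sum_le_sum h2).trans ?_
      apply Finset.sum_fiberwise_le_sum_of_sum_fiber_nonneg
      intro y _
      apply Finset.sum_nonneg
      intro q _
      have := P004.B.dv_nonneg q.1
      have := P004.B.dv_nonneg q.2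
      positivity
    refine h1.trans ?_
    have h0 : 0 ≤ ∑ d ∈ j.divisors, dv d ^ K * (d : ℝ) ^ (-s) := by
      apply Finset.sum_nonneg
      intro d _
      have := P004.B.dv_nonneg d
      positivity
    calc _ ≤ Real.exp (2 ^ K * (4 * pg s j)) * Real.exp (2 ^ K * (4 * pg s j)) :=
          mul_le_mul ih ih h0 (by positivity)
      _ = _ := by rw [← Real.exp_add]; congr 1; ring

/-- `∑_{n ≤ M} n^{η - 1} ≤ M^η / η` -/
theorem sum_pow {η : ℝ} (h0 : 0 < η) (h1 : η ≤ 1) (M : ℕ) :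
    ∑ n ∈ Finset.Icc 1 M, (n : ℝ) ^ (η - 1) ≤ (M : ℝ) ^ η / η := by
  induction M with
  | zero => simp [Real.zero_rpow h0.ne']
  | succ M ih =>
    rw [Finset.sum_Icc_succ_top (by omega)]
    have hN : (0 : ℝ) < ((M + 1 : ℕ) : ℝ) := by positivity
    set N : ℝ := ((M + 1 : ℕ) : ℝ) with hNdef
    have hM : (M : ℝ) = N * (1 - 1 / N) := by
      rw [hNdef]; push_cast; field_simp; ring
    have h1N : 1 / N ≤ 1 := by
      rw [div_le_one hN, hNdef]; push_cast; linarith [Nat.cast_nonneg (α := ℝ) M]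
    have hb : (1 - 1 / N) ^ η ≤ 1 - η * (1 / N) := by
      have := rpow_one_add_le_one_add_mul_self (s := -(1 / N)) (by linarith) h0.le h1
      have e1 : (1 + -(1 / N)) = 1 - 1 / N := by ring
      have e2 : 1 + η * -(1 / N) = 1 - η * (1 / N) := by ring
      rwa [e1, e2] at this
    have hNη : 0 < N ^ η := Real.rpow_pos_of_pos hN _
    have h2 : (M : ℝ) ^ η ≤ N ^ η * (1 - η * (1 / N)) := by
      rw [hM, Real.mul_rpow hN.le (by linarith)]
      exact mul_le_mul_of_nonneg_left hb hNη.le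
    have h3 : N ^ (η - 1) = N ^ η * (1 / N) := by
      rw [Real.rpow_sub hN, Real.rpow_one]; ring
    have h4 : (M : ℝ) ^ η / η ≤ N ^ η / η - N ^ η * (1 / N) := by
      rw [div_le_iff₀ h0]
      have : (N ^ η / η - N ^ η * (1 / N)) * η = N ^ η * (1 - η * (1 / N)) := by
        field_simp
      rw [this]
      exact h2
    rw [h3]
    linarith

theorem card_primeFactors {j : ℕ} (hj : 0 < j) :
    (j.primeFactors.card : ℝ) ≤ 2 * Real.log j := by
  have h1 : 2 ^ j.primeFactors.card ≤ j := by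
    calc 2 ^ j.primeFactors.card ≤ ∏ p ∈ j.primeFactors, p := by
          apply Finset.pow_card_le_prod
          intro p hp
          exact (Nat.prime_of_mem_primeFactors hp).two_le
      _ ≤ j := Nat.le_of_dvd hj (Nat.prod_primeFactors_dvd j)
  have h2 : (2 : ℝ) ^ j.primeFactors.card ≤ j := by exact_mod_cast h1
  have h3 := Real.log_le_log (by positivity) h2
  rw [Real.log_pow] at h3
  have h4 : (1 / 2 : ℝ) ≤ Real.log 2 := by linarith [Real.log_two_gt_d9]
  have h5 : (0 : ℝ) ≤ j.primeFactors.card := by positivity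
  nlinarith

theorem pg_le {η : ℝ} (h0 : 0 < η) (h1 : η ≤ 1) {L : ℝ} (hL : 1 ≤ L) {j : ℕ} (hj : 0 < j)
    (hjL : Real.log j ≤ L) : pg (1 - η) j ≤ (1 / η + 1) * 3 * L ^ η := by
  set M : ℕ := ⌈2 * L⌉₊ with hM
  have hM1 : 2 * L ≤ M := Nat.le_ceil _
  have hM2 : (M : ℝ) ≤ 3 * L := by
    have := (Nat.ceil_lt_add_one (a := 2 * L) (by linarith)).le
    rw [← hM] at this
    linarith
  have hMpos : (0 : ℝ) < M := by linarith
  have e : -(1 - η) = η - 1 := by ring
  unfold pg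
  rw [e, ← Finset.sum_filter_add_sum_filter_not j.primeFactors (fun p => p ≤ M)]
  have a1 : ∑ p ∈ j.primeFactors.filter (fun p => p ≤ M), (p : ℝ) ^ (η - 1) ≤ (M : ℝ) ^ η / η := by
    refine le_trans (Finset.sum_le_sum_of_subset_of_nonneg ?_ (fun _ _ _ => by positivity))
      (sum_pow h0 h1 M)
    intro p hp
    rw [Finset.mem_filter] at hp
    rw [Finset.mem_Icc]
    exact ⟨(Nat.prime_of_mem_primeFactors hp.1).one_le, hp.2⟩
  have a2 : ∑ p ∈ j.primeFactors.filter (fun p => ¬ p ≤ M), (p : ℝ) ^ (η - 1) ≤ (M : ℝ) ^ η := by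
    have b1 : ∀ p ∈ j.primeFactors.filter (fun p => ¬ p ≤ M),
        (p : ℝ) ^ (η - 1) ≤ (M : ℝ) ^ (η - 1) := by
      intro p hp
      rw [Finset.mem_filter] at hp
      apply Real.rpow_le_rpow_of_nonpos hMpos _ (by linarith)
      have := hp.2
      push Not at this
      exact_mod_cast this.le
    refine (Finset.sum_le_sum b1).trans ?_
    rw [Finset.sum_const, nsmul_eq_mul]
    have b2 : ((j.primeFactors.filter (fun p => ¬ p ≤ M)).card : ℝ) ≤ M := by
      have c1 : ((j.primeFactors.filter (fun p => ¬ p ≤ M)).card : ℝ) ≤ j.primeFactors.card := by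
        exact_mod_cast Finset.card_filter_le _ _
      have c2 := card_primeFactors hj
      linarith
    calc _ ≤ (M : ℝ) * (M : ℝ) ^ (η - 1) := mul_le_mul_of_nonneg_right b2 (by positivity)
      _ = (M : ℝ) ^ η := by
        rw [Real.rpow_sub hMpos, Real.rpow_one]; field_simp
  have a3 : (M : ℝ) ^ η ≤ 3 * L ^ η := by
    calc (M : ℝ) ^ η ≤ (3 * L) ^ η := Real.rpow_le_rpow hMpos.le hM2 h0.le
      _ = (3 : ℝ) ^ η * L ^ η := Real.mul_rpow (by norm_num) (by linarith)
      _ ≤ 3 * L ^ η := by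
        apply mul_le_mul_of_nonneg_right _ (by positivity)
        calc (3 : ℝ) ^ η ≤ (3 : ℝ) ^ (1 : ℝ) :=
              Real.rpow_le_rpow_of_exponent_le (by norm_num) h1
          _ = 3 := Real.rpow_one _
  calc _ ≤ (M : ℝ) ^ η / η + (M : ℝ) ^ η := add_le_add a1 a2
    _ = (1 / η + 1) * (M : ℝ) ^ η := by ring
    _ ≤ (1 / η + 1) * (3 * L ^ η) := mul_le_mul_of_nonneg_left a3 (by positivity)
    _ = _ := by ring

/-- the interchange of summation -/
theorem swap (K : ℕ) {η : ℝ} (h0 : 0 < η) (h1 : η ≤ 1 / 2) {j : ℕ} (hj : 0 < j) :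
    ∑' g : ℕ, ENNReal.ofReal (dv g ^ K * (g : ℝ) ^ (η - 2) *
      ∑ d ∈ g.divisors.filter (· ∣ j), (d : ℝ)) ≤
    ENNReal.ofReal (∑ d ∈ j.divisors, dv d ^ K * (d : ℝ) ^ (-(1 - η))) *
      ∑' n : ℕ, ENNReal.ofReal (dv n ^ K * (n : ℝ) ^ (-1 - (1 / 2 : ℝ))) := by
  set f : ℕ → ℝ≥0∞ := fun d => if d ∣ j then
    ENNReal.ofReal (dv d ^ K * (d : ℝ) ^ (-(1 - η))) else 0 with hf
  set g' : ℕ → ℝ≥0∞ := fun n => ENNReal.ofReal (dv n ^ K * (n : ℝ) ^ (-1 - (1 / 2 : ℝ))) with hg'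
  have e1 : ENNReal.ofReal (∑ d ∈ j.divisors, dv d ^ K * (d : ℝ) ^ (-(1 - η))) = ∑' d, f d := by
    rw [ENNReal.ofReal_sum_of_nonneg (fun d _ => by
      have := P004.B.dv_nonneg d
      positivity)]
    rw [tsum_eq_sum (s := j.divisors)]
    · apply Finset.sum_congr rfl
      intro d hd
      rw [hf]
      simp only
      rw [if_pos (Nat.dvd_of_mem_divisors hd)]
    · intro d hd
      rw [hf]
      simp only
      rw [if_neg]
      intro h
      exact hd (Nat.mem_divisors.2 ⟨h, hj.ne'⟩)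
  rw [e1]
  refine le_trans ?_ (P004.B.tsum_divisors_mul f g')
  apply ENNReal.tsum_le_tsum
  intro g
  rcases Nat.eq_zero_or_pos g with rfl | hg
  · simp
  rw [Finset.mul_sum, ENNReal.ofReal_sum_of_nonneg (fun d _ => by
      have := P004.B.dv_nonneg g
      positivity), Finset.sum_filter]
  rw [← Nat.map_div_right_divisors, Finset.sum_map]
  apply Finset.sum_le_sum
  intro d hd
  have hdg := Nat.dvd_of_mem_divisors hd
  change _ ≤ f d * g' (g / d)
  by_cases hdj : d ∣ j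
  · rw [if_pos hdj]
    obtain ⟨n, rfl⟩ := hdg
    have hd0 : 0 < d := Nat.pos_of_ne_zero (fun h => by simp [h] at hg)
    have hn0 : 0 < n := Nat.pos_of_ne_zero (fun h => by simp [h] at hg)
    have e2 : d * n / d = n := Nat.mul_div_cancel_left n hd0
    rw [e2, hf, hg']
    simp only
    rw [if_pos hdj, ← ENNReal.ofReal_mul (by
      have := P004.B.dv_nonneg d
      positivity)]
    apply ENNReal.ofReal_le_ofReal
    have hd1 : (0 : ℝ) < d := by exact_mod_cast hd0
    have hn1 : (1 : ℝ) ≤ n := by exact_mod_cast hn0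
    have h3 : dv (d * n) ^ K ≤ dv d ^ K * dv n ^ K := by
      rw [← mul_pow]
      exact pow_le_pow_left₀ (P004.B.dv_nonneg _) (P004.B.dv_mul_le _ _) _
    have h4 : ((d * n : ℕ) : ℝ) ^ (η - 2) * d ≤ (d : ℝ) ^ (-(1 - η)) * (n : ℝ) ^ (-1 - (1 / 2 : ℝ)) := by
      push_cast
      rw [Real.mul_rpow hd1.le (by linarith)]
      have h5 : (d : ℝ) ^ (η - 2) * d = (d : ℝ) ^ (-(1 - η)) := by
        rw [← Real.rpow_add_one hd1.ne']
        congr 1; ring
      calc (d : ℝ) ^ (η - 2) * (n : ℝ) ^ (η - 2) * d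
          = (d : ℝ) ^ (-(1 - η)) * (n : ℝ) ^ (η - 2) := by rw [← h5]; ring
        _ ≤ _ := by
          apply mul_le_mul_of_nonneg_left _ (by positivity)
          exact Real.rpow_le_rpow_of_exponent_le hn1 (by linarith)
    have h6 : 0 ≤ ((d * n : ℕ) : ℝ) ^ (η - 2) * d := by positivity
    calc dv (d * n) ^ K * ((d * n : ℕ) : ℝ) ^ (η - 2) * d
        = dv (d * n) ^ K * (((d * n : ℕ) : ℝ) ^ (η - 2) * d) := by ring
      _ ≤ (dv d ^ K * dv n ^ K) * ((d : ℝ) ^ (-(1 - η)) * (n : ℝ) ^ (-1 - (1 / 2 : ℝ))) :=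
          mul_le_mul h3 h4 h6 (by
            have := P004.B.dv_nonneg d
            have := P004.B.dv_nonneg n
            positivity)
      _ = _ := by ring
  · rw [if_neg hdj]
    exact bot_le

end Gsum

theorem pfGsum : StGsum := by
  intro B A δ hδ
  obtain ⟨C₁, hC₁, A₁, hdiv⟩ := P004.B.div1 B
  set η : ℝ := min δ 1 / 2 with hη
  have hm : 0 < min δ 1 := lt_min hδ one_pos
  have h0 : 0 < η := by rw [hη]; linarith
  have h1 : η ≤ 1 / 2 := by rw [hη]; linarith [min_le_right δ 1]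
  have h2 : 2 * η ≤ δ := by rw [hη]; linarith [min_le_left δ 1]
  set c₁ : ℝ := 2 ^ B * (4 * ((1 / η + 1) * 3)) with hc₁
  set c₂ : ℝ := c₁ + A / η with hc₂
  set K₁ : ℝ := C₁ * (1 / (1 / 2 : ℝ)) ^ A₁ with hK₁
  have hK₁0 : 0 < K₁ := by rw [hK₁]; positivity
  refine ⟨max 1 (Real.exp (c₂ ^ 2 / (4 * η)) * K₁), le_max_left _ _, ?_⟩
  intro L j hL hj hjL
  have hL0 : 0 < L := by linarith
  set G : ℝ := Real.exp (L ^ δ) with hG
  have hG0 : 0 < G := Real.exp_pos _
  -- Rankin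
  have r1 : ∀ g : ℕ, ENNReal.ofReal (if Real.exp (L ^ δ) < g then
      P004.dv g ^ B / g ^ 2 * ∑ d ∈ g.divisors.filter (· ∣ j), (d : ℝ) else 0) ≤
      ENNReal.ofReal (G ^ (-η)) * ENNReal.ofReal (P004.dv g ^ B * (g : ℝ) ^ (η - 2) *
        ∑ d ∈ g.divisors.filter (· ∣ j), (d : ℝ)) := by
    intro g
    rw [← ENNReal.ofReal_mul (by positivity)]
    apply ENNReal.ofReal_le_ofReal
    have hS : 0 ≤ ∑ d ∈ g.divisors.filter (· ∣ j), (d : ℝ) := by positivity
    have hdv := P004.B.dv_nonneg g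
    split_ifs with hg
    · have hg0 : (0 : ℝ) < g := hG0.trans hg
      have e1 : (1 : ℝ) ≤ G ^ (-η) * (g : ℝ) ^ η := by
        rw [Real.rpow_neg hG0.le, ← div_eq_inv_mul, one_le_div (by positivity)]
        exact Real.rpow_le_rpow hG0.le hg.le h0.le
      have e2 : (g : ℝ) ^ (η - 2) = (g : ℝ) ^ η / g ^ 2 := by
        rw [Real.rpow_sub hg0]
        norm_num
      rw [e2]
      calc P004.dv g ^ B / g ^ 2 * ∑ d ∈ g.divisors.filter (· ∣ j), (d : ℝ)
          = 1 * (P004.dv g ^ B / g ^ 2 * ∑ d ∈ g.divisors.filter (· ∣ j), (d : ℝ)) := by ring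
        _ ≤ (G ^ (-η) * (g : ℝ) ^ η) *
            (P004.dv g ^ B / g ^ 2 * ∑ d ∈ g.divisors.filter (· ∣ j), (d : ℝ)) :=
            mul_le_mul_of_nonneg_right e1 (by positivity)
        _ = _ := by ring
    · positivity
  refine (ENNReal.tsum_le_tsum r1).trans ?_
  rw [ENNReal.tsum_mul_left]
  have r2 := Gsum.swap B h0 h1 hj
  have r3 := hdiv (1 / 2) (by norm_num) (by norm_num)
  have r4 : ∑ d ∈ j.divisors, P004.dv d ^ B * (d : ℝ) ^ (-(1 - η)) ≤ Real.exp (c₁ * L ^ η) := by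
    refine (Gsum.sg_dv (by linarith) j B).trans ?_
    apply Real.exp_le_exp.2
    have := Gsum.pg_le h0 (by linarith) hL hj hjL
    calc (2 : ℝ) ^ B * (4 * Gsum.pg (1 - η) j)
        ≤ 2 ^ B * (4 * ((1 / η + 1) * 3 * L ^ η)) := by gcongr
      _ = _ := by rw [hc₁]; ring
  have r5 : ENNReal.ofReal (G ^ (-η)) * ∑' g : ℕ, ENNReal.ofReal (P004.dv g ^ B * (g : ℝ) ^ (η - 2) *
      ∑ d ∈ g.divisors.filter (· ∣ j), (d : ℝ)) ≤
      ENNReal.ofReal (G ^ (-η) * (Real.exp (c₁ * L ^ η) * K₁)) := by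
    rw [ENNReal.ofReal_mul (by positivity), ENNReal.ofReal_mul (by positivity)]
    gcongr
    exact r2.trans (mul_le_mul' (ENNReal.ofReal_le_ofReal r4) r3)
  refine r5.trans (ENNReal.ofReal_le_ofReal ?_)
  have hx : 1 ≤ L ^ η := Real.one_le_rpow hL h0.le
  have q1 : G ^ (-η) = Real.exp (-(η * L ^ δ)) := by
    rw [hG, ← Real.exp_mul]; congr 1; ring
  have q2 : (L ^ η) ^ 2 ≤ L ^ δ := by
    rw [← Real.rpow_natCast, ← Real.rpow_mul hL0.le]
    apply Real.rpow_le_rpow_of_exponent_le hL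
    push_cast
    linarith
  have q3 : (L : ℝ) ^ A ≤ Real.exp (A / η * L ^ η) := by
    have := Real.log_le_rpow_div hL0.le h0
    calc (L : ℝ) ^ A = Real.exp (A * Real.log L) := by
          rw [mul_comm, Real.exp_mul, Real.exp_log hL0, Real.rpow_natCast]
      _ ≤ Real.exp (A / η * L ^ η) := by
          apply Real.exp_le_exp.2
          calc (A : ℝ) * Real.log L ≤ A * (L ^ η / η) := by gcongr
            _ = _ := by ring
  rw [le_div_iff₀ (by positivity)]
  refine le_trans ?_ (le_max_right _ _)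
  calc G ^ (-η) * (Real.exp (c₁ * L ^ η) * K₁) * L ^ A
      ≤ G ^ (-η) * (Real.exp (c₁ * L ^ η) * K₁) * Real.exp (A / η * L ^ η) := by gcongr
    _ = Real.exp (-(η * L ^ δ) + c₁ * L ^ η + A / η * L ^ η) * K₁ := by
        rw [q1, Real.exp_add, Real.exp_add]; ring
    _ ≤ Real.exp (c₂ ^ 2 / (4 * η)) * K₁ := by
        gcongr
        have q4 : -(η * L ^ δ) + c₁ * L ^ η + A / η * L ^ η ≤
            -(η * (L ^ η) ^ 2) + c₂ * L ^ η := by
          have : η * (L ^ η) ^ 2 ≤ η * L ^ δ := by gcongr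
          rw [hc₂]
          linarith
        refine q4.trans ?_
        rw [le_div_iff₀ (by positivity)]
        nlinarith [sq_nonneg (2 * η * L ^ η - c₂)]

end P004E
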