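import Vale.Agent.P004E.H187.Dual8
import Vale.Agent.P004E.H187.Gsum

/-!
# P004E, module S5 (`StDual`), part 9: assembly
-/

open Real MeasureTheory Set Filter
open scoped ENNReal Topology

namespace P004E

namespace Dual

open P004G

variable [Crv]

/-- both signs -/
noncomputable def Wd (H : ℕ) (u : ℝ) (k : ℝ → ℝ) (j : ℕ) : ℝ≥0∞ :=
  ENNReal.ofReal |Ad H 1 (1 * j) u k| + ENNReal.ofReal |Ad H 1 (-1 * j) u k|

theorem Wd_le (hAdAG : StAdAG) {H : ℕ} {u : ℝ} {k : ℝ → ℝ} (hH : 1 ≤ H) (hu : 0 < u)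
    (hk : Kn 0 k) {j : ℕ} (hj : 0 < j) : Wd H u k j ≤ Far.WW H (u / 2) 1 j := by
  unfold Wd Far.WW Far.II
  exact add_le_add (hAdAG H u 1 j 1 k hH hu one_pos hj (by norm_num) hk)
    (hAdAG H u 1 j (-1) k hH hu one_pos hj (by norm_num) hk)

theorem tsum_Wd (H : ℕ) (u : ℝ) (k : ℝ → ℝ) :
    ∑' j : ℕ, (ENNReal.ofReal |Ad H 1 (j + 1) u k| + ENNReal.ofReal |Ad H 1 (-(j + 1)) u k|) =
      ∑' j : ℕ, Wd H u k (j + 1) := by
  apply tsum_congr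
  intro j
  unfold Wd
  rw [one_mul, neg_one_mul]
  push_cast
  rfl

omit [Crv] in
theorem split3 (W : ℕ → ℝ≥0∞) {X N : ℕ} (hX : 1 ≤ X) (hXN : X ≤ N) :
    ∑ j ∈ Finset.Icc 1 (N - 1), W j = ∑ j ∈ Finset.Ico 1 X, W j + ∑ j ∈ Finset.Ico X N, W j := by
  have e : Finset.Icc 1 (N - 1) = Finset.Ico 1 N := by
    ext x
    simp only [Finset.mem_Ico, Finset.mem_Icc]
    omega
  rw [e, Finset.sum_Ico_consecutive W hX hXN]

omit [Crv] in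
/-- the final estimate -/
theorem fin_real {Λ u H α ε E D₁ C K₁ C₅ Z : ℝ} {I K M : ℕ} (hΛ : 1 ≤ Λ) (hu : 0 < u) (hH : 0 < H)
    (hα : 0 ≤ α) (hε : 0 < ε) (hD₁ : 0 ≤ D₁) (hC : 1 ≤ C) (hK₁ : 1 ≤ K₁) (hZ : 0 ≤ Z) (hE : 0 ≤ E)
    (hI : (I : ℝ) ≤ K₁ * Λ ^ (ε / 2)) (hM : ε / 2 ≤ M) (hC₅ : Λ ^ (M + K) * E ≤ C₅) :
    D₁ / (u / 2 * H) + I * (C * (Λ ^ (ε / 2) * (Λ + Λ ^ α) / (H * u) + Λ ^ K * E)) + Z ≤
      (2 * D₁ + K₁ * C + K₁ * C * C₅ + Z + 1) * (1 + Λ ^ ε * (Λ + Λ ^ α) / (H * u)) := by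
  have hΛ0 : 0 < Λ := by linarith
  have hP1 : 1 ≤ Λ ^ ε := Real.one_le_rpow hΛ hε.le
  have ha1 : 1 ≤ Λ ^ α := Real.one_le_rpow hΛ hα
  have hC₅0 : 0 ≤ C₅ := le_trans (by positivity) hC₅
  have e2 : Λ ^ (ε / 2) * Λ ^ (ε / 2) = Λ ^ ε := by
    rw [← Real.rpow_add hΛ0]; congr 1; ring
  obtain ⟨Q, hQ⟩ : ∃ Q, Q = Λ ^ ε * (Λ + Λ ^ α) / (H * u) := ⟨_, rfl⟩
  have hQ0 : 0 ≤ Q := by rw [hQ]; positivity
  have q1 : D₁ / (u / 2 * H) ≤ 2 * D₁ * Q := by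
    have h1 : 1 ≤ Λ ^ ε * (Λ + Λ ^ α) := by nlinarith
    calc D₁ / (u / 2 * H) = 2 * D₁ * (1 / (H * u)) := by field_simp
      _ ≤ 2 * D₁ * (Λ ^ ε * (Λ + Λ ^ α) / (H * u)) := by gcongr
      _ = _ := by rw [hQ]
  have q2 : (I : ℝ) * (C * (Λ ^ (ε / 2) * (Λ + Λ ^ α) / (H * u))) ≤ K₁ * C * Q := by
    calc (I : ℝ) * (C * (Λ ^ (ε / 2) * (Λ + Λ ^ α) / (H * u)))
        ≤ (K₁ * Λ ^ (ε / 2)) * (C * (Λ ^ (ε / 2) * (Λ + Λ ^ α) / (H * u))) := by gcongr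
      _ = K₁ * C * ((Λ ^ (ε / 2) * Λ ^ (ε / 2)) * (Λ + Λ ^ α) / (H * u)) := by ring
      _ = _ := by rw [e2, hQ]
  have q3 : (I : ℝ) * (C * (Λ ^ K * E)) ≤ K₁ * C * C₅ := by
    have h1 : Λ ^ (ε / 2) ≤ Λ ^ M := by
      rw [← Real.rpow_natCast Λ M]
      exact Real.rpow_le_rpow_of_exponent_le hΛ hM
    calc (I : ℝ) * (C * (Λ ^ K * E)) ≤ (K₁ * Λ ^ (ε / 2)) * (C * (Λ ^ K * E)) := by gcongr
      _ ≤ (K₁ * Λ ^ M) * (C * (Λ ^ K * E)) := by gcongr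
      _ = K₁ * C * (Λ ^ (M + K) * E) := by rw [pow_add]; ring
      _ ≤ _ := by gcongr
  rw [← hQ]
  have e3 : D₁ / (u / 2 * H) + I * (C * (Λ ^ (ε / 2) * (Λ + Λ ^ α) / (H * u) + Λ ^ K * E)) + Z =
      D₁ / (u / 2 * H) + I * (C * (Λ ^ (ε / 2) * (Λ + Λ ^ α) / (H * u))) +
        I * (C * (Λ ^ K * E)) + Z := by ring
  rw [e3]
  have hKC : 0 ≤ K₁ * C := by positivity
  have hKCC : 0 ≤ K₁ * C * C₅ := by positivity
  have s1 : 0 ≤ (K₁ * C * C₅ + Z + 1) * Q := by positivity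
  calc D₁ / (u / 2 * H) + I * (C * (Λ ^ (ε / 2) * (Λ + Λ ^ α) / (H * u))) +
        I * (C * (Λ ^ K * E)) + Z ≤ 2 * D₁ * Q + K₁ * C * Q + K₁ * C * C₅ + Z := by linarith
    _ ≤ _ := by nlinarith

/-- the dual side for `u ≤ 1` -/
theorem dual_sum {n : ℕ} {α : ℝ} (hAdAG : StAdAG) (hSep : StAdSep) (hAP : StAP) (hST : StST)
    (hTq : StTq) (hFar : StFar) (hLev : StLev n α) (h0 : StN0) (hG : StGsum) (hAG : StAG)
    (hTail : StTailAG) (hFull : StFull) (hα : 0 ≤ α) {ε : ℝ} (hε : 0 < ε) :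
    ∃ c : ℝ, 144 ≤ c ∧ ∃ K : ℝ, 1 ≤ K ∧ ∀ (L u : ℝ) (H : ℕ) (k : ℝ → ℝ), 1 ≤ L → 1 ≤ H →
    Real.exp (-L) ≤ u → u ≤ 1 → Kn (n + 4) k →
    ∑' j : ℕ, Wd H u k (j + 1) ≤
      ENNReal.ofReal (K * (1 + (c * L) ^ ε * (c * L + (c * L) ^ α) / (H * u))) := by
  obtain ⟨C₂, hC₂, A₂, hG'⟩ := hAG
  obtain ⟨C₃, hC₃, hT⟩ := hTail
  obtain ⟨C₄, hC₄, B, hJ⟩ := Tw.pfJs hFull P004.pfDiv A₂
  obtain ⟨c, hc, hn⟩ := nblocks C₃ hC₃ (A₂ + B)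
  obtain ⟨K₁, hK₁, hn⟩ := hn (ε / 2) (by linarith)
  obtain ⟨δ, hδ0, K, C, hC, hb⟩ := blocks hSep hAP hST hTq hFar hLev h0 hG hFull hα (A₂ + B)
    (show 0 < ε / 2 by linarith)
  obtain ⟨C₅, hC₅, hpe⟩ := pow_exp (⌈ε / 2⌉₊ + K) hδ0
  set Z₂ : ℝ := ∑' j : ℕ, 1 / (((j + 1 : ℕ) : ℝ)) ^ 2 with hZ₂
  have hZ₂0 : 0 ≤ Z₂ := tsum_nonneg fun j => by positivity
  have hK3 : 0 ≤ Far.K3 C₃ := by unfold Far.K3; positivity
  have hD₁ : 0 ≤ 4 * C₂ * 8 ^ A₂ * C₄ := by positivity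
  refine ⟨c, hc, 2 * (4 * C₂ * 8 ^ A₂ * C₄) + K₁ * C + K₁ * C * C₅ + 2 * Far.K3 C₃ * Z₂ + 1, ?_, ?_⟩
  · have : 0 ≤ 2 * (4 * C₂ * 8 ^ A₂ * C₄) + K₁ * C + K₁ * C * C₅ + 2 * Far.K3 C₃ * Z₂ := by
      positivity
    linarith
  intro L u H k hL hH hu hu1 hk
  obtain ⟨I, hI1, hI2, hI3⟩ := hn L u H hL (by exact_mod_cast hH) hu
  have hu0 : 0 < u := lt_of_lt_of_le (Real.exp_pos _) hu
  have hH1 : (1 : ℝ) ≤ H := by exact_mod_cast hH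
  obtain ⟨Λ, hΛ⟩ : ∃ Λ, Λ = c * L := ⟨_, rfl⟩
  rw [← hΛ] at hI1 hI2 hI3 ⊢
  have hΛL : 144 * L ≤ Λ := by rw [hΛ]; gcongr
  have hΛ1 : 1 ≤ Λ := by linarith
  have huΛ : Real.exp (-(Λ / 9)) ≤ u := (Real.exp_le_exp.2 (by linarith)).trans hu
  have hVΛ : Real.exp (-(2 * Λ)) ≤ u / 2 := by
    have h1 : Real.exp (-1) ≤ 1 / 2 := by
      rw [Real.exp_neg, inv_le_comm₀ (by positivity) (by norm_num)]
      linarith [Real.add_one_le_exp (1 : ℝ)]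
    calc Real.exp (-(2 * Λ)) ≤ Real.exp (-L) * Real.exp (-1) := by
          rw [← Real.exp_add]
          apply Real.exp_le_exp.2
          linarith
      _ ≤ u * (1 / 2) := by gcongr
      _ = u / 2 := by ring
  obtain ⟨X, hX⟩ : ∃ X, X = Xc Λ (u / 2) H (A₂ + B) := ⟨_, rfl⟩
  have hX1 : 1 ≤ X := by rw [hX]; unfold Xc; omega
  have hXN : X ≤ 2 ^ I * X := Nat.le_mul_of_pos_left _ (by positivity)
  have hk0 : Kn 0 k := kn_mono (by omega) hk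
  have htail : ∀ j : ℕ, 2 ^ I * X - 1 < j →
      Wd H u k j ≤ ENNReal.ofReal (2 * Far.K3 C₃ * (1 / (j : ℝ) ^ 2)) := by
    intro j hj
    have hj0 : 0 < j := by omega
    refine (Wd_le hAdAG hH hu0 hk0 hj0).trans ?_
    apply Far.tail_W C₃ hC₃ hT hΛ1 hH1 hVΛ one_pos
    refine lt_of_lt_of_le hI2 ?_
    rw [← hX]
    omega
  refine (Far.split_sum (Wd H u k) _ _ (by positivity) htail).trans ?_
  rw [split3 _ hX1 hXN]
  have s1 : ∑ j ∈ Finset.Ico 1 X, Wd H u k j ≤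
      ENNReal.ofReal (4 * C₂ * 8 ^ A₂ * C₄ / (u / 2 * H)) := by
    refine le_trans (Finset.sum_le_sum fun j hj => ?_) (hX ▸ small_part hC₂ hG' hJ hΛ1 hH1 hVΛ)
    rw [Finset.mem_Ico] at hj
    exact Wd_le hAdAG hH hu0 hk0 (by omega)
  have s2 : ∑ j ∈ Finset.Ico X (2 ^ I * X), Wd H u k j ≤
      ENNReal.ofReal (I * (C * (Λ ^ (ε / 2) * (Λ + Λ ^ α) / (H * u) +
        Λ ^ K * Real.exp (-Λ ^ δ / 2)))) := by
    have := hb Λ u H I k (by linarith) hH hI3 huΛ hk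
    rw [← hX] at this
    exact this
  have hΛ0 : 0 < Λ := by linarith
  have hH0 : (0 : ℝ) < H := by linarith
  refine (add_le_add (add_le_add s1 s2) le_rfl).trans ?_
  rw [← hZ₂, ← ENNReal.ofReal_add (by positivity) (by positivity),
    ← ENNReal.ofReal_add (by positivity) (by positivity)]
  apply ENNReal.ofReal_le_ofReal
  exact fin_real hΛ1 hu0 hH0 hα hε hD₁ hC hK₁ (by positivity) (Real.exp_pos _).le hI1
    (Nat.le_ceil _) (hpe Λ hΛ1)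

omit [Crv] in
theorem scale {c L α ε : ℝ} (hc : 1 ≤ c) (hL : 1 ≤ L) :
    (c * L) ^ ε * (c * L + (c * L) ^ α) ≤ c ^ ε * (c + c ^ α) * (L ^ ε * (L + L ^ α)) := by
  have hc0 : 0 < c := by linarith
  have hL0 : 0 < L := by linarith
  rw [Real.mul_rpow hc0.le hL0.le, Real.mul_rpow hc0.le hL0.le]
  have h1 : 0 ≤ c * L ^ α := by positivity
  have h2 : 0 ≤ c ^ α * L := by positivity
  calc c ^ ε * L ^ ε * (c * L + c ^ α * L ^ α) ≤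
        c ^ ε * L ^ ε * (c * L + c ^ α * L ^ α + (c * L ^ α + c ^ α * L)) :=
        mul_le_mul_of_nonneg_left (by linarith) (by positivity)
    _ = _ := by ring

end Dual

open P004G

variable [Crv]

/-- **Module S5** : the dual side. -/
theorem pfDual (hPoi : StPoiW) (hA0 : StAd0) (hAdAG : StAdAG) (hSep : StAdSep) (hAP : StAP)
    (hST : StST) (hTq : StTq) (h0 : StN0) (hAG : StAG) (hTail : StTailAG) (hFull : StFull) :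
    StDual := by
  intro n α ε hε hα hLev
  obtain ⟨c, hc, K, hK, hD⟩ := Dual.dual_sum hAdAG hSep hAP hST hTq
    (pfFar hPoi hA0 hAdAG hAG hTail hFull) hLev h0 pfGsum hAG hTail hFull hα hε
  obtain ⟨C₀, hC₀, hP⟩ := hPoi
  obtain ⟨C₁, hC₁, hA⟩ := hA0
  obtain ⟨C₅, hC₅, hS⟩ := Far.Sw_small
  have hc1 : 1 ≤ c := by linarith
  have hc0 : 0 < c := by linarith
  have hcp : 0 ≤ c ^ ε * (c + c ^ α) := by positivity
  refine ⟨C₀ * (C₁ + K) + C₀ * K * (c ^ ε * (c + c ^ α)) + 3 * C₅ ^ 2, ?_, ?_⟩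
  · have h1 : 1 ≤ C₀ * (C₁ + K) := by nlinarith
    have h2 : 0 ≤ C₀ * K * (c ^ ε * (c + c ^ α)) := by positivity
    nlinarith [sq_nonneg C₅]
  intro L u H k hL hH hHL hu hk
  have hu0 : 0 < u := lt_of_lt_of_le (Real.exp_pos _) hu
  have hH0 : (0 : ℝ) < H := by exact_mod_cast hH
  have hL0 : 0 < L := by linarith
  have hk0 : Kn 0 k := Dual.kn_mono (by omega) hk
  obtain ⟨P, hPd⟩ : ∃ P, P = L ^ ε * (L + L ^ α) := ⟨_, rfl⟩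
  have hP0 : 0 ≤ P := by rw [hPd]; positivity
  rw [← hPd]
  have hX : 0 ≤ P / u := by positivity
  have g1 : 0 ≤ C₀ * (C₁ + K) := by positivity
  have g2 : 0 ≤ C₀ * K * (c ^ ε * (c + c ^ α)) := by positivity
  have g3 : 0 ≤ C₅ ^ 2 := sq_nonneg _
  rcases le_total 1 u with hu1 | hu1
  · have h1 : ∀ h ∈ hZ H, Sw h 1 u k ^ 2 ≤ C₅ ^ 2 := by
      intro h _
      have h2 := hS h 1 u k hu1 hk0
      have h3 : Real.exp (-2 * u) ≤ 1 := by rw [Real.exp_le_one_iff]; linarith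
      calc Sw h 1 u k ^ 2 = |Sw h 1 u k| ^ 2 := (sq_abs _).symm
        _ ≤ (C₅ * Real.exp (-2 * u)) ^ 2 := by gcongr
        _ ≤ (C₅ * 1) ^ 2 := by gcongr
        _ = _ := by ring
    have hcard : ((hZ H).card : ℝ) ≤ 3 * H := by
      have : (hZ H).card ≤ 3 * H := by
        unfold hZ
        refine (Finset.card_erase_le).trans ?_
        rw [Int.card_Icc]
        omega
      exact_mod_cast this
    calc ∑ h ∈ hZ H, Sw h 1 u k ^ 2 ≤ ∑ h ∈ hZ H, C₅ ^ 2 := Finset.sum_le_sum h1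
      _ = (hZ H).card * C₅ ^ 2 := by rw [Finset.sum_const, nsmul_eq_mul]
      _ ≤ (3 * H) * C₅ ^ 2 := by gcongr
      _ = (3 * C₅ ^ 2) * H := by ring
      _ ≤ (C₀ * (C₁ + K) + C₀ * K * (c ^ ε * (c + c ^ α)) + 3 * C₅ ^ 2) * (H + P / u) := by
        gcongr
        · linarith
        · linarith
  have hD' := hD L u H k hL hH hu hu1 hk
  have hA' := hA H u 1 k hH hu0 one_pos hk0
  have hall := hP H u 1 k hH hu0 one_pos hk0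
  rw [Dual.tsum_Wd] at hall
  obtain ⟨Q, hQ⟩ : ∃ Q, Q = (c * L) ^ ε * (c * L + (c * L) ^ α) := ⟨_, rfl⟩
  have hQ0 : 0 ≤ Q := by rw [hQ]; positivity
  have hQP : Q ≤ c ^ ε * (c + c ^ α) * P := by rw [hQ, hPd]; exact Dual.scale hc1 hL
  rw [← hQ] at hD'
  have hfin : ENNReal.ofReal (∑ h ∈ hZ H, Sw h 1 u k ^ 2) ≤
      ENNReal.ofReal (C₀ * H * (C₁ + K * (1 + Q / (H * u)))) := by
    refine hall.trans ?_
    rw [ENNReal.ofReal_mul (p := C₀ * H) (by positivity), ENNReal.ofReal_add (p := C₁)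
      (by positivity) (by positivity)]
    gcongr
  have hreal := (ENNReal.ofReal_le_ofReal_iff (by positivity)).1 hfin
  refine hreal.trans ?_
  have e1 : C₀ * H * (C₁ + K * (1 + Q / (H * u))) = C₀ * (C₁ + K) * H + C₀ * K * (Q / u) := by
    field_simp
    ring
  rw [e1]
  have a1 : C₀ * K * (Q / u) ≤ C₀ * K * (c ^ ε * (c + c ^ α)) * (P / u) := by
    calc C₀ * K * (Q / u) ≤ C₀ * K * (c ^ ε * (c + c ^ α) * P / u) := by gcongr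
      _ = _ := by ring
  have a2 : 0 ≤ (C₀ * K * (c ^ ε * (c + c ^ α)) + 3 * C₅ ^ 2) * H := by positivity
  have a3 : 0 ≤ (C₀ * (C₁ + K) + 3 * C₅ ^ 2) * (P / u) := by positivity
  nlinarith

end P004E
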